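import Vale.Agent.P085.Basic

/-! Minimal norm averaging, primeness, corner irreducibility. -/

open scoped ComplexConjugate
open Filter Topology Complex

namespace Vale.Agent.P085

variable {A : Type*} [CStarAlgebra A] [TrAlg A]

noncomputable def mid (x y : A) : A := (2⁻¹ : ℂ) • (x + y)

lemma n2_mid (x y : A) : 4 * n2 (mid x y) ^ 2 + n2 (x - y) ^ 2 = 2 * (n2 x ^ 2 + n2 y ^ 2) := by
  rw [← n2_par, mid, n2_smul]; simp; ring

lemma n2_mid_le (x y : A) : n2 (mid x y) ≤ (n2 x + n2 y) / 2 := by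
  rw [mid, n2_smul]; have := n2_add_le x y; simp; linarith

omit [TrAlg A] in
lemma norm_mid {x y : A} {C : ℝ} (hx : ‖x‖ ≤ C) (hy : ‖y‖ ≤ C) : ‖mid x y‖ ≤ C := by
  rw [mid, norm_smul]; have := norm_add_le x y; simp; linarith

lemma minnorm [Cpl A] {K : Set A} (hK : C2 K) {C : ℝ} (hC : ∀ x ∈ K, ‖x‖ ≤ C) (hne : K.Nonempty)
    (hm : ∀ x ∈ K, ∀ y ∈ K, mid x y ∈ K) : ∃ z ∈ K, ∀ z' ∈ K, n2 z' ≤ n2 z → z' = z := by
  set δ := sInf ((fun x => n2 x ^ 2) '' K) with hδ
  have hb : BddBelow ((fun x => n2 x ^ 2) '' K) := ⟨0, by rintro _ ⟨x, -, rfl⟩; positivity⟩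
  have hl : ∀ x ∈ K, δ ≤ n2 x ^ 2 := fun x hx => csInf_le hb ⟨x, hx, rfl⟩
  have hx : ∀ n : ℕ, ∃ x ∈ K, n2 x ^ 2 < δ + 1 / (n + 1) := fun n => by
    obtain ⟨_, ⟨x, hx, rfl⟩, h⟩ := exists_lt_of_csInf_lt (hne.image fun x => n2 x ^ 2)
      (lt_add_of_pos_right δ (by positivity : (0 : ℝ) < 1 / (n + 1)))
    exact ⟨x, hx, h⟩
  choose x hxK hx using hx
  have hmono : ∀ N m : ℕ, m ≥ N → (1 : ℝ) / (m + 1) ≤ 1 / (N + 1) := fun N m h => by
    gcongr
  obtain ⟨z, -, hz⟩ := cpl_of x C (fun n => hC _ (hxK n)) (fun N => 4 * (1 / (N + 1)))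
    (by simpa using tendsto_one_div_add_atTop_nhds_zero_nat.const_mul (4 : ℝ)) fun N m hm' n hn => by
      have h1 := n2_mid (x m) (x n)
      have h2 := hl _ (hm _ (hxK m) _ (hxK n))
      have := hx m
      have := hx n
      have := hmono N m hm'
      have := hmono N n hn
      linarith
  have hzK : z ∈ K := hK.lim (Eventually.of_forall hxK) hz
  have hzδ : n2 z ^ 2 ≤ δ := by
    have h1 : Tendsto (fun n => n2 (x n)) atTop (𝓝 (n2 z)) := by
      rw [tendsto_iff_norm_sub_tendsto_zero]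
      refine squeeze_zero (fun _ => norm_nonneg _) (fun n => ?_) hz
      rw [Real.norm_eq_abs, abs_le]
      have := n2_le_add (x n) z
      have := n2_le_add z (x n)
      rw [n2_sub_rev z] at this
      constructor <;> linarith
    have h2 : Tendsto (fun n : ℕ => δ + 1 / ((n : ℝ) + 1)) atTop (𝓝 (δ + 0)) :=
      tendsto_one_div_add_atTop_nhds_zero_nat.const_add δ
    simpa using le_of_tendsto_of_tendsto' (h1.pow 2) h2 fun n => (hx n).le
  refine ⟨z, hzK, fun z' hz' h => sub_eq_zero.1 (n2_eq_zero ?_)⟩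
  have h1 := n2_mid z' z
  have h2 := hl _ (hm _ hz' _ hzK)
  have h3 : n2 z' ^ 2 ≤ n2 z ^ 2 := pow_le_pow_left₀ (n2_nonneg _) h 2
  have h4 : n2 (z' - z) ^ 2 ≤ 0 := by linarith
  nlinarith

theorem avg [Cpl A] (G : Set A) (hU : ∀ w ∈ G, w ∈ unitary A) (h1 : (1 : A) ∈ G)
    (hM : ∀ w ∈ G, ∀ w' ∈ G, w * w' ∈ G) {P : Set A} (hP : C2 P)
    (hm : ∀ x ∈ P, ∀ y ∈ P, mid x y ∈ P) {z : A} (hz : ∀ w ∈ G, w * z * star w ∈ P) :
    ∃ z' ∈ P, tr z' = tr z ∧ ∀ w ∈ G, w * z' = z' * w := by
  let K : Set A := {x | ‖x‖ ≤ ‖z‖} ∩ ({x | ‖tr x - tr z‖ ≤ 0} ∩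
    {x | ∀ w : G, x ∈ {x | w.1 * x * star w.1 ∈ P}})
  have hK : C2 K := by
    refine (C2_ball _).inter ((C2_le _ 1 _ fun x y => ?_).inter (C2.all fun w => hP.pre _ 1 ?_))
    · have := tr_le (x - y)
      have h2 := norm_sub_le_norm_sub_add_norm_sub (tr x) (tr y) (tr z)
      rw [map_sub] at this
      linarith
    · intro x y
      rw [← sub_mul, ← mul_sub, n2_conj (hU _ w.2), one_mul]
  obtain ⟨z', hz', hu⟩ := minnorm hK (C := ‖z‖) (fun x hx => hx.1) ⟨z, le_refl ‖z‖, by simp,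
    fun w => hz _ w.2⟩ fun x hx y hy => by
      refine ⟨norm_mid hx.1 hy.1, ?_, fun w => ?_⟩
      · have h1 : tr x = tr z := by simpa [sub_eq_zero] using hx.2.1
        have h2 : tr y = tr z := by simpa [sub_eq_zero] using hy.2.1
        simp [mid, h1, h2]; ring
      · have := hm _ (hx.2.2 w) _ (hy.2.2 w)
        simpa [mid, mul_add, add_mul] using this
  have htr : tr z' = tr z := by simpa [sub_eq_zero] using hz'.2.1
  refine ⟨z', by simpa using hz'.2.2 ⟨1, h1⟩, htr, fun w hw => ?_⟩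
  have := hu (w * z' * star w) ⟨?_, ?_, fun w' => ?_⟩ (n2_conj (hU w hw) _).le
  · calc w * z' = w * z' * star w * w := by rw [mul_assoc _ (star w), usu (hU w hw), mul_one]
      _ = _ := by rw [this]
  · have h1 := unit_le (hU w hw)
    have h2 := unit_le (ustar (hU w hw))
    have h3 : ‖z'‖ ≤ ‖z‖ := hz'.1
    show ‖_‖ ≤ ‖z‖
    calc _ ≤ ‖w‖ * ‖z'‖ * ‖star w‖ := norm_mul₃_le
      _ ≤ 1 * ‖z‖ * 1 := by gcongr
      _ = _ := by simp
  · simp [tr_conj (hU w hw), htr]
  · have := hz'.2.2 ⟨w'.1 * w, hM _ w'.2 _ hw⟩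
    simpa [mul_assoc] using this

omit [TrAlg A] in
lemma le_of_unit (T : StarSubalgebra ℂ A) (hT : IsClosed (T : Set A)) (P : Submodule ℂ A)
    (h : ∀ w ∈ T, w ∈ unitary A → w ∈ P) : ∀ z ∈ T, z ∈ P := fun z hz => by
  obtain ⟨u, c, hu, -⟩ := CStarAlgebra.exists_sum_four_unitary (⟨z, hz⟩ : T)
  have : z = ∑ i, c i • ((u i : T) : A) := by simpa using congrArg Subtype.val hu
  rw [this]
  refine P.sum_mem fun i _ => P.smul_mem _ (h _ (u i).1.2 ⟨?_, ?_⟩)
  · exact congrArg Subtype.val (u i).2.1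
  · exact congrArg Subtype.val (u i).2.2

omit [TrAlg A] in
lemma comm_of_unit (T : StarSubalgebra ℂ A) (hT : IsClosed (T : Set A)) {X : A}
    (h : ∀ w ∈ T, w ∈ unitary A → w * X = X * w) : ∀ z ∈ T, z * X = X * z := fun z hz => by
  have := le_of_unit T hT (LinearMap.ker (LinearMap.mulRight ℂ X - LinearMap.mulLeft ℂ X))
    (fun w hw hu => by simp [h w hw hu]) z hz
  simpa [sub_eq_zero] using this

/-- commutant of a self-adjoint element -/
noncomputable def com (e : A) : StarSubalgebra ℂ A := StarSubalgebra.centralizer ℂ {e}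

omit [TrAlg A] in
lemma mem_com {e z : A} (he : star e = e) : z ∈ com e ↔ e * z = z * e := by
  simp [com, StarSubalgebra.mem_centralizer_iff, he]

lemma C2_com {e : A} (he : star e = e) : C2 (com e : Set A) := by
  have : (com e : Set A) = {z | e * z - z * e = 0} := by
    ext z; simp [mem_com he, sub_eq_zero]
  rw [this]
  refine C2_eq _ (2 * ‖e‖) fun x y => ?_
  have : e * x - x * e - (e * y - y * e) = e * (x - y) - (x - y) * e := by noncomm_ring
  rw [this]
  have := n2_sub_le (e * (x - y)) ((x - y) * e)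
  have := n2_mul_left e (x - y)
  have := n2_mul_right (x - y) e
  linarith

lemma C2.inf {S T : StarSubalgebra ℂ A} (h : C2 (S : Set A)) (h' : C2 (T : Set A)) :
    C2 ((S ⊓ T : StarSubalgebra ℂ A) : Set A) := h.inter h'

omit [TrAlg A] in
lemma mid_mem {S : StarSubalgebra ℂ A} {x y : A} (hx : x ∈ S) (hy : y ∈ S) : mid x y ∈ S :=
  S.smul_mem (add_mem hx hy) _

/-- `Q` has trivial relative commutant in `N` -/
def Irr (Q N : StarSubalgebra ℂ A) : Prop :=
  ∀ x ∈ N, (∀ q ∈ Q, q * x = x * q) → x = tr x • (1 : A)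

theorem avgI [Cpl A] {Q N : StarSubalgebra ℂ A} (hQ : C2 (Q : Set A)) (hN : C2 (N : Set A))
    (hQN : Q ≤ N) (hI : Irr Q N) {P : Set A} (hP : C2 P)
    (hm : ∀ x ∈ P, ∀ y ∈ P, mid x y ∈ P) {z : A} (hzN : z ∈ N)
    (hz : ∀ w ∈ Q, w ∈ unitary A → w * z * star w ∈ P) : tr z • (1 : A) ∈ P := by
  obtain ⟨z', hz', ht, hc⟩ := avg {w | w ∈ Q ∧ w ∈ unitary A} (fun w h => h.2)
    ⟨one_mem _, one_mem _⟩ (fun w h w' h' => ⟨mul_mem h.1 h'.1, mul_mem h.2 h'.2⟩) (hN.inter hP)
    (fun x hx y hy => ⟨mid_mem hx.1 hy.1, hm _ hx.2 _ hy.2⟩) (z := z) fun w h =>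
      ⟨mul_mem (mul_mem (hQN h.1) hzN) (star_mem (hQN h.1)), hz w h.1 h.2⟩
  have := hI z' hz'.1 (comm_of_unit Q hQ.isClosed fun w h h' => hc w ⟨h, h'⟩)
  rw [← ht, ← this]; exact hz'.2

theorem prime [Cpl A] {S : StarSubalgebra ℂ A} (hS : C2 (S : Set A)) (hI : Irr S S) {b c : A}
    (hc : c ∈ S) (hb0 : b ≠ 0) (hc0 : c ≠ 0) : ∃ w ∈ S, w ∈ unitary A ∧ b * w * c ≠ 0 := by
  by_contra h
  push Not at h
  have := avgI hS hS le_rfl hI (P := {z | b * z = 0})
    (C2_eq _ ‖b‖ fun x y => by rw [← mul_sub]; exact n2_mul_left _ _)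
    (fun x hx y hy => by simp_all [mid, mul_add]) (mul_mem hc (star_mem hc)) fun w hw hu => by
      show _ = _
      calc _ = b * w * c * (star c * star w) := by noncomm_ring
        _ = 0 := by rw [h w hw hu, zero_mul]
  simp only [Set.mem_ofPred_eq, mul_smul_comm, mul_one, smul_eq_zero, hb0, or_false] at this
  rw [tr_comm] at this
  exact hc0 (tr_faith this)

lemma corner_sa [Cpl A] {Q N : StarSubalgebra ℂ A} (hQ : C2 (Q : Set A)) (hN : C2 (N : Set A))
    (hQN : Q ≤ N) (hI : Irr Q N) {e X : A} (he : IsStarProjection e) (heQ : e ∈ Q) (hX : X ∈ N)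
    (hs : star X = X) (heX : e * X = X) (hc : ∀ w ∈ Q, e * w = w * e → w * X = X * w) :
    tr e • X = tr X • e := by
  have hXe : X * e = X := by simpa [hs, pstar he] using congrArg star heX
  let L : A → A := fun Z => I • (X * (Z + star Z) * e) - e * (Z - star Z) * e
  have := avgI hQ hN hQN hI (P := {Z | L Z = 0}) (C2_eq _ (2 * ‖X‖ + 2) fun x y => by
      have h1 : L x - L y = I • (X * ((x - y) + star (x - y)) * e)
          - e * ((x - y) - star (x - y)) * e := by
        simp only [L, star_sub, mul_add, add_mul, mul_sub, sub_mul, smul_add, smul_sub]; abel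
      rw [h1]
      have h2 := n2_add_le (x - y) (star (x - y))
      have h3 := n2_sub_le (x - y) (star (x - y))
      rw [n2_star] at h2 h3
      refine (n2_sub_le _ _).trans ?_
      rw [n2_smul, norm_I, one_mul]
      have h4 := (n2_right_le (ple he) _).trans (n2_mul_left X ((x - y) + star (x - y)))
      have h5 := (n2_right_le (ple he) _).trans (n2_left_le (ple he) ((x - y) - star (x - y)))
      have := norm_nonneg X
      nlinarith)
    (fun x hx y hy => by
      have h1 : L (mid x y) = mid (L x) (L y) := by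
        simp only [L, mid, star_smul, star_add, star_inv₀, star_ofNat, mul_add, add_mul, mul_sub,
          sub_mul, smul_add, smul_sub, mul_smul_comm, smul_mul_assoc, smul_comm I (2⁻¹ : ℂ)]
        abel
      show L _ = 0
      rw [h1, show L x = 0 from hx, show L y = 0 from hy]; simp [mid])
    (z := e + I • X) (add_mem (hQN heQ) (N.smul_mem hX _)) fun w hw hu => by
      show L _ = 0
      have h1 := hc (e * w * e) (mul_mem (mul_mem heQ hw) heQ)
        (by simp only [← mul_assoc, pp he]; simp only [mul_assoc, pp he])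
      rw [mul_assoc _ e X, heX, ← mul_assoc, ← mul_assoc, hXe] at h1
      have h2 : w * (e + I • X) * star w + star (w * (e + I • X) * star w)
          = (2 : ℂ) • (w * e * star w) := by
        simp only [star_mul, star_add, star_smul, star_star, hs, pstar he, star_def, conj_I,
          mul_add, add_mul, mul_smul_comm, smul_mul_assoc, mul_assoc]
        module
      have h3 : w * (e + I • X) * star w - star (w * (e + I • X) * star w)
          = (2 * I) • (w * X * star w) := by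
        simp only [star_mul, star_add, star_smul, star_star, hs, pstar he, star_def, conj_I,
          mul_add, add_mul, mul_smul_comm, smul_mul_assoc, mul_assoc]
        module
      simp only [L]
      rw [h2, h3]
      simp only [mul_smul_comm, smul_mul_assoc, ← mul_assoc, h1]
      module
  have h1 : tr (e + I • X) = (rt e : ℂ) + I * (rt X : ℂ) := by
    rw [map_add, map_smul, tr_proj he, tr_sa hs]; rfl
  rw [h1] at this
  simp only [Set.mem_ofPred_eq, L, star_smul, star_one, star_add, star_mul, star_def, conj_I,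
    conj_ofReal, ← add_smul, ← sub_smul, mul_smul_comm, smul_mul_assoc, mul_one, hXe, pp he,
    smul_smul] at this
  rw [tr_proj he, tr_sa hs]
  have h2 : (2 * I) • ((rt e : ℂ) • X - (rt X : ℂ) • e) = 0 := by
    rw [← this]; module
  simpa [sub_eq_zero] using h2

lemma corner [Cpl A] {Q N : StarSubalgebra ℂ A} (hQ : C2 (Q : Set A)) (hN : C2 (N : Set A))
    (hQN : Q ≤ N) (hI : Irr Q N) {e X : A} (he : IsStarProjection e) (heQ : e ∈ Q) (hX : X ∈ N)
    (heX : e * X = X) (hXe : X * e = X) (hc : ∀ w ∈ Q, e * w = w * e → w * X = X * w) :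
    tr e • X = tr X • e := by
  have hs : e * star X = star X := by simpa [pstar he] using congrArg star hXe
  have hc' : ∀ w ∈ Q, e * w = w * e → w * star X = star X * w := fun w hw h => by
    have := hc (star w) (star_mem hw) (by simpa [pstar he] using (congrArg star h).symm)
    simpa using (congrArg star this).symm
  have h1 := corner_sa hQ hN hQN hI he heQ (add_mem hX (star_mem hX)) (by simp [add_comm])
    (by rw [mul_add, heX, hs]) fun w hw h => by rw [mul_add, add_mul, hc w hw h, hc' w hw h]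
  have h2 := corner_sa hQ hN hQN hI he heQ (N.smul_mem (sub_mem hX (star_mem hX)) I)
    (by simp [star_smul, smul_sub]; abel) (by rw [mul_smul_comm, mul_sub, heX, hs]) fun w hw h => by
      rw [mul_smul_comm, smul_mul_assoc, mul_sub, sub_mul, hc w hw h, hc' w hw h]
  have h3 : tr e • (X - star X) = tr (X - star X) • e := by
    rw [map_smul, smul_comm, smul_assoc] at h2
    exact smul_right_injective A I_ne_zero h2
  rw [map_add] at h1
  rw [map_sub] at h3
  have h4 : (2 : ℂ) • (tr e • X) = (2 : ℂ) • (tr X • e) := by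
    linear_combination (norm := module) h1 + h3
  exact smul_right_injective A two_ne_zero h4

theorem lemA [Cpl A] {Q N : StarSubalgebra ℂ A} (hQ : C2 (Q : Set A)) (hN : C2 (N : Set A))
    (hQN : Q ≤ N) (hI : Irr Q N) {e X : A} (he : IsStarProjection e) (heQ : e ∈ Q) (hX : X ∈ N)
    (heX : e * X = X) (hXe : X * e = X) {η : ℝ}
    (h : ∀ w ∈ Q, w ∈ unitary A → e * w = w * e → n2 (w * X * star w - X) ≤ η) :
    ∃ c : ℂ, n2 (X - c • e) ≤ η := by
  obtain ⟨z, hz, -, hc⟩ := avg {w | (w ∈ Q ∧ e * w = w * e) ∧ w ∈ unitary A} (fun w h => h.2)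
    ⟨⟨one_mem _, by simp⟩, one_mem _⟩
    (fun w h w' h' => ⟨⟨mul_mem h.1.1 h'.1.1, by rw [← mul_assoc, h.1.2, mul_assoc, h'.1.2,
      mul_assoc]⟩, mul_mem h.2 h'.2⟩)
    (P := N ∩ ({z | e * z * e - z = 0} ∩ {z | n2 (z - X) ≤ η}))
    (hN.inter ((C2_eq _ 2 fun x y => by
      have : e * x * e - x - (e * y * e - y) = e * (x - y) * e - (x - y) := by noncomm_ring
      rw [this]
      have := n2_sub_le (e * (x - y) * e) (x - y)
      have := (n2_right_le (ple he) _).trans (n2_left_le (ple he) (x - y))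
      linarith).inter (C2_le _ 1 _ fun x y => by
        have := n2_tri x y X; linarith)))
    (fun x hx y hy => ⟨mid_mem hx.1 hy.1, by
      have h1 : e * x * e = x := sub_eq_zero.1 hx.2.1
      have h2 : e * y * e = y := sub_eq_zero.1 hy.2.1
      simp [mid, mul_add, add_mul, h1, h2], by
      have h1 : mid x y - X = mid (x - X) (y - X) := by simp only [mid]; module
      have h2 : n2 (x - X) ≤ η := hx.2.2
      have h3 : n2 (y - X) ≤ η := hy.2.2
      have := n2_mid_le (x - X) (y - X)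
      show n2 _ ≤ η
      rw [h1]; linarith⟩) (z := X) fun w hw =>
      ⟨mul_mem (mul_mem (hQN hw.1.1) hX) (star_mem (hQN hw.1.1)), by
        have h1 : star w * e = e * star w := by simpa [pstar he] using congrArg star hw.1.2
        show _ = _
        rw [sub_eq_zero]
        calc _ = e * w * X * (star w * e) := by noncomm_ring
          _ = w * (e * X * e) * star w := by rw [h1, hw.1.2]; noncomm_ring
          _ = _ := by rw [heX, hXe], h w hw.1.1 hw.2 hw.1.2⟩
  have h1 : e * z * e = z := sub_eq_zero.1 hz.2.1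
  have h2 : e * z = z := by rw [← h1, ← mul_assoc, ← mul_assoc, pp he]
  have h3 : z * e = z := by rw [← h1, mul_assoc, pp he]
  have h4 := corner hQ hN hQN hI he heQ hz.1 h2 h3 fun w hw hw' =>
    comm_of_unit (Q ⊓ com e) (hQ.inf (C2_com (pstar he))).isClosed
      (fun w h h' => hc w ⟨⟨h.1, (mem_com (pstar he)).1 h.2⟩, h'⟩) w ⟨hw, (mem_com (pstar he)).2 hw'⟩
  have h5 : n2 (z - X) ≤ η := hz.2.2
  rw [n2_sub_rev] at h5
  by_cases h0 : e = 0
  · refine ⟨0, ?_⟩
    rwa [← h2, h0, zero_mul, ← zero_smul ℂ (0 : A), ← h0] at h5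
  · have h6 : tr e ≠ 0 := by
      rw [tr_proj he]; exact_mod_cast (rt_pos he h0).ne'
    refine ⟨tr z / tr e, ?_⟩
    rwa [div_eq_inv_mul, mul_smul, ← h4, smul_smul, inv_mul_cancel₀ h6, one_smul]

end Vale.Agent.P085
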