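import Mathlib

/-! Tracial C-star algebras: the 2-norm and its basic inequalities. -/

open scoped ComplexConjugate InnerProductSpace
open Filter Topology

namespace Vale.Agent.P085

class TrAlg (A : Type*) [CStarAlgebra A] where
  trl : A →ₗ[ℂ] ℂ
  tr_one' : trl 1 = 1
  tr_comm' : ∀ x y, trl (x * y) = trl (y * x)
  tr_star' : ∀ x, trl (star x) = conj (trl x)
  tr_pos' : ∀ x, 0 ≤ (trl (star x * x)).re
  tr_faith' : ∀ x, trl (star x * x) = 0 → x = 0

variable {A : Type*} [CStarAlgebra A] [TrAlg A]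

noncomputable def tr : A →ₗ[ℂ] ℂ := TrAlg.trl

@[simp] lemma tr_one : tr (1 : A) = 1 := TrAlg.tr_one'
lemma tr_comm (x y : A) : tr (x * y) = tr (y * x) := TrAlg.tr_comm' x y
lemma tr_star (x : A) : tr (star x) = conj (tr x) := TrAlg.tr_star' x
lemma tr_pos (x : A) : 0 ≤ (tr (star x * x)).re := TrAlg.tr_pos' x
lemma tr_faith {x : A} (h : tr (star x * x) = 0) : x = 0 := TrAlg.tr_faith' x h

lemma tr_cyc (x y z : A) : tr (x * y * z) = tr (y * z * x) := by
  rw [mul_assoc, tr_comm]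
lemma tr_cyc' (x y z : A) : tr (x * y * z) = tr (z * x * y) := by
  rw [tr_comm, mul_assoc]

variable (A) in
lemma nontriv : Nontrivial A := ⟨⟨1, 0, fun h => by
  have := tr_one (A := A); rw [h, map_zero] at this; exact zero_ne_one this⟩⟩

variable (A) in
/-- The algebra with the trace seminorm. -/
def L2 (A : Type*) [CStarAlgebra A] [TrAlg A] : Type _ := A

noncomputable instance : AddCommGroup (L2 A) := inferInstanceAs (AddCommGroup A)
noncomputable instance : Module ℂ (L2 A) := inferInstanceAs (Module ℂ A)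

noncomputable def toL2 : A ≃ₗ[ℂ] L2 A := LinearEquiv.refl ℂ _

variable (A) in
noncomputable abbrev core : PreInnerProductSpace.Core ℂ (L2 A) where
  inner a b := tr (star (toL2.symm a) * toL2.symm b)
  conj_inner_symm a b := by rw [← tr_star, star_mul, star_star]
  re_inner_nonneg a := tr_pos _
  add_left _ _ _ := by rw [map_add, star_add, add_mul, map_add]
  smul_left := by simp

noncomputable instance : SeminormedAddCommGroup (L2 A) :=
  InnerProductSpace.Core.toSeminormedAddCommGroup (c := core A)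
noncomputable instance : InnerProductSpace ℂ (L2 A) := InnerProductSpace.ofCore (core A)

lemma inner_toL2 (x y : A) : ⟪toL2 x, toL2 y⟫_ℂ = tr (star x * y) := rfl

/-- The 2-norm. -/
noncomputable def n2 (x : A) : ℝ := ‖toL2 x‖

lemma n2_nonneg (x : A) : 0 ≤ n2 x := norm_nonneg _

lemma n2_sq (x : A) : n2 x ^ 2 = (tr (star x * x)).re := by
  rw [n2, ← inner_toL2, ← inner_self_eq_norm_sq (𝕜 := ℂ)]; rfl

lemma tr_sq (x : A) : tr (star x * x) = ((n2 x ^ 2 : ℝ) : ℂ) := by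
  rw [n2, ← inner_toL2, inner_self_eq_norm_sq_to_K]; simp

@[simp] lemma n2_zero : n2 (0 : A) = 0 := by simp [n2]

lemma n2_eq_zero {x : A} (h : n2 x ≤ 0) : x = 0 := by
  apply tr_faith
  rw [tr_sq, le_antisymm h (n2_nonneg x)]; simp

lemma n2_pos {x : A} (h : x ≠ 0) : 0 < n2 x :=
  lt_of_not_ge fun h' => h (n2_eq_zero h')

lemma eq_of_n2 {x y : A} (h : ∀ ε > 0, n2 (x - y) ≤ ε) : x = y :=
  sub_eq_zero.1 (n2_eq_zero (le_of_forall_pos_le_add fun ε hε => by simpa using h ε hε))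

lemma n2_add_le (x y : A) : n2 (x + y) ≤ n2 x + n2 y := by
  simp only [n2, map_add]; exact norm_add_le _ _
@[simp] lemma n2_neg (x : A) : n2 (-x) = n2 x := by simp [n2]
lemma n2_sub_le (x y : A) : n2 (x - y) ≤ n2 x + n2 y := by
  simp only [n2, map_sub]; exact norm_sub_le _ _
lemma n2_sub_rev (x y : A) : n2 (x - y) = n2 (y - x) := by
  simp only [n2, map_sub]; exact norm_sub_rev _ _
lemma n2_tri (x y z : A) : n2 (x - z) ≤ n2 (x - y) + n2 (y - z) := by
  have := n2_add_le (x - y) (y - z); rwa [sub_add_sub_cancel] at this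
lemma n2_le_add (x y : A) : n2 x ≤ n2 y + n2 (x - y) := by
  have := n2_add_le y (x - y); rwa [add_sub_cancel] at this
lemma n2_smul (c : ℂ) (x : A) : n2 (c • x) = ‖c‖ * n2 x := by
  simp only [n2, map_smul]; exact norm_smul _ _
lemma n2_sum_le {ι : Type*} (s : Finset ι) (f : ι → A) :
    n2 (∑ i ∈ s, f i) ≤ ∑ i ∈ s, n2 (f i) := by
  simp only [n2, map_sum]; exact norm_sum_le _ _

lemma n2_star (x : A) : n2 (star x) = n2 x := by
  have h : n2 (star x) ^ 2 = n2 x ^ 2 := by rw [n2_sq, n2_sq, star_star, tr_comm]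
  exact (pow_left_inj₀ (n2_nonneg _) (n2_nonneg _) two_ne_zero).1 h

lemma tr_smul_le (x y : A) : ‖tr (star x * y)‖ ≤ n2 x * n2 y := by
  rw [← inner_toL2]; exact norm_inner_le_norm _ _

lemma tr_mul_le (x y : A) : ‖tr (x * y)‖ ≤ n2 x * n2 y := by
  have := tr_smul_le (star x) y
  rwa [star_star, n2_star] at this

@[simp] lemma n2_one : n2 (1 : A) = 1 := by
  have h : n2 (1 : A) ^ 2 = 1 ^ 2 := by rw [n2_sq]; simp
  exact (pow_left_inj₀ (n2_nonneg _) zero_le_one two_ne_zero).1 h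

lemma tr_le (x : A) : ‖tr x‖ ≤ n2 x := by simpa using tr_mul_le 1 x

lemma n2_add_sq (x y : A) :
    n2 (x + y) ^ 2 = n2 x ^ 2 + 2 * (tr (star x * y)).re + n2 y ^ 2 := by
  simp only [n2, map_add]; rw [norm_add_sq (𝕜 := ℂ)]; rfl

lemma n2_sub_sq (x y : A) :
    n2 (x - y) ^ 2 = n2 x ^ 2 - 2 * (tr (star x * y)).re + n2 y ^ 2 := by
  simp only [n2, map_sub]; rw [norm_sub_sq (𝕜 := ℂ)]; rfl

lemma n2_par (x y : A) :
    n2 (x + y) ^ 2 + n2 (x - y) ^ 2 = 2 * (n2 x ^ 2 + n2 y ^ 2) := by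
  rw [n2_add_sq, n2_sub_sq]; ring

lemma tr_nonneg [PartialOrder A] [StarOrderedRing A] {a : A} (ha : 0 ≤ a) : 0 ≤ (tr a).re := by
  have : a = star (CFC.sqrt a) * CFC.sqrt a := by
    rw [(CFC.sqrt_nonneg a).isSelfAdjoint.star_eq, CFC.sqrt_mul_sqrt_self a]
  rw [this]; exact tr_pos _

lemma tr_mono [PartialOrder A] [StarOrderedRing A] {a b : A} (h : a ≤ b) :
    (tr a).re ≤ (tr b).re := by
  have := tr_nonneg (sub_nonneg.2 h)
  rw [map_sub, Complex.sub_re] at this; linarith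

lemma n2_mul_left (a x : A) : n2 (a * x) ≤ ‖a‖ * n2 x := by
  let _ := CStarAlgebra.spectralOrder A
  have := CStarAlgebra.spectralOrderedRing A
  rw [← sq_le_sq₀ (n2_nonneg _) (mul_nonneg (norm_nonneg _) (n2_nonneg _)), mul_pow, n2_sq, n2_sq]
  have h : star x * (star a * a) * x ≤ ‖star a * a‖ • (star x * x) :=
    CStarAlgebra.star_left_conjugate_le_norm_smul
  have h2 := tr_mono h
  rw [CStarRing.norm_star_mul_self, ← Complex.coe_smul, map_smul, smul_eq_mul,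
    Complex.re_ofReal_mul] at h2
  rw [star_mul, sq, mul_assoc, ← mul_assoc (star a), ← mul_assoc (star x)]
  exact h2

lemma n2_mul_right (x a : A) : n2 (x * a) ≤ n2 x * ‖a‖ := by
  rw [← n2_star, star_mul, mul_comm, ← norm_star a, ← n2_star x]; exact n2_mul_left _ _

lemma n2_le_norm (x : A) : n2 x ≤ ‖x‖ := by simpa using n2_mul_left x 1

lemma tr_le_norm (x : A) : ‖tr x‖ ≤ ‖x‖ := (tr_le x).trans (n2_le_norm x)

lemma n2_left_le {a : A} (ha : ‖a‖ ≤ 1) (x : A) : n2 (a * x) ≤ n2 x :=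
  (n2_mul_left a x).trans (mul_le_of_le_one_left (n2_nonneg _) ha)

lemma n2_right_le {a : A} (ha : ‖a‖ ≤ 1) (x : A) : n2 (x * a) ≤ n2 x :=
  (n2_mul_right x a).trans (mul_le_of_le_one_right (n2_nonneg _) ha)

lemma n2_lr (a x b : A) : n2 (a * x * b) ≤ ‖a‖ * ‖b‖ * n2 x := by
  calc _ ≤ n2 (a * x) * ‖b‖ := n2_mul_right _ _
    _ ≤ ‖a‖ * n2 x * ‖b‖ := by gcongr; exact n2_mul_left _ _
    _ = _ := by ring

omit [TrAlg A] in
lemma unit_le {u : A} (hu : u ∈ unitary A) : ‖u‖ ≤ 1 := by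
  rcases subsingleton_or_nontrivial A with h | h
  · simp [Subsingleton.elim u 0]
  · exact (CStarRing.norm_of_mem_unitary hu).le

omit [TrAlg A] in
lemma usu {u : A} (hu : u ∈ unitary A) : star u * u = 1 := hu.1
omit [TrAlg A] in
lemma uus {u : A} (hu : u ∈ unitary A) : u * star u = 1 := hu.2
omit [TrAlg A] in
lemma ustar {u : A} (hu : u ∈ unitary A) : star u ∈ unitary A := Unitary.star_mem hu

lemma n2_uleft {u : A} (hu : u ∈ unitary A) (x : A) : n2 (u * x) = n2 x := by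
  refine le_antisymm (n2_left_le (unit_le hu) x) ?_
  have := n2_left_le (unit_le (ustar hu)) (u * x)
  rwa [← mul_assoc, usu hu, one_mul] at this

lemma n2_uright {u : A} (hu : u ∈ unitary A) (x : A) : n2 (x * u) = n2 x := by
  rw [← n2_star, star_mul, n2_uleft (ustar hu), n2_star]

lemma n2_unit {u : A} (hu : u ∈ unitary A) : n2 u = 1 := by
  simpa using n2_uleft hu 1

lemma n2_conj {u : A} (hu : u ∈ unitary A) (x : A) : n2 (u * x * star u) = n2 x := by
  rw [n2_uright (ustar hu), n2_uleft hu]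

lemma tr_conj {u : A} (hu : u ∈ unitary A) (x : A) : tr (u * x * star u) = tr x := by
  rw [tr_cyc', usu hu, one_mul]

omit [TrAlg A] in
lemma pstar {p : A} (hp : IsStarProjection p) : star p = p := hp.isSelfAdjoint.star_eq
omit [TrAlg A] in
lemma pp {p : A} (hp : IsStarProjection p) : p * p = p := hp.isIdempotentElem.eq
omit [TrAlg A] in
lemma ppx {p : A} (hp : IsStarProjection p) (x : A) : p * (p * x) = p * x := by
  rw [← mul_assoc, pp hp]
omit [TrAlg A] in
lemma ple {p : A} (hp : IsStarProjection p) : ‖p‖ ≤ 1 := hp.norm_le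
omit [TrAlg A] in
lemma mkP {p : A} (h1 : star p = p) (h2 : p * p = p) : IsStarProjection p := ⟨h2, h1⟩

/-- real trace -/
noncomputable def rt (x : A) : ℝ := (tr x).re

lemma tr_sa {x : A} (h : star x = x) : tr x = (rt x : ℂ) := by
  have := tr_star x
  rw [h] at this
  exact (Complex.conj_eq_iff_re.1 this.symm).symm

lemma n2_proj {p : A} (hp : IsStarProjection p) : n2 p ^ 2 = rt p := by
  rw [n2_sq, pstar hp, pp hp, rt]

lemma rt_nonneg {p : A} (hp : IsStarProjection p) : 0 ≤ rt p := by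
  rw [← n2_proj hp]; positivity

lemma rt_le_one {p : A} (hp : IsStarProjection p) : rt p ≤ 1 := by
  rw [← n2_proj hp]
  exact pow_le_one₀ (n2_nonneg _) ((n2_le_norm p).trans (ple hp))

lemma rt_pos {p : A} (hp : IsStarProjection p) (h0 : p ≠ 0) : 0 < rt p := by
  rw [← n2_proj hp]; have := n2_pos h0; positivity

lemma n2_proj' {p : A} (hp : IsStarProjection p) : n2 p = √(rt p) := by
  rw [← n2_proj hp, Real.sqrt_sq (n2_nonneg _)]

lemma tr_proj {p : A} (hp : IsStarProjection p) : tr p = (rt p : ℂ) := tr_sa (pstar hp)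

lemma tr_pmul {p : A} (hp : IsStarProjection p) (x : A) : tr (p * x * p) = tr (p * x) := by
  rw [tr_cyc', pp hp]

lemma tr_p_le {p : A} (hp : IsStarProjection p) (x : A) : ‖tr (p * x)‖ ≤ rt p * ‖x‖ := by
  rw [← tr_pmul hp, mul_assoc, ← n2_proj hp]
  refine (tr_mul_le _ _).trans ?_
  have := n2_mul_left x p
  have := n2_nonneg p
  nlinarith

@[simp] lemma rt_one : rt (1 : A) = 1 := by simp [rt]
lemma rt_add (x y : A) : rt (x + y) = rt x + rt y := by simp [rt]
lemma rt_sub (x y : A) : rt (x - y) = rt x - rt y := by simp [rt]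

/-! Closedness in the 2-norm and completeness. -/

/-- closed in the 2-norm -/
def C2 (P : Set A) : Prop := ∀ x, (∀ ε > 0, ∃ y ∈ P, n2 (x - y) < ε) → x ∈ P

lemma C2.inter {P R : Set A} (h : C2 P) (h' : C2 R) : C2 (P ∩ R) := fun x hx =>
  ⟨h x fun ε hε => let ⟨y, hy, h⟩ := hx ε hε; ⟨y, hy.1, h⟩,
   h' x fun ε hε => let ⟨y, hy, h⟩ := hx ε hε; ⟨y, hy.2, h⟩⟩

lemma C2.all {ι : Sort*} {P : ι → Set A} (h : ∀ i, C2 (P i)) : C2 {x | ∀ i, x ∈ P i} :=
  fun x hx i => h i x fun ε hε => let ⟨y, hy, h⟩ := hx ε hε; ⟨y, hy i, h⟩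

lemma C2.pre {P : Set A} (h : C2 P) (g : A → A) (c : ℝ)
    (hg : ∀ x y, n2 (g x - g y) ≤ c * n2 (x - y)) : C2 {x | g x ∈ P} := fun x hx => by
  refine h _ fun ε hε => ?_
  obtain ⟨y, hy, h⟩ := hx (ε / (|c| + 1)) (by positivity)
  refine ⟨g y, hy, (hg x y).trans_lt ?_⟩
  have h1 := le_abs_self c
  have h2 := n2_nonneg (x - y)
  rw [lt_div_iff₀ (by positivity)] at h
  nlinarith

lemma C2_le (g : A → ℝ) (c η : ℝ) (hg : ∀ x y, g x ≤ g y + c * n2 (x - y)) :
    C2 {x | g x ≤ η} := fun x hx => by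
  show g x ≤ η
  refine le_of_forall_pos_le_add fun ε hε => ?_
  obtain ⟨y, hy, h⟩ := hx (ε / (|c| + 1)) (by positivity)
  have h1 := le_abs_self c
  have h2 := n2_nonneg (x - y)
  rw [lt_div_iff₀ (by positivity)] at h
  have h3 := hg x y
  have h4 : g y ≤ η := hy
  nlinarith

lemma C2_zero : C2 ({0} : Set A) := fun x hx => by
  refine eq_of_n2 fun ε hε => ?_
  obtain ⟨y, hy, h⟩ := hx ε hε
  rw [Set.mem_singleton_iff.1 hy] at h
  exact h.le

lemma C2_eq (g : A → A) (c : ℝ) (hg : ∀ x y, n2 (g x - g y) ≤ c * n2 (x - y)) :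
    C2 {x | g x = 0} := C2_zero.pre g c hg

lemma C2_univ : C2 (Set.univ : Set A) := fun _ _ => trivial

lemma C2.isClosed {P : Set A} (h : C2 P) : IsClosed P := by
  refine isClosed_of_closure_subset fun x hx => h x fun ε hε => ?_
  obtain ⟨y, hy, h⟩ := Metric.mem_closure_iff.1 hx ε hε
  exact ⟨y, hy, (n2_le_norm _).trans_lt (by rwa [dist_eq_norm] at h)⟩

lemma C2.lim {P : Set A} (h : C2 P) {ι : Type*} {l : Filter ι} [l.NeBot] {x : ι → A} {y : A}
    (hx : ∀ᶠ n in l, x n ∈ P) (hl : Tendsto (fun n => n2 (x n - y)) l (𝓝 0)) : y ∈ P :=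
  h y fun ε hε => by
    obtain ⟨n, h1, h2⟩ := (hx.and (hl.eventually (gt_mem_nhds hε))).exists
    exact ⟨x n, h1, by rwa [n2_sub_rev]⟩

variable (A) in
/-- norm balls are complete in the 2-norm -/
class Cpl : Prop where
  cpl : ∀ (x : ℕ → A) (C : ℝ), (∀ n, ‖x n‖ ≤ C) →
    (∀ ε > 0, ∃ N, ∀ m ≥ N, ∀ n ≥ N, n2 (x m - x n) ≤ ε) →
    ∃ y, ‖y‖ ≤ C ∧ Tendsto (fun n => n2 (x n - y)) atTop (𝓝 0)

lemma cpl_of [Cpl A] (x : ℕ → A) (C : ℝ) (hC : ∀ n, ‖x n‖ ≤ C) (b : ℕ → ℝ)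
    (hb : Tendsto b atTop (𝓝 0)) (h : ∀ N, ∀ m ≥ N, ∀ n ≥ N, n2 (x m - x n) ^ 2 ≤ b N) :
    ∃ y, ‖y‖ ≤ C ∧ Tendsto (fun n => n2 (x n - y)) atTop (𝓝 0) := by
  refine Cpl.cpl x C hC fun ε hε => ?_
  obtain ⟨N, hN⟩ := (hb.eventually (gt_mem_nhds (pow_pos hε 2))).exists
  exact ⟨N, fun m hm n hn => by
    have := (h N m hm n hn).trans hN.le
    exact (pow_le_pow_iff_left₀ (n2_nonneg _) hε.le two_ne_zero).1 this⟩

lemma C2_ball [Cpl A] (C : ℝ) : C2 {x : A | ‖x‖ ≤ C} := fun x hx => by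
  choose y hy h using fun n : ℕ => hx (1 / (n + 1)) (by positivity)
  have ht : Tendsto (fun n => n2 (y n - x)) atTop (𝓝 0) :=
    squeeze_zero (fun _ => n2_nonneg _) (fun n => by rw [n2_sub_rev]; exact (h n).le)
      tendsto_one_div_add_atTop_nhds_zero_nat
  obtain ⟨z, hz, hl⟩ := Cpl.cpl y C hy fun ε hε => by
    obtain ⟨N, hN⟩ := eventually_atTop.1 (ht.eventually (gt_mem_nhds (half_pos hε)))
    refine ⟨N, fun m hm n hn => (n2_tri _ x _).trans ?_⟩
    have := hN m hm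
    have := hN n hn
    rw [n2_sub_rev x]; linarith
  have : x = z := eq_of_n2 fun ε hε => by
    obtain ⟨n, h1, h2⟩ := ((ht.eventually (gt_mem_nhds (half_pos hε))).and
      (hl.eventually (gt_mem_nhds (half_pos hε)))).exists
    have := n2_tri x (y n) z
    rw [n2_sub_rev x (y n)] at this; linarith
  rw [this]; exact hz

end Vale.Agent.P085
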