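import Vale.Agent.P085.Tower

/-! From concrete von Neumann algebras to the abstract setting. -/

open scoped ComplexConjugate InnerProductSpace
open Filter Topology Complex

namespace Vale.Agent.P085

set_option linter.unusedSectionVars false

lemma exists_inj_sub {α β : Type*} {f : α → β} {s : Set α} {t : Set β} (h : t ⊆ f '' s) :
    ∃ u ⊆ s, Set.InjOn f u ∧ f '' u = t := by
  obtain ⟨u, h1, h2⟩ := Set.subset_image_iff.1 h
  obtain ⟨v, h3, h4⟩ := Set.exists_subset_bijOn u f
  exact ⟨v, h3.trans h1, h4.injOn, by rw [h4.image_eq, h2]⟩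

section
variable {A : Type*} [CStarAlgebra A] [TrAlg A]

lemma C2_of_bdd {S : StarSubalgebra ℂ A} (hc : IsClosed (S : Set A))
    (h : ∀ (x : ℕ → A) (y : A), (∀ n, x n ∈ S) → (∀ n, ‖x n‖ ≤ 1) → Lim atTop x y → y ∈ S) :
    C2 (S : Set A) := by
  have key : ∀ a : A, star a = a → (∀ ε > 0, ∃ b ∈ S, star b = b ∧ n2 (b - a) < ε) → a ∈ S :=
    fun a ha hb => by
      choose b hb1 hb2 hb3 using fun n : ℕ => hb (1 / (n + 1)) (by positivity)
      choose k R K using fun n => exists_cay (h := (⟨b n, hb1 n⟩ : S)) (Subtype.ext (hb2 n))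
      obtain ⟨k', R', K'⟩ := exists_cay ha
      have e1 : ∀ {B : Type _} [CStarAlgebra B] {h k R : B}, Cay h k R → R * (1 - I • h) = 1 :=
        fun {B} _ h k R K => by
          have := K.inv
          have h2 : h * R = R * h := smul_right_injective B (by simp) (K.hR.symm.trans K.Rh)
          rwa [sub_mul, smul_mul_assoc, h2, one_mul, ← mul_smul_comm, ← mul_one_sub] at this
      have hR : R' ∈ S := h (fun n => (R n).1) R' (fun n => (R n).2) (fun n => (K n).R_le)
        (squeeze_zero (fun _ => n2_nonneg _) (fun n => by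
          have e2 : (R n).1 * (1 - I • b n) = 1 := congrArg Subtype.val (e1 (K n))
          have e3 : (R n).1 - R' = I • ((R n).1 * (b n - a) * R') := by
            calc _ = (R n).1 * ((1 - I • a) * R') - (R n).1 * (1 - I • b n) * R' := by
                  rw [K'.inv, e2, mul_one, one_mul]
              _ = _ := by
                simp only [mul_sub, sub_mul, mul_smul_comm, smul_mul_assoc, mul_assoc, smul_sub]; abel
          rw [e3, n2_smul, norm_I, one_mul]
          have e4 : ‖(R n).1‖ ≤ 1 := (K n).R_le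
          exact ((n2_right_le K'.R_le _).trans (n2_left_le e4 _)).trans (hb3 n).le)
          tendsto_one_div_add_atTop_nhds_zero_nat)
      obtain ⟨U, hU⟩ := (S.coe_isUnit (a := ⟨R', hR⟩)).1 ⟨⟨R', 1 - I • a, e1 K', K'.inv⟩, rfl⟩
      have e4 : R' * (↑U⁻¹ : S).1 = 1 := by
        have := congrArg Subtype.val U.mul_inv
        rwa [hU] at this
      have e5 : 1 - I • a = (↑U⁻¹ : S).1 := left_inv_eq_right_inv K'.inv e4
      have e6 : a = I • ((↑U⁻¹ : S).1 - 1) := by
        rw [← e5, sub_sub_cancel_left, smul_neg, smul_smul, I_mul_I]; simp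
      rw [e6]
      exact S.smul_mem (sub_mem (↑U⁻¹ : S).2 (one_mem _)) _
  intro x hx
  have h1 := key (x + star x) (by simp [add_comm]) fun ε hε => by
    obtain ⟨y, hy, h⟩ := hx _ (half_pos hε)
    refine ⟨y + star y, add_mem hy (star_mem hy), by simp [add_comm], ?_⟩
    have := n2_add_le (y - x) (star (y - x))
    rw [n2_star, star_sub, ← add_sub_add_comm, n2_sub_rev y x] at this
    linarith
  have h2 := key (I • (x - star x)) (by simp [star_smul, smul_sub]; abel) fun ε hε => by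
    obtain ⟨y, hy, h⟩ := hx _ (half_pos hε)
    refine ⟨I • (y - star y), S.smul_mem (sub_mem hy (star_mem hy)) _,
      by simp [star_smul, smul_sub]; abel, ?_⟩
    have := n2_sub_le (y - x) (star (y - x))
    rw [n2_star, star_sub, sub_sub_sub_comm, n2_sub_rev y x] at this
    rw [← smul_sub, n2_smul, norm_I]
    linarith
  have : x = (2⁻¹ : ℂ) • ((x + star x) - I • I • (x - star x)) := by
    rw [smul_smul, I_mul_I]; module
  rw [this]
  exact S.smul_mem (sub_mem h1 (S.smul_mem h2 _)) _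

end

variable {H : Type*} [NormedAddCommGroup H] [InnerProductSpace ℂ H] [CompleteSpace H]

lemma wlim_vec {ι : Type*} (U : Ultrafilter ι) (v : ι → H) {C : ℝ} (hC : 0 ≤ C)
    (h : ∀ i, ‖v i‖ ≤ C) :
    ∃ w, ‖w‖ ≤ C ∧ ∀ η, Tendsto (fun i => ⟪η, v i⟫_ℂ) U (𝓝 ⟪η, w⟫_ℂ) := by
  have h1 : ∀ η : H, ∃ z, ‖z‖ ≤ C * ‖η‖ ∧ Tendsto (fun i => ⟪v i, η⟫_ℂ) U (𝓝 z) := fun η => by
    obtain ⟨z, hz, h2⟩ := (isCompact_closedBall (0 : ℂ) (C * ‖η‖)).ultrafilter_le_nhds
      (U.map fun i => ⟪v i, η⟫_ℂ) (by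
        rw [Ultrafilter.coe_map, le_principal_iff, mem_map]
        refine Eventually.of_forall fun i => ?_
        simpa using (norm_inner_le_norm _ _).trans (mul_le_mul_of_nonneg_right (h i) (norm_nonneg _)))
    exact ⟨z, by simpa using hz, h2⟩
  choose f hf hf' using h1
  let g : H →ₗ[ℂ] ℂ :=
    { toFun := f
      map_add' := fun a b => tendsto_nhds_unique (hf' _)
        (by simpa only [inner_add_right] using (hf' a).add (hf' b))
      map_smul' := fun c a => tendsto_nhds_unique (hf' _)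
        (by simpa only [inner_smul_right, RingHom.id_apply, smul_eq_mul] using (hf' a).const_mul c) }
  refine ⟨(InnerProductSpace.toDual ℂ H).symm (g.mkContinuous C hf), ?_, fun η => ?_⟩
  · rw [LinearIsometryEquiv.norm_map]; exact g.mkContinuous_norm_le hC hf
  · have := (continuous_conj.tendsto _).comp (hf' η)
    rw [← inner_conj_symm, InnerProductSpace.toDual_symm_apply]
    simpa [Function.comp_def, g] using this

/-- weak operator convergence -/
def WT {ι : Type*} (l : Filter ι) (x : ι → H →L[ℂ] H) (y : H →L[ℂ] H) : Prop :=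
  ∀ ξ η, Tendsto (fun i => ⟪η, x i ξ⟫_ℂ) l (𝓝 ⟪η, y ξ⟫_ℂ)

lemma wlim {ι : Type*} (U : Ultrafilter ι) (x : ι → H →L[ℂ] H) {C : ℝ} (hC : 0 ≤ C)
    (h : ∀ i, ‖x i‖ ≤ C) : ∃ y, ‖y‖ ≤ C ∧ WT U x y := by
  choose f hf hf' using fun ξ => wlim_vec U (fun i => x i ξ) (C := C * ‖ξ‖) (by positivity)
    fun i => (x i).le_of_opNorm_le (h i) ξ
  let g : H →ₗ[ℂ] H :=
    { toFun := f
      map_add' := fun a b => ext_inner_left ℂ fun η => tendsto_nhds_unique (hf' _ η)
        (by simpa only [map_add, inner_add_right] using (hf' a η).add (hf' b η))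
      map_smul' := fun c a => ext_inner_left ℂ fun η => tendsto_nhds_unique (hf' _ η)
        (by simpa only [map_smul, inner_smul_right, RingHom.id_apply] using (hf' a η).const_mul c) }
  exact ⟨g.mkContinuous C hf, g.mkContinuous_norm_le hC hf, fun ξ η => hf' ξ η⟩

lemma WT.mul {ι : Type*} {l : Filter ι} {x : ι → H →L[ℂ] H} {y : H →L[ℂ] H} (h : WT l x y)
    (a b : H →L[ℂ] H) : WT l (fun i => a * x i * b) (a * y * b) := fun ξ η => by
  simpa [ContinuousLinearMap.adjoint_inner_left] using h (b ξ) (ContinuousLinearMap.adjoint a η)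

lemma WT.mem {ι : Type*} {l : Filter ι} [l.NeBot] {x : ι → H →L[ℂ] H} {y : H →L[ℂ] H}
    (h : WT l x y) {M : VonNeumannAlgebra H} (hx : ∀ i, x i ∈ M) : y ∈ M := by
  rw [← M.commutant_commutant, VonNeumannAlgebra.mem_commutant_iff]
  intro g hg
  ext ξ
  refine ext_inner_left ℂ fun η => ?_
  have h1 := h.mul g 1 ξ η
  have h2 := h.mul 1 g ξ η
  simp only [mul_one, one_mul] at h1 h2
  exact tendsto_nhds_unique h1 (h2.congr fun i => by
    rw [VonNeumannAlgebra.mem_commutant_iff.1 hg _ (hx i)])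

abbrev MA (M : VonNeumannAlgebra H) : Type _ := M.toStarSubalgebra

scoped instance vn_closed (M : VonNeumannAlgebra H) :
    IsClosed (M.toStarSubalgebra : Set (H →L[ℂ] H)) := by
  rw [VonNeumannAlgebra.coe_toStarSubalgebra, ← M.centralizer_centralizer]
  exact Set.isClosed_centralizer _

variable {M : VonNeumannAlgebra H} [TrAlg (MA M)]

variable (M) in
def NW : Prop := ∀ (l : Filter (MA M)) (y : MA M) (C : ℝ), (∀ᶠ x in l, ‖x‖ ≤ C) →
  WT l Subtype.val y.1 → Tendsto tr l (𝓝 (tr y))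

lemma NW.seq (h : NW M) {ι : Type*} {l : Filter ι} {x : ι → MA M} {y : MA M} {C : ℝ}
    (hC : ∀ᶠ i in l, ‖x i‖ ≤ C) (hw : WT l (fun i => (x i).1) y.1) :
    Tendsto (fun i => tr (x i)) l (𝓝 (tr y)) := h (l.map x) y C hC hw

lemma NW.key (h : NW M) (x : ℕ → MA M) {C : ℝ} (hC : ∀ n, ‖x n‖ ≤ C)
    (hx : ∀ ε > 0, ∃ N, ∀ m ≥ N, ∀ n ≥ N, n2 (x m - x n) ≤ ε) :
    ∃ y : MA M, ‖y‖ ≤ C ∧ WT (hyperfilter ℕ) (fun n => (x n).1) y.1 ∧ Lim atTop x y := by
  obtain ⟨y, h1, h2⟩ := wlim (hyperfilter ℕ) (fun n => (x n).1) ((norm_nonneg _).trans (hC 0)) hC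
  let z : MA M := ⟨y, h2.mem fun n => (x n).2⟩
  refine ⟨z, h1, h2, Metric.tendsto_atTop.2 fun ε hε => ?_⟩
  obtain ⟨N, hN⟩ := hx _ (half_pos hε)
  refine ⟨N, fun m hm => ?_⟩
  have h3 := h.seq (x := fun n => star (x m - z) * x n) (y := star (x m - z) * z)
    (C := ‖star (x m - z)‖ * C) (Eventually.of_forall fun n => (norm_mul_le _ _).trans
      (mul_le_mul_of_nonneg_left (hC n) (norm_nonneg _))) (by simpa using h2.mul (star (x m - z)).1 1)
  have h4 := (h3.const_sub (tr (star (x m - z) * x m))).norm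
  simp only [← map_sub, ← mul_sub] at h4
  have h5 := le_of_tendsto h4 (b := n2 (x m - z) * (ε / 2)) (by
    refine Nat.hyperfilter_le_atTop ((eventually_ge_atTop N).mono fun n hn => ?_)
    exact (tr_smul_le _ _).trans (mul_le_mul_of_nonneg_left (hN m hm n hn) (n2_nonneg _)))
  rw [tr_sq, norm_real, Real.norm_of_nonneg (sq_nonneg _)] at h5
  have := n2_nonneg (x m - z)
  rw [Real.dist_eq, sub_zero, abs_of_nonneg this]
  nlinarith

lemma NW.cpl (h : NW M) : Cpl (MA M) :=
  ⟨fun x _ h1 h2 => let ⟨y, a, _, b⟩ := h.key x h1 h2; ⟨y, a, b⟩⟩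

lemma NW.sep [TopologicalSpace.SeparableSpace H] (h : NW M) : Sep (MA M) := by
  have : Nonempty H := ⟨0⟩
  obtain ⟨ξ, hξ⟩ := TopologicalSpace.exists_dense_seq H
  have := UniformSpace.secondCountable_of_separable H
  have key : ∀ k : ℕ, ∃ D : Set (MA M), D.Countable ∧ ∀ x : MA M, ‖x‖ ≤ k → ∀ ε > 0,
      ∃ y ∈ D, n2 (y - x) < ε := fun k => by
    let φ : MA M → ℕ → H := fun x n => x.1 (ξ n)
    obtain ⟨D, h1, h2, h3⟩ := (TopologicalSpace.IsSeparable.of_separableSpace
      (φ '' {x | ‖x‖ ≤ k})).exists_countable_dense_subset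
    obtain ⟨D', h4, h5', rfl⟩ := exists_inj_sub h1
    have h5 : D'.Countable := Set.countable_of_injective_of_countable_image h5' h2
    refine ⟨D', h5, fun x hx ε hε => ?_⟩
    let l : Filter (MA M) := comap φ (𝓝 (φ x)) ⊓ 𝓟 D'
    have hl : l.NeBot := by
      have := mem_closure_iff_clusterPt.1 (h3 ⟨x, hx, rfl⟩)
      rwa [ClusterPt, ← map_principal, ← Filter.push_pull', map_neBot_iff] at this
    have hD : ∀ᶠ y in l, y ∈ D' := mem_inf_of_right (mem_principal_self _)
    have hb : ∀ᶠ y in l, ‖y - x‖ ≤ 2 * k := hD.mono fun y hy =>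
      (norm_sub_le _ _).trans (by have : ‖y‖ ≤ k := h4 hy; linarith)
    have hs : ∀ v, Tendsto (fun y : MA M => (y - x).1 v) l (𝓝 0) := fun v => by
      rw [Metric.tendsto_nhds]
      intro δ hδ
      obtain ⟨n, hn⟩ := hξ.exists_dist_lt v (by positivity : 0 < δ / 2 / (2 * k + 1))
      have a1 : Tendsto (fun y => φ y n) l (𝓝 (φ x n)) :=
        (((continuous_apply n).tendsto (φ x)).comp (tendsto_comap (f := φ))).mono_left inf_le_left
      filter_upwards [hb, Metric.tendsto_nhds.1 a1 _ (half_pos hδ)] with y a2 a3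
      rw [dist_zero_right, show (y - x).1 v = (y - x).1 (v - ξ n) + (φ y n - φ x n) by simp [φ]; abel]
      have a4 := (y - x).1.le_of_opNorm_le a2 (v - ξ n)
      rw [dist_eq_norm] at a3 hn
      rw [lt_div_iff₀ (by positivity)] at hn
      have := norm_add_le ((y - x).1 (v - ξ n)) (φ y n - φ x n)
      have := norm_nonneg (v - ξ n)
      linarith
    have h6 := h.seq (l := l) (x := fun y => star (y - x) * (y - x)) (y := 0) (C := 2 * k * (2 * k))
      (hb.mono fun y hy => by
        rw [CStarRing.norm_star_mul_self]; exact mul_self_le_mul_self (norm_nonneg _) hy)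
      fun v η => by
        have := (hs η).inner (𝕜 := ℂ) (hs v)
        rw [inner_zero_left] at this
        simp only [ZeroMemClass.coe_zero, zero_apply, inner_zero_right]
        refine this.congr fun y => ?_
        rw [MulMemClass.coe_mul, StarMemClass.coe_star, ContinuousLinearMap.star_eq_adjoint,
          mul_apply_eq_comp, ContinuousLinearMap.adjoint_inner_right]
    have h7 := (continuous_re.tendsto _).comp h6
    simp only [Function.comp_def, ← n2_sq, map_zero, zero_re] at h7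
    obtain ⟨y, a1, a2⟩ := (hD.and (h7.eventually (gt_mem_nhds (pow_pos hε 2)))).exists
    exact ⟨y, a1, lt_of_pow_lt_pow_left₀ 2 hε.le a2⟩
  choose D h1 h2 using key
  have : TopologicalSpace.SeparableSpace (L2 (MA M)) := by
    refine ⟨toL2 '' ⋃ k, D k, (Set.countable_iUnion h1).image _, Metric.dense_iff.2 fun x ε hε => ?_⟩
    obtain ⟨k, hk⟩ := exists_nat_ge ‖toL2.symm x‖
    obtain ⟨y, a1, a2⟩ := h2 k _ hk ε hε
    refine ⟨toL2 y, ?_, y, Set.mem_iUnion.2 ⟨k, a1⟩, rfl⟩
    rwa [n2, map_sub, LinearEquiv.apply_symm_apply, ← dist_eq_norm] at a2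
  exact ⟨UniformSpace.secondCountable_of_separable _⟩

theorem NW.main [TopologicalSpace.SeparableSpace H] (h : NW M)
    (hfac : ∀ z ∈ M, (∀ x ∈ M, x * z = z * x) → ∃ c : ℂ, z = c • 1)
    (hinf : ¬ FiniteDimensional ℂ (MA M)) :
    ∃ x ∈ M, ∀ S : StarSubalgebra ℂ (H →L[ℂ] H),
      IsClosed (ContinuousLinearMapWOT.ofCLM '' (S : Set (H →L[ℂ] H))) → x ∈ S →
      M.toStarSubalgebra ≤ S := by
  have := h.cpl
  have := h.sep
  obtain ⟨x, hx⟩ := single (A := MA M) ⟨C2_univ, fun z _ hz => by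
    obtain ⟨c, hc⟩ := hfac z.1 z.2 fun x hx => congrArg Subtype.val (hz ⟨x, hx⟩ trivial)
    have : z = c • 1 := Subtype.ext hc
    rw [this]; simp, fun T hT => hinf ⟨⟨T, eq_top_iff.2 fun z _ => hT trivial⟩⟩⟩
  refine ⟨x.1, x.2, fun S hS hxS z hz => ?_⟩
  have hc : IsClosed (S : Set (H →L[ℂ] H)) := by
    have := hS.preimage ContinuousLinearMapWOT.continuous_ofCLM
    rwa [Set.preimage_image_eq _ ContinuousLinearMapWOT.ofCLM_injective] at this
  have := hx (S.comap M.toStarSubalgebra.subtype) (C2_of_bdd (hc.preimage continuous_subtype_val)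
    fun x y h1 h2 h3 => by
      obtain ⟨z, -, h4, h5⟩ := h.key x h2 fun ε hε => by
        obtain ⟨N, hN⟩ := eventually_atTop.1 (h3.eventually (gt_mem_nhds (half_pos hε)))
        refine ⟨N, fun m hm n hn => (n2_tri _ y _).trans ?_⟩
        have := hN m hm
        have := hN n hn
        rw [n2_sub_rev y]; linarith
      rw [h3.eq h5 (Eventually.of_forall fun _ => rfl)]
      have h6 := hS.mem_of_tendsto (ContinuousLinearMapWOT.tendsto_iff_forall_inner_apply_tendsto
        (f := fun n => ContinuousLinearMapWOT.ofCLM (x n).1)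
        (A := ContinuousLinearMapWOT.ofCLM z.1) |>.2 h4)
        (Eventually.of_forall fun n => ⟨_, h1 n, rfl⟩)
      exact (ContinuousLinearMapWOT.ofCLM_injective.mem_set_image).1 h6) hxS
  have h3 : (⟨z, hz⟩ : MA M) ∈ S.comap M.toStarSubalgebra.subtype := by rw [this]; trivial
  exact h3

end Vale.Agent.P085
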