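import Vale.Agent.P085.Word

/-! Choice of the spacers and of the small projection. -/

open scoped ComplexConjugate
open Filter Topology Complex

namespace Vale.Agent.P085

set_option linter.unusedSectionVars false

lemma ev_split {α β : Type*} {F : Filter β} (L : List α) {P : List α → List α → β → Prop}
    (h : ∀ L₁ L₂, L₁ ++ L₂ = L → ∀ᶠ x in F, P L₁ L₂ x) :
    ∀ᶠ x in F, ∀ L₁ L₂, L₁ ++ L₂ = L → P L₁ L₂ x := by
  have := (eventually_all_finset (Finset.range (L.length + 1))).2 fun i _ =>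
    h (L.take i) (L.drop i) (List.take_append_drop i L)
  refine this.mono fun x hx L₁ L₂ e => ?_
  subst e
  simpa using hx L₁.length (by simp)

lemma ev_split3 {α β : Type*} {F : Filter β} (L : List α) {P : List α → List α → List α → β → Prop}
    (h : ∀ L₁ L₂ L₃, L₁ ++ (L₂ ++ L₃) = L → ∀ᶠ x in F, P L₁ L₂ L₃ x) :
    ∀ᶠ x in F, ∀ L₁ L₂ L₃, L₁ ++ (L₂ ++ L₃) = L → P L₁ L₂ L₃ x :=
  (ev_split L (P := fun L₁ M x => ∀ L₂ L₃, L₂ ++ L₃ = M → P L₁ L₂ L₃ x) fun L₁ M e =>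
    ev_split M fun L₂ L₃ e' => h L₁ L₂ L₃ (by rw [e', e])).mono
    fun _ hx L₁ L₂ L₃ e => hx L₁ _ e L₂ L₃ rfl

lemma ev_le {β : Type*} {F : Filter β} {g : β → ℂ} {L : ℂ} (h : Tendsto g F (𝓝 L)) {ε : ℝ}
    (hε : 0 < ε) : ∀ᶠ x in F, ‖g x - L‖ ≤ ε :=
  (h.eventually (Metric.closedBall_mem_nhds L hε)).mono fun x hx => by simpa [dist_eq_norm] using hx

variable {A : Type*} [CStarAlgebra A] [TrAlg A] {Q : StarSubalgebra ℂ A}

lemma spacers {M : Filter A} [M.NeBot] (h1 : ∀ᶠ s in M, Sym Q 1 s)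
    (h2 : ∀ V, Tendsto (fun s => tr (s * V)) M (𝓝 0)) (u : A) (n : ℕ) :
    ∃ F : Filter (List A), F.NeBot ∧ (∀ᶠ L in F, L.length = n ∧ ∀ a ∈ L, Sym Q 1 a) ∧
      ∀ X, ∀ ε > 0, ∀ᶠ L in F, ∀ L₁ L₂ L₃, L₁ ++ (L₂ ++ L₃) = L → L₂ ≠ [] →
        ‖tr (wd u L₂ * X)‖ ≤ ε := by
  induction n with
  | zero =>
    refine ⟨pure [], inferInstance, by simp, fun X ε _ => ?_⟩
    simp +contextual
  | succ n ih =>
    obtain ⟨F, h0, h3, h4⟩ := ih
    refine ⟨F.bind fun L => M.map (· :: L), bind_neBot (Eventually.of_forall fun _ => inferInstance),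
      ?_, fun X ε hε => ?_⟩
    · rw [eventually_bind]
      refine h3.mono fun L hL => eventually_map.2 (h1.mono fun a ha => ⟨by simp [hL.1], ?_⟩)
      simpa using ⟨ha, hL.2⟩
    · rw [eventually_bind]
      refine (h4 X ε hε).mono fun L hL => eventually_map.2 ?_
      refine (ev_split L fun M₂ M₃ _ => ev_le (h2 (u * wd u M₂ * X)) hε).mono
        fun a ha L₁ L₂ L₃ e hn => ?_
      rcases L₁ with _ | ⟨a', L₁⟩
      · rcases L₂ with _ | ⟨a', L₂⟩
        · exact absurd rfl hn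
        · simp only [List.nil_append, List.cons_append, List.cons.injEq] at e
          simpa [e.1, mul_assoc] using ha _ _ e.2
      · simp only [List.cons_append, List.cons.injEq] at e
        exact hL _ _ _ e.2 hn

lemma norm_tr_star (x : A) : ‖tr (star x)‖ = ‖tr x‖ := by rw [tr_star, RCLike.norm_conj]

lemma pair_tr {u X : A} (hu : u ∈ unitary A) {L : List A} (hL : UL L) {ε : ℝ} (hε : 0 ≤ ε)
    (h1 : ∀ L₁ L₂ L₃, L₁ ++ (L₂ ++ L₃) = L → L₂ ≠ [] → ‖tr (wd u L₂ * X)‖ ≤ ε)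
    (h2 : ∀ L₁ L₂ L₃, L₁ ++ (L₂ ++ L₃) = L → L₂ ≠ [] → ‖tr (wd u L₂ * star X)‖ ≤ ε)
    {l l' : ℕ} (hl : l ≤ L.length) (hl' : l' ≤ L.length) :
    ‖tr (wd u (L.take l) * X * star (wd u (L.take l'))) - if l = l' then tr X else 0‖ ≤ ε ∧
    ‖tr (star (wd u (L.drop l)) * X * wd u (L.drop l')) - if l = l' then tr X else 0‖ ≤ ε := by
  have key : ∀ l n : ℕ, 0 < n → l + n ≤ L.length → ∃ I, ‖tr (I * X)‖ ≤ ε ∧ ‖tr (star I * X)‖ ≤ ε ∧
      wd u (L.take (l + n)) = wd u (L.take l) * I ∧ wd u (L.drop l) = I * wd u (L.drop (l + n)) :=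
    fun l n hn h => by
      have e1 : (L.drop l).take n ++ L.drop (l + n) = L.drop l := by
        rw [← List.drop_drop, List.take_append_drop]
      have e2 : L.take l ++ ((L.drop l).take n ++ L.drop (l + n)) = L := by
        rw [e1, List.take_append_drop]
      have e3 : (L.drop l).take n ≠ [] := by
        rw [← List.length_pos_iff]; simp; omega
      refine ⟨wd u ((L.drop l).take n), h1 _ _ _ e2 e3, ?_, by rw [List.take_add, wd_append],
        by rw [← wd_append, e1]⟩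
      rw [← norm_tr_star, star_mul, star_star, tr_comm]; exact h2 _ _ _ e2 e3
  have ht := fun n => wd_unit hu (hL.take n)
  have hd := fun n => wd_unit hu (hL.drop n)
  rcases lt_trichotomy l l' with h | rfl | h
  · obtain ⟨n, rfl⟩ := Nat.exists_eq_add_of_le h.le
    obtain ⟨I, a1, a2, a3, a4⟩ := key l n (by omega) hl'
    rw [if_neg h.ne, sub_zero, sub_zero, a3, a4, star_mul, star_mul, ← mul_assoc, mul_assoc _ X,
      tr_conj (ht l), tr_comm X, mul_assoc (star _) _ X, tr_cyc', uus (hd _), one_mul]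
    exact ⟨a2, a2⟩
  · rw [if_pos rfl, tr_conj (ht l), tr_cyc', uus (hd _), one_mul]; simpa using hε
  · obtain ⟨n, rfl⟩ := Nat.exists_eq_add_of_le h.le
    obtain ⟨I, a1, a2, a3, a4⟩ := key l' n (by omega) hl
    rw [if_neg h.ne', sub_zero, sub_zero, a3, a4, mul_assoc _ I, tr_conj (ht _), ← mul_assoc,
      mul_assoc _ X, tr_cyc', uus (hd _), one_mul, tr_comm X]
    exact ⟨a1, a1⟩

lemma evZ {F : Filter A} {f : A} (hf : IsStarProjection f) (hf2 : 1 / 2 ≤ rt f) {j : ℕ}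
    (h1 : ∀ᶠ p in F, IsStarProjection p)
    (h : ∀ Y Z, Tendsto (fun p => tr (p * Y * p * Z)) F
        (𝓝 ((2⁻¹ ^ j) ^ 2 * tr (f * Y * f * Z) + (2⁻¹ ^ j - (2⁻¹ ^ j) ^ 2) * bb f Y Z)))
    (Z : A) {ε : ℝ} (hε : 0 < ε) :
    ∀ᶠ p in F, n2 (p * Z * p) ≤ 2⁻¹ ^ j * n2 Z + 2 * ‖tr (f * Z)‖ + ε := by
  filter_upwards [h1, ev_le (h (star Z) Z) (pow_pos hε 2)] with p hp h2
  have a1 : ‖tr (f * star Z * f * Z)‖ ≤ n2 Z ^ 2 := by
    refine (tr_mul_le _ _).trans ?_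
    rw [sq]
    refine mul_le_mul_of_nonneg_right ?_ (n2_nonneg _)
    rw [← n2_star Z]
    exact (n2_right_le (ple hf) _).trans (n2_left_le (ple hf) _)
  have a2 : ‖bb f (star Z) Z‖ ≤ 2 * ‖tr (f * Z)‖ ^ 2 := by
    rw [bb, norm_div, norm_mul, ← norm_tr_star, star_mul, star_star, pstar hf, tr_comm Z, tr_proj hf,
      norm_real, Real.norm_of_nonneg (rt_nonneg hf), div_le_iff₀ (by linarith)]
    nlinarith [sq_nonneg ‖tr (f * Z)‖]
  have a3 : (0 : ℝ) < 2⁻¹ ^ j := by positivity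
  have a4 : (2⁻¹ : ℝ) ^ j ≤ 1 := pow_le_one₀ (by norm_num) (by norm_num)
  have a5 : ‖(2⁻¹ : ℂ) ^ j - (2⁻¹ ^ j) ^ 2‖ ≤ 1 := by
    rw [show (2⁻¹ : ℂ) ^ j - (2⁻¹ ^ j) ^ 2 = ((2⁻¹ ^ j - (2⁻¹ ^ j) ^ 2 : ℝ) : ℂ) by push_cast; rfl,
      norm_real, Real.norm_eq_abs, abs_le]
    constructor <;> nlinarith
  have a6 : n2 (p * Z * p) ^ 2 ≤ ‖tr (p * star Z * p * Z)‖ := by
    rw [n2_sq, star_mul, star_mul, pstar hp]
    refine (re_le_norm _).trans_eq ?_
    congr 1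
    rw [← mul_assoc _ _ p, tr_comm]
    simp only [mul_assoc, ppx hp]
  have a7 := (norm_le_insert' _ _).trans (add_le_add (norm_add_le _ _) h2)
  rw [norm_mul, norm_mul, norm_pow, norm_pow, norm_inv, Complex.norm_ofNat] at a7
  have a8 := mul_le_mul a5 a2 (norm_nonneg _) zero_le_one
  have a9 := mul_le_mul_of_nonneg_left a1 (sq_nonneg ((2⁻¹ : ℝ) ^ j))
  have := n2_nonneg Z
  have := norm_nonneg (tr (f * Z))
  refine le_of_sq_le_sq (by
    have : 0 ≤ 2⁻¹ ^ j * n2 Z := by positivity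
    nlinarith [mul_nonneg this hε.le, mul_nonneg this (norm_nonneg (tr (f * Z)))]) (by positivity)

lemma evY {F : Filter A} {f : A} (hf : IsStarProjection f) (hf2 : 1 / 2 ≤ rt f) {j : ℕ} {r : ℝ}
    (hr : 0 ≤ r) (hr2 : r ^ 2 = 2⁻¹ ^ j * rt f) (h1 : ∀ᶠ p in F, IsStarProjection p)
    (h : ∀ V, Tendsto (fun p => tr (p * V)) F (𝓝 (2⁻¹ ^ j * tr (f * V))))
    (Y : A) {ε : ℝ} (hε : 0 < ε) : ∀ᶠ p in F, n2 (Y * p) ≤ 2 * r * n2 Y + ε := by
  filter_upwards [h1, ev_le (h (star Y * Y)) (pow_pos hε 2)] with p hp h2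
  have a1 : ‖tr (f * (star Y * Y))‖ ≤ n2 Y ^ 2 := by
    rw [← mul_assoc, sq]
    refine (tr_mul_le _ _).trans (mul_le_mul_of_nonneg_right ?_ (n2_nonneg _))
    rw [← n2_star Y]
    exact n2_left_le (ple hf) _
  have a6 : n2 (Y * p) ^ 2 ≤ ‖tr (p * (star Y * Y))‖ := by
    rw [n2_sq, star_mul, pstar hp, ← tr_pmul hp]
    refine (re_le_norm _).trans_eq ?_
    simp only [mul_assoc]
  have a7 := (norm_le_insert' _ _).trans (add_le_add le_rfl h2)
  rw [norm_mul, norm_pow, norm_inv, Complex.norm_ofNat] at a7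
  have a3 : (0 : ℝ) < 2⁻¹ ^ j := by positivity
  have a4 : (2⁻¹ : ℝ) ^ j ≤ 4 * r ^ 2 := by nlinarith
  have a9 := mul_le_mul a4 a1 (norm_nonneg _) (by positivity)
  have := n2_nonneg Y
  refine le_of_sq_le_sq (by
    have : 0 ≤ r * n2 Y := by positivity
    nlinarith [mul_nonneg this hε.le]) (by positivity)

lemma decor {M : Filter A} (h1 : ∀ᶠ s in M, Sym Q 1 s)
    (h2 : ∀ V, Tendsto (fun s => tr (s * V)) M (𝓝 0))
    (h3 : ∀ Y Z, Tendsto (fun s => tr (s * Y * s * Z)) M (𝓝 (bb 1 Y Z)))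
    {u W f X : A} (hu : u ∈ unitary A) (hW : W ∈ unitary A) (hf : IsStarProjection f)
    {L : List A} (hL : UL L) {n : ℕ} (hn : L.length = n) {ε : ℝ} (hε : 0 < ε)
    (h4 : ∀ L₁ L₂ L₃, L₁ ++ (L₂ ++ L₃) = L → L₂ ≠ [] → ‖tr (wd u L₂ * X)‖ ≤ ε)
    (h5 : ∀ L₁ L₂ L₃, L₁ ++ (L₂ ++ L₃) = L → L₂ ≠ [] → ‖tr (wd u L₂ * star X)‖ ≤ ε) :
    ∀ᶠ b in M, ∀ᶠ a in M, ∀ i i', ‖tr (f * (star (cc (n + 1) u W b (a :: L) i) * X *
      cc (n + 1) u W b (a :: L) i' - (if i = i' then tr X else 0) • (1 : A)))‖ ≤ 2 * ε := by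
  have hf1 : ‖tr f‖ ≤ 1 := (tr_le_norm f).trans (ple hf)
  have aux : ∀ x y z : ℂ, ‖x - y * tr f‖ ≤ ε → ‖y - z‖ ≤ ε → ‖x - z * tr f‖ ≤ 2 * ε :=
    fun x y z h h' => by
      have : x - z * tr f = (x - y * tr f) + (y - z) * tr f := by ring
      rw [this]
      refine (norm_add_le _ _).trans ?_
      rw [norm_mul]
      have := mul_le_mul h' hf1 (norm_nonneg _) hε.le
      linarith
  have hp := fun l l' : Fin (n + 1) => pair_tr hu hL hε.le h4 h5 (l := l) (l' := l')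
    (by omega) (by omega)
  filter_upwards [h1, eventually_all.2 fun l : Fin (n + 1) => eventually_all.2
    fun l' : Fin (n + 1) => ev_le (h3 (star (wd u (L.drop l)) * X * wd u (L.drop l'))
      (star W * f * W)) hε] with b hb h6
  filter_upwards [h1, eventually_all.2 fun l : Fin (n + 1) => eventually_all.2
    fun l' : Fin (n + 1) => (ev_le (h3 (u * (wd u (L.take l) * X * star (wd u (L.take l'))) * star u)
      f) hε).and ((ev_le (h2 (u * wd u (L.take l) * X * (wd u (L.drop l') * b * star W) * f)) hε).and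
      (ev_le (h2 (f * star (wd u (L.drop l) * b * star W) * X * star (wd u (L.take l')) * star u)) hε))]
    with a ha h7
  rintro ⟨l, i⟩ ⟨l', i'⟩
  rw [mul_sub, map_sub, mul_smul_comm, map_smul, mul_one, smul_eq_mul]
  rcases i <;> rcases i'
  · refine aux _ (tr (wd u (L.take l) * X * star (wd u (L.take l')))) _ ?_ ?_
    · have := (h7 l l').1
      rw [bb, one_mul, one_mul, tr_one, div_one, tr_conj hu, tr_comm _ f] at this
      simpa [cc, ha.sa, mul_assoc] using this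
    · simpa [Fin.ext_iff] using (hp l l').1
  · have := (h7 l l').2.1
    rw [← mul_assoc, tr_comm _ f] at this
    refine le_trans ?_ (this.trans (by linarith))
    simp [cc, mul_assoc]
  · have := (h7 l l').2.2
    rw [tr_comm] at this
    refine le_trans ?_ (this.trans (by linarith))
    simp [cc, mul_assoc, ha.sa]
  · refine aux _ (tr (star (wd u (L.drop l)) * X * wd u (L.drop l'))) _ ?_ ?_
    · have := h6 l l'
      rw [bb, one_mul, one_mul, tr_one, div_one, tr_cyc' (star W), uus hW, one_mul,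
        mul_assoc (star W), ← mul_assoc _ (star W), tr_comm _ (f * W)] at this
      simpa [cc, hb.sa, mul_assoc] using this
    · simpa [Fin.ext_iff] using (hp l l').2

structure CH (Q : StarSubalgebra ℂ A) (f : A) (d : ℕ) (r : ℝ) (x : List A × A × A) : Prop where
  len : x.1.length = d
  LQ : ∀ a ∈ x.1, a ∈ Q
  LU : UL x.1
  bQ : x.2.1 ∈ Q
  bU : x.2.1 ∈ unitary A
  pQ : x.2.2 ∈ Q
  pP : IsStarProjection x.2.2
  fp : f * x.2.2 = x.2.2
  pr : n2 x.2.2 = r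

theorem choice [Cpl A] (G : Good Q ⊤) {u W f : A} (hu : u ∈ unitary A) (hW : W ∈ unitary A)
    (hfQ : f ∈ Q) (hf : IsStarProjection f) (hf2 : 1 / 2 ≤ rt f) {d : ℕ} (hd : 0 < d) {j : ℕ}
    {r : ℝ} (hr : 0 ≤ r) (hr2 : r ^ 2 = 2⁻¹ ^ j * rt f) :
    ∃ F : Filter (List A × A × A), F.NeBot ∧ (∀ᶠ x in F, CH Q f d r x) ∧
      (∀ X, ∀ ε > 0, ∀ᶠ x in F, er (cc d u W x.2.1 x.1) x.2.2 X ≤ 16 * d ^ 2 * r ^ 2 * n2 X + ε) ∧
      (∀ Y, ∀ ε > 0, ∀ᶠ x in F, ∀ i, n2 (Y * cc d u W x.2.1 x.1 i * x.2.2) ≤ 2 * r * n2 Y + ε) ∧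
      (∀ Y, ∀ ε > 0, ∀ᶠ x in F, n2 (Y * x.2.2) ≤ 2 * r * n2 Y + ε) ∧
      (∀ V, ∀ ε > 0, ∀ᶠ x in F, ‖tr (x.2.2 * V) - 2⁻¹ ^ j * tr (f * V)‖ ≤ ε) ∧
      (∀ V, ∀ ε > 0, ∀ᶠ x in F, ‖tr (x.2.2 * (wd u x.1 * x.2.1 * V))‖ ≤ ε) ∧
      (∀ ε > 0, ∀ᶠ x in F, ∀ L₁ L₂ L₃, L₁ ++ (L₂ ++ L₃) = x.1 → L₁ ≠ [] → L₂ ≠ [] →
        ‖tr (wd u L₂)‖ ≤ ε) := by
  obtain ⟨n, rfl⟩ : ∃ n, d = n + 1 := ⟨d - 1, by omega⟩
  obtain ⟨M, m0, m1, m2, m3⟩ := lemQ G (one_mem _) (IsStarProjection.one A)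
  obtain ⟨F, f0, f1, f2⟩ := spacers m1 m2 u n
  obtain ⟨P, p0, p1, p2, p3⟩ := lemP G hfQ hf j
  have p4 := p1.mono fun p hp => hp.2.1
  have hUL : ∀ {L : List A} {a : A}, (∀ a ∈ L, Sym Q 1 a) → Sym Q 1 a → UL (a :: L) :=
    fun h h' => List.forall_mem_cons.2 ⟨h'.unit, fun a ha => (h a ha).unit⟩
  refine ⟨F.bind fun L => M.bind fun b => M.bind fun a => P.map fun p => (a :: L, b, p),
    bind_neBot (Eventually.of_forall fun _ => bind_neBot (Eventually.of_forall fun _ =>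
      bind_neBot (Eventually.of_forall fun _ => inferInstance))), ?_, fun X ε hε => ?_,
      fun Y ε hε => ?_, fun Y ε hε => ?_, fun V ε hε => ?_, fun V ε hε => ?_, fun ε hε => ?_⟩ <;>
    simp only [eventually_bind, eventually_map]
  · refine f1.mono fun L hL => m1.mono fun b hb => m1.mono fun a ha => p1.mono fun p hp =>
      ⟨by simp [hL.1], List.forall_mem_cons.2 ⟨ha.mem, fun a ha => (hL.2 a ha).mem⟩, hUL hL.2 ha,
        hb.mem, hb.unit, hp.1, hp.2.1, hp.2.2.1, ?_⟩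
    have h1 := hp.2.2.2
    rw [tr_proj hp.2.1, tr_proj hf] at h1
    have h2 : rt p = 2⁻¹ ^ j * rt f := by exact_mod_cast (by rw [h1]; push_cast; rfl :
      ((rt p : ℝ) : ℂ) = ((2⁻¹ ^ j * rt f : ℝ) : ℂ))
    exact (pow_left_inj₀ (n2_nonneg _) hr two_ne_zero).1 (by rw [n2_proj hp.2.1, h2, hr2])
  · obtain ⟨δ, hδ, hδε⟩ : ∃ δ > 0, 4 * ((n + 1 : ℕ) : ℝ) ^ 2 * (5 * δ) ≤ ε :=
      ⟨ε / (20 * ((n + 1 : ℕ) : ℝ) ^ 2), by positivity, le_of_eq (by field_simp; ring)⟩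
    filter_upwards [f1, f2 X δ hδ, f2 (star X) δ hδ] with L hL h1 h2
    filter_upwards [m1, decor m1 m2 m3 hu hW hf (fun a ha => (hL.2 a ha).unit) hL.1 hδ h1 h2]
      with b hb h3
    filter_upwards [m1, h3] with a ha h4
    have hc := (cc_PH (d := n + 1) hu hW hb.unit (hUL hL.2 ha) hf le_rfl zero_le_one).cu
    filter_upwards [p4, eventually_all.2 fun i => eventually_all.2 fun i' => evZ hf hf2 p4 p3
      (star (cc (n + 1) u W b (a :: L) i) * X * cc (n + 1) u W b (a :: L) i' -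
        (if i = i' then tr X else 0) • (1 : A)) hδ] with p hp h5
    have h6 : ∀ i i', n2 (EE (cc (n + 1) u W b (a :: L)) p X i i') ≤ 4 * r ^ 2 * n2 X + 5 * δ :=
      fun i i' => by
        have a1 := h5 i i'
        have a2 := h4 i i'
        have a3 := n2_sub_le (star (cc (n + 1) u W b (a :: L) i) * X * cc (n + 1) u W b (a :: L) i')
          ((if i = i' then tr X else 0) • (1 : A))
        rw [n2_uright (hc _), n2_uleft (ustar (hc _)), n2_smul, n2_one, mul_one] at a3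
        have a4 : ‖if i = i' then tr X else 0‖ ≤ n2 X := by
          split_ifs
          · exact tr_le X
          · simpa using n2_nonneg X
        have a5 : (0 : ℝ) < 2⁻¹ ^ j := by positivity
        have a6 : (2⁻¹ : ℝ) ^ j ≤ 2 * r ^ 2 := by nlinarith
        have a7 := mul_le_mul a6 (a3.trans (add_le_add le_rfl a4)) (n2_nonneg _) (by positivity)
        rw [mul_sub, sub_mul, mul_smul_comm, mul_one, smul_mul_assoc, pp hp, ← mul_assoc,
          ← mul_assoc] at a1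
        rw [EE]
        linarith
    refine (Finset.sum_le_sum fun i _ => Finset.sum_le_sum fun i' _ => h6 i i').trans ?_
    simp only [Finset.sum_const, Finset.card_univ, Fintype.card_prod, Fintype.card_fin,
      Fintype.card_bool, nsmul_eq_mul, Nat.cast_mul, Nat.cast_ofNat]
    nlinarith
  · filter_upwards [f1] with L hL
    filter_upwards [m1] with b hb
    filter_upwards [m1] with a ha
    have hc := (cc_PH (d := n + 1) hu hW hb.unit (hUL hL.2 ha) hf le_rfl zero_le_one).cu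
    refine eventually_all.2 fun i => (evY hf hf2 hr hr2 p4 p2
      (Y * cc (n + 1) u W b (a :: L) i) hε).mono fun p hp => ?_
    rwa [n2_uright (hc _)] at hp
  · exact Eventually.of_forall fun _ => Eventually.of_forall fun _ => Eventually.of_forall fun _ =>
      evY hf hf2 hr hr2 p4 p2 _ hε
  · exact Eventually.of_forall fun _ => Eventually.of_forall fun _ => Eventually.of_forall fun _ =>
      ev_le (p2 V) hε
  · refine Eventually.of_forall fun L => Eventually.of_forall fun b => ?_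
    filter_upwards [ev_le (m2 (u * wd u L * b * V * f)) (half_pos hε)] with a ha
    filter_upwards [ev_le (p2 (wd u (a :: L) * b * V)) (half_pos hε)] with p hp
    have h1 := (norm_le_insert' _ _).trans (add_le_add le_rfl hp)
    rw [norm_mul, norm_pow, norm_inv, Complex.norm_ofNat, tr_comm f] at h1
    have a4 : (2⁻¹ : ℝ) ^ j ≤ 1 := pow_le_one₀ (by norm_num) (by norm_num)
    have h2 : ‖tr (wd u (a :: L) * b * V * f)‖ ≤ ε / 2 := by simpa [mul_assoc] using ha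
    have := mul_le_mul a4 h2 (norm_nonneg _) zero_le_one
    linarith
  · filter_upwards [f2 1 ε hε] with L hL
    refine Eventually.of_forall fun _ => Eventually.of_forall fun a => Eventually.of_forall
      fun _ L₁ L₂ L₃ e h1 h2 => ?_
    rcases L₁ with _ | ⟨a', L₁⟩
    · exact absurd rfl h1
    · simp only [List.cons_append, List.cons.injEq] at e
      simpa using hL _ _ _ e.2 h2

end Vale.Agent.P085
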