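import Vale.Agent.P085.Polar

/-! Halving of projections in an infinite-dimensional factor. -/

open scoped ComplexConjugate
open Filter Topology Complex

namespace Vale.Agent.P085

lemma brezis {X : Type*} (le : X → X → Prop) (hr : ∀ x, le x x)
    (ht : ∀ x y z, le x y → le y z → le x z) (φ : X → ℝ) {C : ℝ} (hC : ∀ x, φ x ≤ C)
    (hm : ∀ x y, le x y → φ x ≤ φ y)
    (hub : ∀ x : ℕ → X, (∀ n m, n ≤ m → le (x n) (x m)) → ∃ y, ∀ n, le (x n) y) (x0 : X) :
    ∃ x, ∀ y, le x y → φ y ≤ φ x := by
  have h1 : ∀ (n : ℕ) x, ∃ y, le x y ∧ ∀ z, le x z → φ z ≤ φ y + 1 / (n + 1) := fun n x => by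
    have hb : BddAbove (φ '' {z | le x z}) := ⟨C, by rintro _ ⟨z, -, rfl⟩; exact hC z⟩
    obtain ⟨_, ⟨y, hy, rfl⟩, h⟩ := exists_lt_of_lt_csSup (s := φ '' {z | le x z})
      ⟨_, x, hr x, rfl⟩ (sub_lt_self _ (by positivity : (0 : ℝ) < 1 / (n + 1)))
    exact ⟨y, hy, fun z hz => by have := le_csSup hb ⟨z, hz, rfl⟩; linarith⟩
  choose f hf hf' using h1
  let x : ℕ → X := fun n => Nat.rec x0 (fun n y => f n y) n
  have hx : ∀ n m, n ≤ m → le (x n) (x m) := fun n m h => by
    induction h with
    | refl => exact hr _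
    | step _ ih => exact ht _ _ _ ih (hf _ _)
  obtain ⟨y, hy⟩ := hub x hx
  refine ⟨y, fun z hz => ?_⟩
  have h2 : Tendsto (fun n : ℕ => φ y + 1 / ((n : ℝ) + 1)) atTop (𝓝 (φ y + 0)) :=
    tendsto_one_div_add_atTop_nhds_zero_nat.const_add _
  rw [add_zero] at h2
  refine ge_of_tendsto' h2 fun n => (hf' n (x n) z (ht _ _ _ (hy n) hz)).trans ?_
  have := hm _ _ (hy (n + 1))
  exact add_le_add this le_rfl

variable {A : Type*} [CStarAlgebra A] [TrAlg A]

def InfD (S : StarSubalgebra ℂ A) : Prop :=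
  ∀ F : Finset A, ¬ (S : Set A) ⊆ Submodule.span ℂ (F : Set A)

lemma min_fd [Cpl A] {S : StarSubalgebra ℂ A} (hS : C2 (S : Set A)) (hI : Irr S S) (hD : InfD S)
    {r : A} (hr : IsStarProjection r) (hrS : r ∈ S) (h0 : r ≠ 0) :
    ¬ ∀ z ∈ S, ∃ c : ℂ, r * z * r = c • r := fun hmin => by
  classical
  have key : ∀ F : Finset A, (∀ v ∈ F, v * r = v ∧ star v * v = r ∧
      ∀ v' ∈ F, v ≠ v' → star v * v' = 0) →
      (∀ v ∈ F, (∑ v ∈ F, v * star v) * v = v) ∧ IsStarProjection (∑ v ∈ F, v * star v) :=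
    fun F hF => by
      have h1 : ∀ v ∈ F, (∑ v ∈ F, v * star v) * v = v := fun v hv => by
        rw [Finset.sum_mul, Finset.sum_eq_single_of_mem v hv]
        · rw [mul_assoc, (hF v hv).2.1, (hF v hv).1]
        · intro v' hv' hne
          rw [mul_assoc, (hF v' hv').2.2 v hv hne, mul_zero]
      refine ⟨h1, mkP (by simp [star_sum]) ?_⟩
      nth_rewrite 2 [Finset.sum_congr rfl fun v hv => (rfl : v * star v = v * star v)]
      rw [Finset.mul_sum]
      exact Finset.sum_congr rfl fun v hv => by rw [← mul_assoc, h1 v hv]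
  have ind : ∀ k : ℕ, ∃ F : Finset A, F.card = k ∧ (∀ v ∈ F, v ∈ S) ∧ ∀ v ∈ F, v * r = v ∧
      star v * v = r ∧ ∀ v' ∈ F, v ≠ v' → star v * v' = 0 := fun k => by
    induction k with
    | zero => exact ⟨∅, rfl, by simp, by simp⟩
    | succ k ih =>
      obtain ⟨F, hk, hFS, hF⟩ := ih
      obtain ⟨h1, hP⟩ := key F hF
      set P := ∑ v ∈ F, v * star v with hPd
      have hPS : P ∈ S := sum_mem fun v hv => mul_mem (hFS v hv) (star_mem (hFS v hv))
      have hP1 : 1 - P ≠ 0 := fun h => hD (Finset.image₂ (fun v v' => v * star v') F F)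
        fun z hz => by
          have e : z = P * z * P := by rw [← sub_eq_zero.1 h]; simp
          rw [e, hPd, Finset.sum_mul, Finset.sum_mul]
          refine sum_mem fun v hv => ?_
          rw [Finset.mul_sum]
          refine sum_mem fun v' hv' => ?_
          obtain ⟨c, hc⟩ := hmin (star v * z * v') (mul_mem (mul_mem (star_mem (hFS v hv)) hz)
            (hFS v' hv'))
          have e1 : r * star v' = star v' := by simpa [pstar hr] using congrArg star (hF v' hv').1
          have : v * star v * z * (v' * star v') = c • (v * star v') := by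
            calc _ = v * r * star v * z * (v' * (r * star v')) := by rw [(hF v hv).1, e1]
              _ = v * (r * (star v * z * v') * r) * star v' := by noncomm_ring
              _ = _ := by rw [hc, mul_smul_comm, (hF v hv).1, smul_mul_assoc]
          rw [this]
          exact Submodule.smul_mem _ _ (Submodule.subset_span (by
            simp only [Finset.coe_image₂]; exact ⟨v, hv, v', hv', rfl⟩))
      obtain ⟨w, hw, -, hx⟩ := prime hS hI hrS hP1 h0
      set x := (1 - P) * w * r with hxd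
      have hxS : x ∈ S := mul_mem (mul_mem (sub_mem (one_mem _) hPS) hw) hrS
      have hxr : x * r = x := by rw [hxd, mul_assoc, pp hr]
      obtain ⟨c, hc⟩ := hmin (star x * x) (mul_mem (star_mem hxS) hxS)
      have e1 : r * star x = star x := by simpa [pstar hr] using congrArg star hxr
      rw [← mul_assoc, e1, mul_assoc, hxr] at hc
      have hc2 := congrArg tr hc
      rw [tr_sq, map_smul, tr_proj hr, smul_eq_mul] at hc2
      have hr0 := rt_pos hr h0
      have hx0 := n2_pos hx
      let a : ℝ := √(rt r) / n2 x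
      have ha : (a : ℂ) * a * c = 1 := by
        have h2 : (rt r : ℂ) ≠ 0 := by exact_mod_cast hr0.ne'
        have h3 : a * a * n2 x ^ 2 = rt r := by
          have := Real.mul_self_sqrt hr0.le
          simp only [a]; field_simp; rw [sq, this]
        apply mul_right_cancel₀ h2
        rw [mul_assoc, ← hc2, one_mul]; exact_mod_cast h3
      have hv : star ((a : ℂ) • x) * ((a : ℂ) • x) = r := by
        simp only [star_smul, star_def, conj_ofReal, smul_mul_smul_comm, hc, smul_smul, ha, one_smul]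
      have ho : ∀ v ∈ F, star v * ((a : ℂ) • x) = 0 := fun v hv => by
        have : star v * P = star v := by simpa [pstar hP] using congrArg star (h1 v hv)
        rw [mul_smul_comm, hxd, ← mul_assoc, ← mul_assoc, mul_sub, this]; simp
      have hn : (a : ℂ) • x ∉ F := fun h => h0 (by rw [← hv, ho _ h])
      refine ⟨insert ((a : ℂ) • x) F, by rw [Finset.card_insert_of_notMem hn, hk], ?_, ?_⟩
      · simp only [Finset.mem_insert, forall_eq_or_imp]
        exact ⟨S.smul_mem hxS _, hFS⟩
      · simp only [Finset.mem_insert, forall_eq_or_imp]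
        refine ⟨⟨by rw [smul_mul_assoc, hxr], hv, by simp, fun v hv _ => ?_⟩,
          fun v hv => ⟨(hF v hv).1, (hF v hv).2.1, fun _ => ho v hv, (hF v hv).2.2⟩⟩
        simpa using congrArg star (ho v hv)
  have hr0 := rt_pos hr h0
  obtain ⟨k, hk⟩ := exists_nat_gt (1 / rt r)
  obtain ⟨F, rfl, -, hF⟩ := ind k
  have h1 := rt_le_one (key F hF).2
  have h2 : rt (∑ v ∈ F, v * star v) = F.card * rt r := by
    rw [rt, map_sum, Finset.sum_congr rfl fun v hv => by rw [tr_comm, (hF v hv).2.1]]
    simp [rt]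
  rw [div_lt_iff₀ hr0] at hk
  linarith

lemma exists_nil [Cpl A] {S : StarSubalgebra ℂ A} (hS : C2 (S : Set A)) (hI : Irr S S)
    (hD : InfD S) {r : A} (hr : IsStarProjection r) (hrS : r ∈ S) (h0 : r ≠ 0) :
    ∃ v ∈ S, v ≠ 0 ∧ v * v = 0 ∧ v * star v * v = v ∧ r * v = v ∧ v * r = v := by
  have h1 : ∃ a ∈ S, star a = a ∧ r * a = a ∧ tr a = 0 ∧ a ≠ 0 := by
    by_contra h
    push Not at h
    have h2 : ∀ z ∈ S, star z = z → ∃ c : ℂ, r * z * r = c • r := fun z hz hs => by
      have hr0 : (rt r : ℂ) ≠ 0 := by exact_mod_cast (rt_pos hr h0).ne'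
      have hs' : star (r * z * r) = r * z * r := by simp [pstar hr, hs, mul_assoc]
      refine ⟨(rt (r * z * r) / rt r : ℝ), sub_eq_zero.1 (h _ (sub_mem (mul_mem (mul_mem hrS hz) hrS)
        (S.smul_mem hrS _)) ?_ ?_ ?_)⟩
      · rw [star_sub, hs', star_smul, star_def, conj_ofReal, pstar hr]
      · rw [mul_sub, mul_smul_comm, pp hr, ← mul_assoc, ← mul_assoc, pp hr]
      · rw [map_sub, map_smul, tr_sa hs', tr_proj hr]; push_cast; simp; field_simp; simp
    refine min_fd hS hI hD hr hrS h0 fun z hz => ?_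
    obtain ⟨c, hc⟩ := h2 (z + star z) (add_mem hz (star_mem hz)) (by simp [add_comm])
    obtain ⟨c', hc'⟩ := h2 (I • (z - star z)) (S.smul_mem (sub_mem hz (star_mem hz)) _)
      (by simp [star_smul, smul_sub]; abel)
    refine ⟨(c - I * c') / 2, ?_⟩
    simp only [mul_add, add_mul, mul_smul_comm, smul_mul_assoc, mul_sub, sub_mul] at hc hc'
    have : r * z * r = (1 / 2 : ℂ) • ((r * z * r + r * star z * r)
        - I • I • (r * z * r - r * star z * r)) := by
      rw [smul_smul, I_mul_I]; module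
    rw [this, hc, hc']; module
  obtain ⟨a, haS, hs, hra, ht, ha0⟩ := h1
  let _ := CStarAlgebra.spectralOrder A
  have := CStarAlgebra.spectralOrderedRing A
  have ha : IsSelfAdjoint a := hs
  have hcl := hS.isClosed
  have e1 : a⁺ - a⁻ = a := CFC.posPart_sub_negPart a ha
  have e2 : a⁺ * a⁻ = 0 := CFC.posPart_mul_negPart a
  have e3 : a⁻ * a⁺ = 0 := CFC.negPart_mul_posPart a
  have hb : a⁺ ∈ S := cfcₙ_mem (𝕜' := ℂ) _ haS
  have hc : a⁻ ∈ S := cfcₙ_mem (𝕜' := ℂ) _ haS
  have hz : ∀ b : A, 0 ≤ b → tr b = 0 → b = 0 := fun b hb h => by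
    have e : b = star (CFC.sqrt b) * CFC.sqrt b := by
      rw [(CFC.sqrt_nonneg b).isSelfAdjoint.star_eq, CFC.sqrt_mul_sqrt_self b]
    rw [e] at h
    rw [e, tr_faith h, mul_zero]
  have htr : tr a⁺ = tr a⁻ := by rw [← sub_eq_zero, ← map_sub, e1, ht]
  have hb0 : a⁺ ≠ 0 := fun h => ha0 (by
    rw [← e1, h, hz _ (CFC.negPart_nonneg a) (by rw [← htr, h, map_zero]), sub_zero])
  have hc0 : a⁻ ≠ 0 := fun h => ha0 (by
    rw [← e1, h, hz _ (CFC.posPart_nonneg a) (by rw [htr, h, map_zero]), sub_zero])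
  have har : a * (1 - r) = 0 := by
    have : a * r = a := by simpa [hs, pstar hr] using congrArg star hra
    rw [mul_sub, this, mul_one, sub_self]
  have f1 : a⁺ * (1 - r) = 0 := by
    rw [CFC.posPart_def, cfcₙ_eq_cfc]; exact cfc_ann ha har (by fun_prop) (by simp)
  have f2 : a⁻ * (1 - r) = 0 := by
    rw [CFC.negPart_def, cfcₙ_eq_cfc]; exact cfc_ann ha har (by fun_prop) (by simp)
  rw [mul_sub, mul_one, sub_eq_zero] at f1 f2
  have f3 : r * a⁺ = a⁺ := by
    simpa [pstar hr, (CFC.posPart_nonneg a).isSelfAdjoint.star_eq] using (congrArg star f1).symm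
  obtain ⟨w, hw, -, hx⟩ := prime hS hI hc hb0 hc0
  refine polar hS (mul_mem (mul_mem hb hw) hc) ?_ ?_ ?_ hx
  · rw [← mul_assoc, ← mul_assoc, f3]
  · rw [mul_assoc, ← f2]
  · calc _ = a⁺ * w * (a⁻ * a⁺) * w * a⁻ := by noncomm_ring
      _ = 0 := by rw [e3]; simp

structure Half (e v : A) : Prop where
  sq : v * v = 0
  sum : star v * v + v * star v = e
  iso : v * star v * v = v

omit [TrAlg A] in
lemma piso_proj {v : A} (h : v * star v * v = v) : IsStarProjection (star v * v) :=
  mkP (by simp) (by rw [mul_assoc, ← mul_assoc v, h])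

omit [TrAlg A] in
lemma piso_star {v : A} (h : v * star v * v = v) : star v * v * star v = star v := by
  simpa [mul_assoc] using congrArg star h

omit [TrAlg A] in
lemma piso_proj' {v : A} (h : v * star v * v = v) : IsStarProjection (v * star v) :=
  mkP (by simp) (by rw [← mul_assoc, h])

omit [TrAlg A] in
lemma piso_le {v : A} (h : v * star v * v = v) : ‖v‖ ≤ 1 := by
  have := ple (piso_proj h)
  rw [CStarRing.norm_star_mul_self] at this
  nlinarith [norm_nonneg v]

def Hlv (S : StarSubalgebra ℂ A) : Prop :=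
  ∀ e ∈ S, IsStarProjection e → ∃ v ∈ S, Half e v

theorem halve [Cpl A] {S : StarSubalgebra ℂ A} (hS : C2 (S : Set A)) (hI : Irr S S)
    (hD : InfD S) : Hlv S := fun e heS he => by
  let X := {v : A // v ∈ S ∧ v * v = 0 ∧ v * star v * v = v ∧ e * v = v ∧ v * e = v}
  let le : X → X → Prop := fun v w => star v.1 * w.1 = star v.1 * v.1 ∧ w.1 * star v.1 = v.1 * star v.1
  have hd : ∀ v w, le v w → n2 (v.1 - w.1) ^ 2 = n2 w.1 ^ 2 - n2 v.1 ^ 2 := fun v w h => by
    rw [n2_sub_sq, h.1, ← n2_sq]; ring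
  have hC : ∀ v : X, n2 v.1 ^ 2 ≤ 1 := fun v =>
    pow_le_one₀ (n2_nonneg _) ((n2_le_norm _).trans (piso_le v.2.2.2.1))
  have hm : ∀ v w, le v w → n2 v.1 ^ 2 ≤ n2 w.1 ^ 2 := fun v w h => by
    have := hd v w h; nlinarith [sq_nonneg (n2 (v.1 - w.1))]
  obtain ⟨⟨v, hvS, h1, h2, h3, h4⟩, hv⟩ := brezis le (fun _ => ⟨rfl, rfl⟩) (fun u v w h h' => by
      have a1 : v.1 * star u.1 * u.1 = u.1 := by rw [h.2, u.2.2.2.1]
      have a2 : star u.1 = star u.1 * u.1 * star v.1 := by
        simpa [mul_assoc] using (congrArg star a1).symm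
      have a3 : u.1 * (star u.1 * v.1) = u.1 := by rw [h.1, ← mul_assoc, u.2.2.2.1]
      have a4 : star u.1 = star v.1 * u.1 * star u.1 := by
        simpa [mul_assoc] using (congrArg star a3).symm
      constructor
      · rw [← h.1, a2, mul_assoc _ _ w.1, h'.1, ← mul_assoc]
      · rw [← h.2, a4, ← mul_assoc, ← mul_assoc, h'.2, ← mul_assoc, ← mul_assoc])
    (fun v => n2 v.1 ^ 2) hC hm (fun x hx => by
      obtain ⟨L, hL, hL'⟩ := mono_cauchy (φ := fun n => n2 (x n).1 ^ 2)
        (fun n m h => hm _ _ (hx n m h)) fun n => hC _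
      have hx1 : ∀ n, ‖(x n).1‖ ≤ 1 := fun n => piso_le (x n).2.2.2.1
      obtain ⟨w, -, hw⟩ := cpl_of (fun n => (x n).1) 1 hx1 _ hL' fun N m hm' n hn => by
        have := hm _ _ (hx N m hm')
        have := hm _ _ (hx N n hn)
        have := hL m
        have := hL n
        rcases le_total m n with h | h
        · rw [hd _ _ (hx m n h)]; linarith
        · rw [n2_sub_rev, hd _ _ (hx n m h)]; linarith
      have hw : Lim atTop (fun n => (x n).1) w := hw
      refine ⟨⟨w, hS.lim (Eventually.of_forall fun n => (x n).2.1) hw, ?_, ?_, ?_, ?_⟩, fun n => ⟨?_, ?_⟩⟩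
      · exact (hw.mul hw hx1).eq (Lim.const 0) (Eventually.of_forall fun n => (x n).2.2.1)
      · exact ((hw.mul hw.star hx1).mul hw fun n => ple (piso_proj' (x n).2.2.2.1)).eq hw
          (Eventually.of_forall fun n => (x n).2.2.2.1)
      · exact ((Lim.const e).mul hw fun _ => le_rfl).eq hw
          (Eventually.of_forall fun n => (x n).2.2.2.2.1)
      · exact (hw.mul (Lim.const e) hx1).eq hw (Eventually.of_forall fun n => (x n).2.2.2.2.2)
      · exact ((Lim.const _).mul hw fun _ => le_rfl).eq (Lim.const _)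
          ((eventually_ge_atTop n).mono fun m h => (hx n m h).1)
      · exact (hw.mul (Lim.const _) hx1).eq (Lim.const _)
          ((eventually_ge_atTop n).mono fun m h => (hx n m h).2))
    ⟨0, zero_mem _, by simp⟩
  refine ⟨v, hvS, h1, ?_, h2⟩
  by_contra hne
  have s1 : star v * star v = 0 := by simpa using congrArg star h1
  have s2 := piso_star h2
  have s3 : star v * e = star v := by simpa [pstar he] using congrArg star h3
  have s4 : e * star v = star v := by simpa [pstar he] using congrArg star h4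
  set r := e - (star v * v + v * star v) with hrd
  have r1 : r * v = 0 := by
    rw [hrd, sub_mul, add_mul, h3, h2, mul_assoc, h1]; simp
  have r2 : v * r = 0 := by
    rw [hrd, mul_sub, mul_add, h4, ← mul_assoc, h2, ← mul_assoc, h1]; simp
  have rs : star r = r := by simp [hrd, pstar he]
  have r3 : star v * r = 0 := by simpa [rs] using congrArg star r1
  have r4 : r * star v = 0 := by simpa [rs] using congrArg star r2
  have re : e * r = r := by
    rw [hrd, mul_sub, mul_add, pp he, ← mul_assoc, ← mul_assoc, s4, h3]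
  have er : r * e = r := by simpa [rs, pstar he] using congrArg star re
  have hr : IsStarProjection r := mkP rs (by
    nth_rewrite 2 [hrd]
    rw [mul_sub, mul_add, er, ← mul_assoc, ← mul_assoc, r4, r1]; simp)
  obtain ⟨w, hwS, hw0, w1, w2, w3, w4⟩ := exists_nil hS hI hD hr
    (sub_mem heS (add_mem (mul_mem (star_mem hvS) hvS) (mul_mem hvS (star_mem hvS))))
    fun h => hne (sub_eq_zero.1 h).symm
  have t1 : star v * w = 0 := by rw [← w3, ← mul_assoc, r3, zero_mul]
  have t2 : w * star v = 0 := by rw [← w4, mul_assoc, r4, mul_zero]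
  have t3 : v * w = 0 := by rw [← w3, ← mul_assoc, r2, zero_mul]
  have t4 : w * v = 0 := by rw [← w4, mul_assoc, r1, mul_zero]
  have t5 : star w * v = 0 := by simpa using congrArg star t1
  have t6 : v * star w = 0 := by simpa using congrArg star t2
  have := hv ⟨v + w, add_mem hvS hwS, by simp [mul_add, add_mul, *], by
      have e1 : (v + w) * star (v + w) = v * star v + w * star w := by
        simp [star_add, add_mul, mul_add, t6, t2]
      rw [e1, add_mul, mul_add, mul_add, h2, w2, mul_assoc v, t1, mul_assoc w, t5]; simp,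
      by rw [mul_add, h3, ← w3, ← mul_assoc, re], by rw [add_mul, h4, ← w4, mul_assoc, er]⟩
    ⟨by simp [mul_add, t1], by simp [add_mul, t2]⟩
  simp only [n2_add_sq, t1, map_zero, zero_re] at this
  have := n2_pos hw0
  nlinarith

end Vale.Agent.P085
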