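import Vale.Agent.P085.Sym

/-! Weakly null and mixing symmetries, small independent projections. -/

open scoped ComplexConjugate
open Filter Topology Complex

namespace Vale.Agent.P085

lemma freq_pi {α β : Type*} (φ : α → β → ℂ) (l : β → ℂ) (F : Filter α) {P : α → Prop}
    (h : ∀ (T : Finset β) (ε : ℝ), 0 < ε → ∃ᶠ a in F, P a ∧ ∀ b ∈ T, ‖φ a b - l b‖ < ε) :
    ∃ᶠ a in F ⊓ comap φ (𝓝 l), P a := by
  rw [frequently_iff]
  intro U hU
  obtain ⟨U1, h1, U2, h2, rfl⟩ := mem_inf_iff.1 hU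
  obtain ⟨V, hV, hVU⟩ := mem_comap.1 h2
  rw [nhds_pi, mem_pi'] at hV
  obtain ⟨T, t, ht, hTV⟩ := hV
  have : ∀ᶠ ε in 𝓝[>] (0 : ℝ), ∀ b ∈ T, Metric.ball (l b) ε ⊆ t b :=
    (eventually_all_finset T).2 fun b _ => by
      obtain ⟨ε, hε, h⟩ := Metric.mem_nhds_iff.1 (ht b)
      filter_upwards [Ioo_mem_nhdsGT hε] with δ hδ using (Metric.ball_subset_ball hδ.2.le).trans h
  obtain ⟨ε, hε, hε0⟩ := (this.and self_mem_nhdsWithin).exists
  obtain ⟨a, ⟨ha, ha'⟩, haU⟩ := ((h T ε hε0).and_eventually h1).exists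
  exact ⟨a, ⟨haU, hVU (hTV fun b hb => hε b hb (by simpa [dist_eq_norm] using ha' b hb))⟩, ha⟩

lemma tendsto_comap_pi {α β : Type*} (φ : α → β → ℂ) (l : β → ℂ) (b : β) :
    Tendsto (fun a => φ a b) (comap φ (𝓝 l)) (𝓝 (l b)) :=
  ((continuous_apply b).tendsto l).comp tendsto_comap

lemma bind_neBot {α β : Type*} {F : Filter α} [F.NeBot] {m : α → Filter β}
    (h : ∀ᶠ a in F, (m a).NeBot) : (F.bind m).NeBot := by
  rw [neBot_iff, Ne, ← eventually_false_iff_eq_bot, eventually_bind]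
  intro h'
  obtain ⟨a, h1, h2⟩ := (h.and h').exists
  exact h2.exists.elim fun _ h => h

lemma tendsto_bind {α β : Type*} {F : Filter α} {m : α → Filter β} {g : β → ℂ} {G : α → ℂ} {L : ℂ}
    (h : ∀ᶠ a in F, Tendsto g (m a) (𝓝 (G a))) (hG : Tendsto G F (𝓝 L)) :
    Tendsto g (F.bind m) (𝓝 L) := by
  rw [tendsto_nhds] at hG ⊢
  intro U hU hL
  rw [mem_bind']
  filter_upwards [h, hG U hU hL] with a h1 h2 using h1 (hU.mem_nhds h2)

variable {A : Type*} [CStarAlgebra A] [TrAlg A]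

lemma tr_rot (a b c d : A) : tr (c * (d * a * b)) = tr (a * b * c * d) := by
  rw [mul_assoc (a * b), tr_comm (a * b)]; congr 1; noncomm_ring

variable (A) in
/-- weak neighbourhoods of zero -/
noncomputable def wk : Filter A := comap (fun s V => tr (s * V)) (𝓝 0)

lemma wk_tendsto (V : A) : Tendsto (fun s => tr (s * V)) (wk A) (𝓝 0) :=
  tendsto_comap_pi (fun s V => tr (s * V)) 0 V

lemma wk_add {U : Set A} (hU : U ∈ wk A) :
    ∃ U' ∈ wk A, ∀ x ∈ U', ∀ y ∈ U', x + y ∈ U ∧ x - y ∈ U := by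
  obtain ⟨V, hV, hVU⟩ := mem_comap.1 hU
  have h1 : Tendsto (fun z : (A → ℂ) × (A → ℂ) => z.1 + z.2) (𝓝 0 ×ˢ 𝓝 0) (𝓝 0) := by
    rw [← nhds_prod_eq]; simpa using continuous_add.tendsto ((0, 0) : (A → ℂ) × (A → ℂ))
  have h2 : Tendsto (fun z : (A → ℂ) × (A → ℂ) => z.1 - z.2) (𝓝 0 ×ˢ 𝓝 0) (𝓝 0) := by
    rw [← nhds_prod_eq]; simpa using continuous_sub.tendsto ((0, 0) : (A → ℂ) × (A → ℂ))
  obtain ⟨W, hW, h⟩ := mem_prod_self_iff.1 (inter_mem (h1 hV) (h2 hV))
  refine ⟨_, preimage_mem_comap hW, fun x hx y hy => ⟨hVU ?_, hVU ?_⟩⟩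
  · have := (h (Set.mk_mem_prod hx hy)).1
    simp only [Set.mem_preimage, add_mul, map_add] at this ⊢
    exact this
  · have := (h (Set.mk_mem_prod hx hy)).2
    simp only [Set.mem_preimage, sub_mul, map_sub] at this ⊢
    exact this

lemma freq_add {P : A → Prop} {R : A → A → Prop}
    (h : ∃ᶠ x in wk A, ∃ᶠ y in wk A, R x y) (hP : ∀ x y, R x y → P (x + y) ∨ P (x - y)) :
    ∃ᶠ z in wk A, P z := by
  rw [frequently_iff]
  intro U hU
  obtain ⟨U', hU', h1⟩ := wk_add hU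
  obtain ⟨x, hx, hx'⟩ := (h.and_eventually hU').exists
  obtain ⟨y, hy, hy'⟩ := (hx.and_eventually hU').exists
  rcases hP x y hy with h | h
  · exact ⟨_, (h1 x hx' y hy').1, h⟩
  · exact ⟨_, (h1 x hx' y hy').2, h⟩

variable {Q : StarSubalgebra ℂ A}

lemma lemWk (hQ : Hlv Q) (T : Finset A) (k : ℕ) : ∀ e ∈ Q, IsStarProjection e → ∃ D, Sym Q e D ∧
    ∑ V ∈ T, ‖tr (D * V)‖ ^ 2 ≤ 2⁻¹ ^ k * rt e ^ 2 * ∑ V ∈ T, ‖V‖ ^ 2 := by
  induction k with
  | zero =>
    intro e heQ he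
    obtain ⟨D, hD⟩ := hQ.sym he heQ
    refine ⟨D, hD, ?_⟩
    rw [pow_zero, one_mul, Finset.mul_sum]
    refine Finset.sum_le_sum fun V _ => ?_
    rw [← mul_pow]
    refine pow_le_pow_left₀ (norm_nonneg _) ?_ 2
    rw [← hD.es, mul_assoc]
    refine (tr_p_le he _).trans (mul_le_mul_of_nonneg_left ?_ (rt_nonneg he))
    exact (norm_mul_le _ _).trans (mul_le_of_le_one_left (norm_nonneg _) hD.le)
  | succ k ih =>
    intro e heQ he
    obtain ⟨s, hs⟩ := hQ.sym he heQ
    obtain ⟨D, hD, h1⟩ := ih _ hs.pl_mem hs.pl_proj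
    obtain ⟨D', hD', h2⟩ := ih _ hs.neg.pl_mem hs.neg.pl_proj
    have h3 := hD.add hD' hs.pl_orth
    have h4 := hD.add hD'.neg hs.pl_orth
    rw [pl_add] at h3 h4
    rw [hs.rt_pl] at h1
    rw [hs.neg.rt_pl] at h2
    have h5 : ∑ V ∈ T, ‖tr ((D + D') * V)‖ ^ 2 + ∑ V ∈ T, ‖tr ((D + -D') * V)‖ ^ 2
        = 2 * (∑ V ∈ T, ‖tr (D * V)‖ ^ 2 + ∑ V ∈ T, ‖tr (D' * V)‖ ^ 2) := by
      rw [← Finset.sum_add_distrib, ← Finset.sum_add_distrib, Finset.mul_sum]
      refine Finset.sum_congr rfl fun V _ => ?_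
      rw [add_mul, add_mul, neg_mul, map_add, map_add, map_neg, ← sub_eq_add_neg]
      have := parallelogram_law_with_norm ℂ (tr (D * V)) (tr (D' * V))
      nlinarith
    rcases le_total (∑ V ∈ T, ‖tr ((D + D') * V)‖ ^ 2) (∑ V ∈ T, ‖tr ((D + -D') * V)‖ ^ 2)
      with h | h
    · exact ⟨_, h3, by rw [pow_succ]; nlinarith⟩
    · exact ⟨_, h4, by rw [pow_succ]; nlinarith⟩

lemma lemW (hQ : Hlv Q) {e : A} (heQ : e ∈ Q) (he : IsStarProjection e) :
    ∃ᶠ D in wk A, Sym Q e D := by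
  have := freq_pi (fun s V : A => tr (s * V)) 0 ⊤ (P := Sym Q e) fun T ε hε => by
    have h1 : Tendsto (fun k : ℕ => (2⁻¹ : ℝ) ^ k * rt e ^ 2 * ∑ V ∈ T, ‖V‖ ^ 2) atTop (𝓝 0) := by
      simpa using ((tendsto_pow_atTop_nhds_zero_of_lt_one (r := (2⁻¹ : ℝ)) (by norm_num)
        (by norm_num)).mul_const (rt e ^ 2)).mul_const (∑ V ∈ T, ‖V‖ ^ 2)
    obtain ⟨k, hk⟩ := (h1.eventually (gt_mem_nhds (pow_pos hε 2))).exists
    obtain ⟨D, hD, h2⟩ := lemWk hQ T k e heQ he
    refine frequently_top.2 ⟨D, hD, fun V hV => ?_⟩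
    have := Finset.single_le_sum (f := fun V => ‖tr (D * V)‖ ^ 2) (fun _ _ => by positivity) hV
    simpa using lt_of_pow_lt_pow_left₀ 2 hε.le (this.trans_lt (h2.trans_lt hk))
  rwa [top_inf_eq] at this

lemma lemB [Cpl A] (G : Good Q ⊤) {e : A} (heQ : e ∈ Q) (he : IsStarProjection e) (X : A) :
    ∃ᶠ s in wk A, Sym Q e s ∧ dv e X ≤ 14 * n2 (s * X * s - e * X * e) := by
  obtain ⟨s, -, hs, -, -, h⟩ := lemB0 G he heQ (X := X) trivial
  refine freq_add (R := fun x y => Sym Q (pl e s) x ∧ Sym Q (pl e (-s)) y)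
    ((lemW G.hlv hs.pl_mem hs.pl_proj).mono fun x hx =>
      (lemW G.hlv hs.neg.pl_mem hs.neg.pl_proj).mono fun y hy => ⟨hx, hy⟩) ?_
  rintro x y ⟨hx, hy⟩
  have h3 := hx.add hy hs.pl_orth
  have h4 := hx.add hy.neg hs.pl_orth
  rw [pl_add] at h3 h4
  rw [← sub_eq_add_neg] at h4
  have h5 := hx.orth hy hs.pl_orth
  have h6 : y * x = 0 := by simpa [hx.sa, hy.sa] using congrArg star h5
  have h7 : (x + y) * (x - y) = s := by
    simp [add_mul, mul_sub, h5, h6, hx.sq, hy.sq, pl_sub]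
  have h8 : (x - y) * (x + y) = s := by
    simp [sub_mul, mul_add, h5, h6, hx.sq, hy.sq, ← sub_eq_add_neg, pl_sub]
  have h9 : s * X * s - e * X * e = (x + y) * ((x - y) * X * (x - y) - e * X * e) * (x + y)
      + ((x + y) * X * (x + y) - e * X * e) := by
    calc _ = ((x + y) * (x - y)) * X * ((x - y) * (x + y)) - ((x + y) * e) * X * (e * (x + y))
          + ((x + y) * X * (x + y) - e * X * e) := by rw [h7, h8, h3.es, h3.se]; abel
      _ = _ := by noncomm_ring
  have h10 := (n2_right_le h3.le _).trans (n2_left_le h3.le ((x - y) * X * (x - y) - e * X * e))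
  have h11 := n2_add_le ((x + y) * ((x - y) * X * (x - y) - e * X * e) * (x + y))
    ((x + y) * X * (x + y) - e * X * e)
  rw [← h9] at h11
  by_contra hc
  simp only [not_or, not_and, not_le] at hc
  have := hc.1 h3
  have := hc.2 h4
  linarith

noncomputable def bb (e Y Z : A) : ℂ := tr (e * Y) * tr (e * Z) / tr e

lemma dv_split {e s : A} (hs : Sym Q e s) (X : A) : dv (pl e s) X ^ 2 + dv (pl e (-s)) X ^ 2
    ≤ dv e X ^ 2 - n2 (s * X * s - e * X * e) ^ 2 / 4 := by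
  obtain ⟨c, hc⟩ : ∃ c, c = tr (e * X) / tr e := ⟨_, rfl⟩
  obtain ⟨Y, hY⟩ : ∃ Y, Y = e * X * e - c • e := ⟨_, rfl⟩
  have h0 : dv e X = n2 Y := by rw [hY, hc, dv]
  have h1 : ∀ s, Sym Q e s → dv (pl e s) X ^ 2 ≤ n2 (pl e s * Y * pl e s) ^ 2 := fun s hs => by
    refine pow_le_pow_left₀ (n2_nonneg _) ((dv_le hs.pl_proj X c).trans_eq ?_) 2
    congr 1
    rw [hY, mul_sub, sub_mul, mul_smul_comm, smul_mul_assoc, hs.pl_e, pp hs.pl_proj,
      ← mul_assoc, ← mul_assoc, hs.pl_e, mul_assoc _ e, hs.e_pl]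
  have h2 : s * Y * s = s * X * s - c • e := by
    rw [hY, mul_sub, sub_mul, mul_smul_comm, smul_mul_assoc, hs.se, hs.sq,
      ← mul_assoc, ← mul_assoc, hs.se, mul_assoc _ e, hs.es]
  have h3 : e * Y = Y := by
    rw [hY, mul_sub, mul_smul_comm, pp hs.proj, ← mul_assoc, ← mul_assoc, pp hs.proj]
  have h4 : Y * e = Y := by rw [hY, sub_mul, smul_mul_assoc, pp hs.proj, mul_assoc, pp hs.proj]
  have h5 : pl e s * Y * pl e s + pl e (-s) * Y * pl e (-s) = mid Y (s * Y * s) := by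
    simp only [pl, mid, smul_mul_assoc, mul_smul_comm, add_mul, mul_add, h3, h4, neg_mul, mul_neg,
      mul_assoc s Y e]
    module
  have h6 := n2_mid Y (s * Y * s)
  have h7 : n2 (s * Y * s) ^ 2 ≤ n2 Y ^ 2 := pow_le_pow_left₀ (n2_nonneg _)
    ((n2_right_le hs.le _).trans (n2_left_le hs.le _)) 2
  have h8 : star (pl e s * Y * pl e s) * (pl e (-s) * Y * pl e (-s)) = 0 := by
    rw [star_mul, star_mul, pstar hs.pl_proj]
    calc _ = pl e s * star Y * (pl e s * pl e (-s)) * Y * pl e (-s) := by noncomm_ring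
      _ = 0 := by rw [hs.pl_orth]; simp
  rw [← h5, n2_add_sq, h8, n2_sub_rev, h2, hY, sub_sub_sub_cancel_right, ← hY, ← h2] at h6
  have := h1 s hs
  have := h1 _ hs.neg
  simp only [map_zero, zero_re] at h6
  rw [h0]; linarith

lemma bb_split {e s : A} (hs : Sym Q e s) (Y Z : A) : bb (pl e s) Y Z + bb (pl e (-s)) Y Z
    = bb e Y Z + tr (s * Y) * tr (s * Z) / tr e := by
  simp only [bb, hs.tr_pl, hs.neg.tr_pl]
  simp only [pl, smul_mul_assoc, add_mul, map_smul, map_add, neg_mul, map_neg, smul_eq_mul]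
  by_cases h : tr e = 0
  · simp [h]
  · field_simp; ring

lemma base_S {e D : A} (hD : Sym Q e D) (X : A) :
    ‖tr (D * star X * D * X) - bb e (star X) X‖ ≤ dv e X ^ 2 := by
  have he := hD.proj
  obtain ⟨c, hc⟩ : ∃ c, c = tr (e * X) / tr e := ⟨_, rfl⟩
  obtain ⟨Y, hY⟩ : ∃ Y, Y = e * X * e - c • e := ⟨_, rfl⟩
  have h0 : dv e X = n2 Y := by rw [hY, hc, dv]
  have h1 : tr Y = 0 := by rw [hY, hc, tr_dv he]
  have h3 : e * Y = Y := by rw [hY, mul_sub, mul_smul_comm, pp he, ← mul_assoc, ← mul_assoc, pp he]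
  have h2 : e * X * e = Y + c • e := by rw [hY]; abel
  have h4 : tr (D * star X * D * X) = tr (D * star (e * X * e) * D * (e * X * e)) := by
    rw [star_mul, star_mul, pstar he]
    calc _ = tr (e * (D * e) * star X * (e * (D * e)) * X) := by rw [hD.se, hD.es]
      _ = tr (e * (D * (e * (star X * e)) * D * (e * X))) := by congr 1; noncomm_ring
      _ = _ := by rw [tr_comm]; congr 1; noncomm_ring
  have h5 : star Y * e = star Y := by simpa [pstar he] using congrArg star h3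
  have h6 : tr (D * star Y * D) = 0 := by rw [tr_cyc, mul_assoc, hD.sq, h5, tr_star, h1, map_zero]
  have h7 : tr (e * star X) = conj c * tr e := by
    have := congrArg conj (lam_mul he X)
    rw [map_mul, ← tr_star, ← tr_star, star_mul, pstar he, ← hc, tr_comm] at this
    exact this.symm
  have h8 : tr (D * star X * D * X) - bb e (star X) X = tr (D * star Y * D * Y) := by
    rw [h4, h2, bb, h7, mul_div_assoc, ← hc]
    simp only [star_add, star_smul, pstar he, mul_add, add_mul, mul_smul_comm, smul_mul_assoc,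
      map_add, map_smul, hD.se, hD.sq, h3, pp he, h1, mul_assoc _ D e, h6, smul_eq_mul, star_def]
    ring
  rw [h8, h0, sq]
  refine (tr_mul_le _ _).trans (mul_le_mul_of_nonneg_right ?_ (n2_nonneg _))
  rw [← n2_star Y]
  exact (n2_right_le hD.le _).trans (n2_left_le hD.le _)

lemma lemS [Cpl A] (G : Good Q ⊤) (T : Finset A) (k : ℕ) : ∀ e ∈ Q, IsStarProjection e →
    ∀ ε > 0, ∃ᶠ D in wk A, Sym Q e D ∧ ∑ X ∈ T, ‖tr (D * star X * D * X) - bb e (star X) X‖
      ≤ (1 - 1 / (784 * (T.card + 1))) ^ k * ∑ X ∈ T, dv e X ^ 2 + ε := by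
  obtain ⟨ρ, hρ⟩ : ∃ ρ : ℝ, ρ = 1 - 1 / (784 * (T.card + 1)) := ⟨_, rfl⟩
  have hρ0 : 0 ≤ ρ := by
    rw [hρ, sub_nonneg, div_le_one (by positivity)]
    have : (0 : ℝ) ≤ T.card := by positivity
    linarith
  rw [← hρ]
  induction k with
  | zero =>
    intro e heQ he ε hε
    refine (lemW G.hlv heQ he).mono fun D hD => ⟨hD, ?_⟩
    have := Finset.sum_le_sum fun X (_ : X ∈ T) => base_S hD X
    rw [pow_zero, one_mul]; linarith
  | succ k ih =>
    intro e heQ he ε hε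
    have h1 : ∃ᶠ s in wk A, Sym Q e s ∧ ∑ X ∈ T, dv (pl e s) X ^ 2 + ∑ X ∈ T, dv (pl e (-s)) X ^ 2
        ≤ ρ * ∑ X ∈ T, dv e X ^ 2 := by
      rcases T.eq_empty_or_nonempty with rfl | hT
      · simpa using lemW G.hlv heQ he
      obtain ⟨X0, hX0, hm⟩ := T.exists_max_image (fun X => dv e X ^ 2) hT
      refine (lemB G heQ he X0).mono fun s hs => ⟨hs.1, ?_⟩
      have h2 := Finset.sum_le_sum fun X (_ : X ∈ T) => dv_split hs.1 X
      rw [Finset.sum_add_distrib, Finset.sum_sub_distrib] at h2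
      have h3 := Finset.single_le_sum (f := fun X => n2 (s * X * s - e * X * e) ^ 2 / 4)
        (fun _ _ => by positivity) hX0
      have h4 := pow_le_pow_left₀ (n2_nonneg _) hs.2 2
      have h5 := Finset.sum_le_card_nsmul T _ _ hm
      rw [nsmul_eq_mul] at h5
      have h6 : 1 / (784 * (T.card + 1)) * ∑ X ∈ T, dv e X ^ 2 ≤ dv e X0 ^ 2 / 784 := by
        rw [one_div, inv_mul_le_iff₀ (by positivity)]
        nlinarith [sq_nonneg (dv e X0)]
      change dv e X0 ^ 2 ≤ _ at h4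
      rw [hρ]; nlinarith
    have h2 : Tendsto (fun s => ∑ X ∈ T, ‖tr (s * star X) * tr (s * X) / tr e‖) (wk A) (𝓝 0) := by
      simpa using tendsto_finsetSum T fun X _ =>
        (((wk_tendsto (star X)).mul (wk_tendsto X)).div_const (tr e)).norm
    obtain ⟨s, ⟨hs, h3⟩, h4⟩ := (h1.and_eventually (h2.eventually
      (gt_mem_nhds (by positivity : 0 < ε / 4)))).exists
    refine freq_add (R := fun x y => Sym Q e (x + y) ∧
      ∑ X ∈ T, ‖tr ((x + y) * star X * (x + y) * X) - bb e (star X) X‖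
        ≤ ρ ^ (k + 1) * ∑ X ∈ T, dv e X ^ 2 + ε) ?_ fun x y h => Or.inl h
    refine (ih _ hs.pl_mem hs.pl_proj (ε / 4) (by positivity)).mono fun x hx => ?_
    have h5 : Tendsto (fun y => ∑ X ∈ T, ‖tr (y * (X * x * star X)) + tr (y * (star X * x * X))‖)
        (wk A) (𝓝 0) := by
      simpa using tendsto_finsetSum T fun X _ =>
        ((wk_tendsto (X * x * star X)).add (wk_tendsto (star X * x * X))).norm
    refine ((ih _ hs.neg.pl_mem hs.neg.pl_proj (ε / 4) (by positivity)).and_eventually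
      (h5.eventually (gt_mem_nhds (by positivity : 0 < ε / 4)))).mono fun y ⟨hy, h6⟩ => ?_
    refine ⟨by simpa [pl_add] using hx.1.add hy.1 hs.pl_orth, ?_⟩
    have h7 : ∀ X ∈ T, ‖tr ((x + y) * star X * (x + y) * X) - bb e (star X) X‖ ≤
        ‖tr (x * star X * x * X) - bb (pl e s) (star X) X‖ +
        ‖tr (y * star X * y * X) - bb (pl e (-s)) (star X) X‖ +
        ‖tr (y * (X * x * star X)) + tr (y * (star X * x * X))‖ +
        ‖tr (s * star X) * tr (s * X) / tr e‖ := fun X _ => by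
      have e1 : tr (y * (X * x * star X)) = tr (x * star X * y * X) := tr_rot _ _ _ _
      have e2 := bb_split hs (star X) X
      have : tr ((x + y) * star X * (x + y) * X) - bb e (star X) X =
        (tr (x * star X * x * X) - bb (pl e s) (star X) X) +
        (tr (y * star X * y * X) - bb (pl e (-s)) (star X) X) +
        (tr (y * (X * x * star X)) + tr (y * (star X * x * X))) +
        tr (s * star X) * tr (s * X) / tr e := by
        rw [e1]
        simp only [add_mul, mul_add, map_add, ← mul_assoc]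
        linear_combination e2
      rw [this]
      exact norm_add₄_le
    have h8 := Finset.sum_le_sum h7
    rw [Finset.sum_add_distrib, Finset.sum_add_distrib, Finset.sum_add_distrib] at h8
    have h9 := mul_le_mul_of_nonneg_left h3 (pow_nonneg hρ0 k)
    have := hx.2
    have := hy.2
    rw [pow_succ]
    linarith

theorem lemQ [Cpl A] (G : Good Q ⊤) {e : A} (heQ : e ∈ Q) (he : IsStarProjection e) :
    ∃ F : Filter A, F.NeBot ∧ (∀ᶠ s in F, Sym Q e s) ∧
      (∀ V, Tendsto (fun s => tr (s * V)) F (𝓝 0)) ∧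
      ∀ Y Z, Tendsto (fun s => tr (s * Y * s * Z)) F (𝓝 (bb e Y Z)) := by
  have h := freq_pi (fun s X : A => tr (s * star X * s * X)) (fun X => bb e (star X) X) (wk A)
    (P := Sym Q e) fun T ε hε => by
      have h0 : (0 : ℝ) < 1 / (784 * (T.card + 1)) := by positivity
      have h1 : 1 / (784 * ((T.card : ℝ) + 1)) ≤ 1 := by
        rw [div_le_one (by positivity)]
        have : (0 : ℝ) ≤ T.card := by positivity
        linarith
      have h2 := (tendsto_pow_atTop_nhds_zero_of_lt_one (r := 1 - 1 / (784 * ((T.card : ℝ) + 1)))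
        (by linarith) (by linarith)).mul_const (∑ X ∈ T, dv e X ^ 2)
      rw [zero_mul] at h2
      obtain ⟨k, hk⟩ := (h2.eventually (gt_mem_nhds (half_pos hε))).exists
      refine (lemS G T k e heQ he _ (half_pos hε)).mono fun D hD => ⟨hD.1, fun X hX => ?_⟩
      have := Finset.single_le_sum (f := fun X => ‖tr (D * star X * D * X) - bb e (star X) X‖)
        (fun _ _ => norm_nonneg _) hX
      linarith [hD.2]
  refine ⟨_, frequently_iff_neBot.1 h, mem_inf_of_right (mem_principal_self _), fun V =>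
    (wk_tendsto V).mono_left (inf_le_left.trans inf_le_left), fun Y Z => ?_⟩
  have h1 := fun X => (tendsto_comap_pi (fun s X : A => tr (s * star X * s * X))
    (fun X => bb e (star X) X) X).mono_left
    (inf_le_left.trans inf_le_right : (wk A ⊓ _) ⊓ 𝓟 {x | Sym Q e x} ≤ _)
  have h2 := ((((h1 (Z + star Y)).sub (h1 (Z - star Y))).add
    ((h1 (Z + I • star Y)).const_mul I)).sub ((h1 (Z - I • star Y)).const_mul I)).div_const 4
  convert h2 using 2
  · simp only [star_add, star_sub, star_smul, star_star, star_def, conj_I, mul_add, add_mul,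
      mul_sub, sub_mul, mul_smul_comm, smul_mul_assoc, map_add, map_sub, map_smul, smul_eq_mul]
    linear_combination (tr (_ * Y * _ * Z) / 2 - tr (_ * star Z * _ * star Y) / 2) * I_mul_I
  · simp only [bb, star_add, star_sub, star_smul, star_star, star_def, conj_I, mul_add, add_mul,
      mul_sub, sub_mul, mul_smul_comm, map_add, map_sub, map_smul, smul_eq_mul]
    linear_combination (tr (e * Y) * tr (e * Z) / tr e / 2
      - tr (e * star Z) * tr (e * star Y) / tr e / 2) * I_mul_I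

theorem lemP [Cpl A] (G : Good Q ⊤) {f : A} (hfQ : f ∈ Q) (hf : IsStarProjection f) (j : ℕ) :
    ∃ F : Filter A, F.NeBot ∧
      (∀ᶠ p in F, p ∈ Q ∧ IsStarProjection p ∧ f * p = p ∧ tr p = 2⁻¹ ^ j * tr f) ∧
      (∀ V, Tendsto (fun p => tr (p * V)) F (𝓝 (2⁻¹ ^ j * tr (f * V)))) ∧
      ∀ Y Z, Tendsto (fun p => tr (p * Y * p * Z)) F
        (𝓝 ((2⁻¹ ^ j) ^ 2 * tr (f * Y * f * Z) + (2⁻¹ ^ j - (2⁻¹ ^ j) ^ 2) * bb f Y Z)) := by
  induction j with
  | zero =>
    refine ⟨pure f, inferInstance, by simp [hfQ, hf, pp hf], fun V => ?_, fun Y Z => ?_⟩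
    · simpa using tendsto_pure_nhds (fun p => tr (p * V)) f
    · simpa using tendsto_pure_nhds (fun p => tr (p * Y * p * Z)) f
  | succ j ih =>
    obtain ⟨F, h0, h1, h2, h3⟩ := ih
    have := fun p (h : p ∈ Q ∧ IsStarProjection p) => lemQ G h.1 h.2
    choose! m m0 m1 m2 m3 using this
    refine ⟨F.bind fun p => (m p).map (pl p), bind_neBot (h1.mono fun p hp =>
      (m0 p ⟨hp.1, hp.2.1⟩).map _), ?_, fun V => ?_, fun Y Z => ?_⟩
    · rw [eventually_bind]
      refine h1.mono fun p hp => eventually_map.2 ((m1 p ⟨hp.1, hp.2.1⟩).mono fun s hs =>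
        ⟨hs.pl_mem, hs.pl_proj, ?_, ?_⟩)
      · rw [← hs.e_pl, ← mul_assoc, hp.2.2.1]
      · rw [hs.tr_pl, hp.2.2.2]; ring
    · refine tendsto_bind (G := fun p => 2⁻¹ * tr (p * V)) (h1.mono fun p hp => ?_) ?_
      · have := ((m2 p ⟨hp.1, hp.2.1⟩ V).const_add (tr (p * V))).const_mul 2⁻¹
        rw [add_zero] at this
        refine tendsto_map'_iff.2 (this.congr fun s => ?_)
        simp [pl, add_mul, mul_add]
      · convert (h2 V).const_mul 2⁻¹ using 2; ring
    · refine tendsto_bind (G := fun p => 4⁻¹ * (tr (p * Y * p * Z) +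
        tr (p * Y) * tr (p * Z) / (2⁻¹ ^ j * tr f))) (h1.mono fun p hp => ?_) ?_
      · have a := m2 p ⟨hp.1, hp.2.1⟩
        have := (((m3 p ⟨hp.1, hp.2.1⟩ Y Z).add ((a (Y * p * Z)).add (a (Z * p * Y)))).const_add
          (tr (p * Y * p * Z))).const_mul 4⁻¹
        rw [add_zero, add_zero, bb, hp.2.2.2] at this
        refine tendsto_map'_iff.2 (this.congr fun s => ?_)
        have e1 : tr (s * (Z * p * Y)) = tr (p * Y * s * Z) := tr_rot _ _ _ _
        rw [e1]
        simp only [Function.comp, pl, smul_mul_assoc, mul_smul_comm, add_mul, mul_add, map_smul,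
          map_add, smul_eq_mul, ← mul_assoc]
        ring
      · convert ((h3 Y Z).add (((h2 Y).mul (h2 Z)).div_const (2⁻¹ ^ j * tr f))).const_mul 4⁻¹
          using 2
        rw [bb]
        by_cases h : tr f = 0
        · simp [h]; ring
        · field_simp; ring

end Vale.Agent.P085
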