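import Vale.Agent.P085.Bridge

/-! An order-normal faithful trace is weak-operator continuous on bounded sets. -/

open scoped ComplexConjugate InnerProductSpace ComplexOrder
open Filter Topology Complex

namespace Vale.Agent.P085

set_option linter.unusedSectionVars false

variable {H : Type*} [NormedAddCommGroup H] [InnerProductSpace ℂ H] [CompleteSpace H]

lemma riesz {E : Type*} [AddCommGroup E] [Module ℂ E] (ψ : E →ₗ[ℂ] ℂ) (T : E →ₗ[ℂ] H)
    (h : ∀ x, ‖ψ x‖ ≤ ‖T x‖) : ∃ η, ∀ x, ψ x = ⟪η, T x⟫_ℂ := by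
  obtain ⟨g, hg, -⟩ := exists_extension_norm_eq (LinearMap.range T) (ψ.compLeftInverse T)
  refine ⟨(InnerProductSpace.toDual ℂ H).symm g, fun x => ?_⟩
  rw [InnerProductSpace.toDual_symm_apply, hg ⟨T x, x, rfl⟩]
  exact (LinearMap.compLeftInverse_apply_of_bdd ψ T ⟨1, by simpa using h⟩ x _ rfl).symm

lemma pos_iff {T : H →L[ℂ] H} : 0 ≤ T ↔ ∀ ξ, 0 ≤ ⟪ξ, T ξ⟫_ℂ := by
  rw [ContinuousLinearMap.nonneg_iff_isPositive]
  refine ⟨fun h ξ => h.inner_nonneg_right ξ, fun h => ?_⟩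
  rw [ContinuousLinearMap.isPositive_iff_complex]
  intro ξ
  have := h ξ
  rw [← inner_conj_symm, Complex.nonneg_iff] at this
  simp only [conj_re, conj_im] at this
  exact ⟨Complex.ext (by simp) (by simpa [eq_comm] using this.2), this.1⟩

lemma WT.nonneg {ι : Type*} {l : Filter ι} [l.NeBot] {x : ι → H →L[ℂ] H} {y : H →L[ℂ] H}
    (h : WT l x y) (hx : ∀ᶠ i in l, 0 ≤ x i) : 0 ≤ y :=
  pos_iff.2 fun ξ => ge_of_tendsto (h ξ ξ) (hx.mono fun _ hi => pos_iff.1 hi ξ)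

lemma WT.le {ι : Type*} {l : Filter ι} [l.NeBot] {x : ι → H →L[ℂ] H} {y b : H →L[ℂ] H}
    (h : WT l x y) (hx : ∀ᶠ i in l, x i ≤ b) : y ≤ b :=
  sub_nonneg.1 (WT.nonneg (l := l) (x := fun i => b - x i) (fun ξ η => by
    simpa [inner_sub_right] using (h ξ η).const_sub ⟪η, b ξ⟫_ℂ) (hx.mono fun _ => sub_nonneg.2))

lemma WT.ge {ι : Type*} {l : Filter ι} [l.NeBot] {x : ι → H →L[ℂ] H} {y b : H →L[ℂ] H}
    (h : WT l x y) (hx : ∀ᶠ i in l, b ≤ x i) : b ≤ y :=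
  sub_nonneg.1 (WT.nonneg (l := l) (x := fun i => x i - b) (fun ξ η => by
    simpa [inner_sub_right] using (h ξ η).sub_const ⟪η, b ξ⟫_ℂ) (hx.mono fun _ => sub_nonneg.2))

variable {M : VonNeumannAlgebra H}

lemma exists_lub (a : ℕ → MA M) (hm : Monotone a) (h0 : ∀ n, 0 ≤ (a n).1) {b : MA M}
    (hb : ∀ n, a n ≤ b) : ∃ z : MA M, IsLUB (Set.range a) z ∧
      WT (hyperfilter ℕ) (fun n => (a n).1) z.1 := by
  obtain ⟨y, -, h2⟩ := wlim (hyperfilter ℕ) (fun n => (a n).1) (norm_nonneg b.1) fun n =>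
    CStarAlgebra.norm_le_norm_of_nonneg_of_le (h0 n) (hb n)
  refine ⟨⟨y, h2.mem fun n => (a n).2⟩, ⟨?_, fun c hc => ?_⟩, h2⟩
  · rintro _ ⟨n, rfl⟩
    exact h2.ge (Nat.hyperfilter_le_atTop ((eventually_ge_atTop n).mono fun m h => hm h))
  · exact h2.le (Eventually.of_forall fun n => hc ⟨n, rfl⟩)

lemma exists_sqrt {b : MA M} (hb : 0 ≤ b.1) : ∃ s : MA M, star s = s ∧ s * s = b := by
  refine ⟨⟨CFC.sqrt b.1, ?_⟩, Subtype.ext (CFC.sqrt_nonneg b.1).isSelfAdjoint.star_eq,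
    Subtype.ext (CFC.sqrt_mul_sqrt_self b.1)⟩
  rw [CFC.sqrt_eq_real_sqrt b.1]
  exact cfcₙ_mem (𝕜' := ℂ) _ b.2

variable [TrAlg (MA M)]

lemma rt_nn {b : MA M} (hb : 0 ≤ b.1) : 0 ≤ rt b := by
  obtain ⟨s, h1, h2⟩ := exists_sqrt hb
  rw [← h2]; nth_rewrite 1 [← h1]; exact tr_pos s

lemma rt_mono {a b : MA M} (h : a ≤ b) : rt a ≤ rt b := by
  have := rt_nn (b := b - a) (sub_nonneg.2 (h : a.1 ≤ b.1))
  rw [rt_sub] at this; linarith

variable (M) in
def ON : Prop := ∀ (a : ℕ → MA M) (z : MA M), Monotone a → (∀ n, 0 ≤ (a n).1) →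
  IsLUB (Set.range a) z → Tendsto (fun n => rt (a n)) atTop (𝓝 (rt z))

def II (c : MA M) : Prop := ∀ (l : Filter (MA M)) (y : MA M) (C : ℝ), (∀ᶠ x in l, ‖x‖ ≤ C) →
  WT l Subtype.val y.1 → Tendsto (fun x => tr (x * c)) l (𝓝 (tr (y * c)))

lemma II.add {c d : MA M} (h : II c) (h' : II d) : II (c + d) := fun l y C h1 h2 => by
  simpa only [mul_add, map_add] using (h l y C h1 h2).add (h' l y C h1 h2)

lemma II.sq {c : MA M} (h : II c) : II (c * c) := fun l y C h1 h2 => by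
  have := h (l.map fun x => c * x) (c * y) (‖c‖ * C) (h1.mono fun x hx => (norm_mul_le _ _).trans
    (mul_le_mul_of_nonneg_left hx (norm_nonneg _))) (fun ξ η => by simpa [tendsto_map'_iff, Function.comp_def] using h2.mul c.1 1 ξ η)
  rw [tendsto_map'_iff] at this
  simpa only [Function.comp_def, tr_cyc c, mul_assoc _ c c] using this

lemma II.lim {c : ℕ → MA M} {d : MA M} (h : ∀ n, II (c n)) (hl : Lim atTop c d) : II d :=
  fun l y C h1 h2 => by
    rw [Metric.tendsto_nhds]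
    intro ε hε
    obtain ⟨n, hn⟩ := (hl.eventually (gt_mem_nhds
      (by positivity : 0 < ε / 2 / (|C| + ‖y‖ + 1)))).exists
    filter_upwards [h1, Metric.tendsto_nhds.1 (h n l y C h1 h2) _ (half_pos hε)] with x a1 a2
    have e : ∀ x : MA M, dist (tr (x * d)) (tr (x * c n)) ≤ ‖x‖ * n2 (c n - d) := fun x => by
      rw [dist_comm, dist_eq_norm, ← map_sub, ← mul_sub]
      exact (tr_le _).trans (n2_mul_left _ _)
    have a3 := dist_triangle4 (tr (x * d)) (tr (x * c n)) (tr (y * c n)) (tr (y * d))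
    have a4 := e x
    have a5 := e y
    rw [dist_comm] at a5
    rw [lt_div_iff₀ (by positivity)] at hn
    have := n2_nonneg (c n - d)
    have := mul_le_mul_of_nonneg_right (a1.trans (le_abs_self C)) this
    linarith

lemma ON.step (h : ON M) {b₀ : MA M} (hb : 0 ≤ b₀.1) (h0 : b₀ ≠ 0) :
    ∃ b : MA M, 0 ≤ b.1 ∧ b ≤ b₀ ∧ b ≠ 0 ∧ II b := by
  obtain ⟨ξ, hξ⟩ : ∃ ξ, rt b₀ < (⟪ξ, b₀.1 ξ⟫_ℂ).re := by
    obtain ⟨ξ, hξ⟩ : ∃ ξ, ⟪ξ, b₀.1 ξ⟫_ℂ ≠ 0 := by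
      by_contra hc
      push Not at hc
      refine h0 (Subtype.ext (ContinuousLinearMap.coe_injective ?_))
      exact (inner_map_self_eq_zero _).1 fun ξ => by
        rw [← inner_conj_symm, ContinuousLinearMap.coe_coe, hc, map_zero]
    have h1 : 0 < (⟪ξ, b₀.1 ξ⟫_ℂ).re := (Complex.pos_iff.1 ((pos_iff.1 hb ξ).lt_of_ne' hξ)).1
    obtain ⟨t, ht⟩ := exists_nat_gt (rt b₀ / (⟪ξ, b₀.1 ξ⟫_ℂ).re)
    refine ⟨(((t + 1 : ℝ)) : ℂ) • ξ, ?_⟩
    rw [map_smul, inner_smul_left, inner_smul_right, conj_ofReal, re_ofReal_mul, re_ofReal_mul]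
    rw [div_lt_iff₀ h1] at ht
    have : (0 : ℝ) ≤ t := by positivity
    nlinarith [mul_nonneg (mul_nonneg this this) h1.le, mul_nonneg this h1.le]
  let X := {a : MA M // 0 ≤ a.1 ∧ a ≤ b₀ ∧ (⟪ξ, a.1 ξ⟫_ℂ).re ≤ rt a}
  obtain ⟨⟨a, a0, a1, a2⟩, ha⟩ := brezis (X := X) (fun a b => a.1 ≤ b.1) (fun _ => le_rfl)
    (fun _ _ _ => le_trans) (fun a => rt a.1) (fun a => rt_mono a.2.2.1) (fun _ _ => rt_mono)
    (fun x hx => by
      obtain ⟨z, h1, h2⟩ := exists_lub (fun n => (x n).1) hx (fun n => (x n).2.1) fun n => (x n).2.2.1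
      refine ⟨⟨z, le_trans (x 0).2.1 (h1.1 ⟨0, rfl⟩), h1.2 (by rintro _ ⟨n, rfl⟩; exact (x n).2.2.1),
        ?_⟩, fun n => h1.1 ⟨n, rfl⟩⟩
      exact le_of_tendsto_of_tendsto' ((continuous_re.tendsto _).comp (h2 ξ ξ))
        ((h _ z hx (fun n => (x n).2.1) h1).mono_left Nat.hyperfilter_le_atTop) fun n => (x n).2.2.2)
    ⟨0, le_rfl, hb, by simp [rt]⟩
  have b0 : 0 ≤ (b₀ - a).1 := sub_nonneg.2 (a1 : a.1 ≤ b₀.1)
  have key : ∀ c : MA M, 0 ≤ c.1 → c.1 ≤ (b₀ - a).1 → rt c ≤ (⟪ξ, c.1 ξ⟫_ℂ).re := fun c c0 c1 => by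
    by_contra hc
    have := ha ⟨a + c, add_nonneg a0 c0, (le_sub_iff_add_le'.1 c1 : a.1 + c.1 ≤ b₀.1), by
      rw [rt_add, AddMemClass.coe_add, add_apply, inner_add_right, add_re]; linarith⟩
      (le_add_of_nonneg_right c0 : a.1 ≤ a.1 + c.1)
    have h1 := (Complex.nonneg_iff.1 (pos_iff.1 c0 ξ)).1
    simp only [rt_add] at this
    linarith
  obtain ⟨s, s1, s2⟩ := exists_sqrt b0
  have k1 : ∀ x : MA M, ‖x‖ ≤ 1 → n2 (x * s) ≤ ‖x.1 (s.1 ξ)‖ := fun x hx => by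
    have := key (star (x * s) * (x * s)) (star_mul_self_nonneg (x * s).1) (by
      have e1 : star x.1 * x.1 ≤ 1 := (CStarAlgebra.norm_le_one_iff_of_nonneg _).1 (by
        rw [CStarRing.norm_star_mul_self]; exact mul_le_one₀ hx (norm_nonneg _) hx)
      have e2 := star_left_conjugate_le_conjugate e1 s.1
      have e3 : star s.1 * s.1 = (b₀ - a).1 := by rw [← s2, ← StarMemClass.coe_star, s1]; rfl
      rw [mul_one, e3] at e2
      simpa [mul_assoc] using e2)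
    refine le_of_sq_le_sq ((n2_sq (x * s)).trans_le (this.trans_eq ?_)) (norm_nonneg _)
    rw [MulMemClass.coe_mul, StarMemClass.coe_star, ContinuousLinearMap.star_eq_adjoint,
      mul_apply_eq_comp, ContinuousLinearMap.adjoint_inner_right, inner_self_eq_norm_sq_to_K]
    norm_cast
  obtain ⟨η, hη⟩ := riesz (tr ∘ₗ LinearMap.mulRight ℂ s)
    (((ContinuousLinearMap.apply ℂ H (s.1 ξ)).toLinearMap) ∘ₗ M.toStarSubalgebra.subtype.toLinearMap)
    fun x => by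
      have e0 : (0 : ℝ) < (‖x‖ + 1)⁻¹ := by positivity
      have := k1 ((((‖x‖ + 1)⁻¹ : ℝ) : ℂ) • x) (by
        rw [norm_smul, norm_real, Real.norm_of_nonneg e0.le, inv_mul_le_iff₀ (by positivity)]; simp)
      rw [smul_mul_assoc, n2_smul, SetLike.val_smul, smul_apply, norm_smul, norm_real,
        Real.norm_of_nonneg e0.le] at this
      exact (tr_le _).trans (le_of_mul_le_mul_left this e0)
  refine ⟨b₀ - a, b0, (sub_le_self b₀.1 a0 : b₀.1 - a.1 ≤ b₀.1), fun h => ?_, s2 ▸ II.sq ?_⟩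
  · rw [← sub_eq_zero.1 h] at a2; linarith
  · intro l y C _ h2
    have e : ∀ x : MA M, tr (x * s) = ⟪η, x.1 (s.1 ξ)⟫_ℂ := hη
    simpa only [e] using h2 (s.1 ξ) η

theorem ON.nw (h : ON M) : NW M := by
  let X := {a : MA M // 0 ≤ a.1 ∧ a ≤ 1 ∧ II a}
  obtain ⟨⟨a, a0, a1, a2⟩, ha⟩ := brezis (X := X) (fun a b => a.1 ≤ b.1) (fun _ => le_rfl)
    (fun _ _ _ => le_trans) (fun a => rt a.1) (fun a => rt_mono a.2.2.1) (fun _ _ => rt_mono)
    (fun x hx => by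
      obtain ⟨z, h1, -⟩ := exists_lub (fun n => (x n).1) hx (fun n => (x n).2.1) fun n => (x n).2.2.1
      have z1 : z ≤ 1 := h1.2 (by rintro _ ⟨n, rfl⟩; exact (x n).2.2.1)
      refine ⟨⟨z, le_trans (x 0).2.1 (h1.1 ⟨0, rfl⟩), z1, II.lim (fun n => (x n).2.2.2) ?_⟩,
        fun n => h1.1 ⟨n, rfl⟩⟩
      have h2 := (h _ z hx (fun n => (x n).2.1) h1).const_sub (rt z)
      rw [sub_self] at h2
      have h3 : Tendsto (fun n => n2 ((x n).1 - z) ^ 2) atTop (𝓝 0) :=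
        squeeze_zero (fun _ => by positivity) (fun n => by
          have d0 : 0 ≤ (z - (x n).1).1 := sub_nonneg.2 (h1.1 ⟨n, rfl⟩ : (x n).1.1 ≤ z.1)
          have d1 : ‖z - (x n).1‖ ≤ 1 := (CStarAlgebra.norm_le_one_iff_of_nonneg _ d0).2
            ((sub_le_self z.1 (x n).2.1).trans z1)
          obtain ⟨s, s1, s2⟩ := exists_sqrt d0
          have d2 := CStarRing.norm_star_mul_self (x := s)
          have d3 := n2_sq s
          rw [s1, s2] at d2 d3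
          have d4 := pow_le_pow_left₀ (n2_nonneg _) (n2_mul_left s s) 2
          rw [n2_sub_rev, ← rt_sub, rt, ← d3, ← s2]
          nlinarith [sq_nonneg (n2 s)]) h2
      simpa [Lim, Real.sqrt_sq (n2_nonneg _)] using h3.sqrt)
    ⟨0, le_rfl, (zero_le_one : (0 : H →L[ℂ] H) ≤ 1), fun _ _ _ _ _ => by simpa using tendsto_const_nhds⟩
  have h1 : 1 - a = 0 := by
    by_contra hc
    obtain ⟨b, b0, b1, b2, b3⟩ := h.step (b₀ := 1 - a) (sub_nonneg.2 (a1 : a.1 ≤ 1)) hc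
    have := ha ⟨a + b, add_nonneg a0 b0, (le_sub_iff_add_le'.1 (b1 : b.1 ≤ 1 - a.1) : a.1 + b.1 ≤ 1),
      a2.add b3⟩ (le_add_of_nonneg_right b0 : a.1 ≤ a.1 + b.1)
    simp only [rt_add] at this
    obtain ⟨s, s1, s2⟩ := exists_sqrt b0
    have d3 := n2_sq s
    rw [s1, s2] at d3
    have : s = 0 := n2_eq_zero (by unfold rt at this; nlinarith [n2_nonneg s])
    exact b2 (by rw [← s2, this, mul_zero])
  intro l y C h2 h3
  simpa only [← sub_eq_zero.1 h1, mul_one] using a2 l y C h2 h3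

lemma star_of_pos {A : Type*} [CStarAlgebra A] (τ : A →ₗ[ℂ] ℂ) (h1 : τ 1 = 1)
    (h : ∀ x, 0 ≤ τ (star x * x)) (x : A) : τ (star x) = conj (τ x) := by
  have a := (Complex.nonneg_iff.1 (h (1 + x))).2
  have b := (Complex.nonneg_iff.1 (h (1 + I • x))).2
  have c := (Complex.nonneg_iff.1 (h x)).2
  have d := (Complex.nonneg_iff.1 (h (I • x))).2
  simp only [star_add, star_one, add_mul, mul_add, one_mul, mul_one, map_add, add_im, h1, one_im,
    ← c, ← d] at a b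
  simp only [star_smul, map_smul, star_def, conj_I, smul_eq_mul, mul_im, neg_re, neg_im, I_re,
    I_im] at b
  exact Complex.ext (by simp; linarith) (by simp; linarith)

end Vale.Agent.P085
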