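import Vale.Agent.P085.Mix

/-! Cayley transform and perturbation estimates. -/

open scoped ComplexConjugate
open Filter Topology Complex

namespace Vale.Agent.P085

set_option linter.unusedSectionVars false

variable {A : Type*} [CStarAlgebra A]

lemma unit_one_sub {h : A} (hs : star h = h) : IsUnit (1 - I • h) := by
  have h1 : (-I) ∉ spectrum ℂ h := fun hm => by
    have := IsSelfAdjoint.im_eq_zero_of_mem_spectrum hs hm
    simp at this
  rw [spectrum.notMem_iff, Algebra.algebraMap_eq_smul_one] at h1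
  have h2 : (1 : A) - I • h = I • ((-I) • (1 : A) - h) := by
    rw [smul_sub, smul_smul]; simp
  rw [h2, ← smul_one_mul]
  exact (IsUnit.smul (Units.mk0 I I_ne_zero) isUnit_one).mul h1

structure Cay (h k R : A) : Prop where
  un : 1 + k ∈ unitary A
  hR : k = (2 * I) • (h * R)
  Rh : k = (2 * I) • (R * h)
  Rk : R = 1 + (2⁻¹ : ℂ) • k
  inv : (1 - I • h) * R = 1

lemma exists_cay {h : A} (hs : star h = h) : ∃ k R, Cay h k R := by
  obtain ⟨U, hU⟩ := unit_one_sub hs
  obtain ⟨R, h1, h2⟩ : ∃ R : A, (1 - I • h) * R = 1 ∧ R * (1 - I • h) = 1 :=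
    ⟨↑U⁻¹, by rw [← hU]; simp, by rw [← hU]; simp⟩
  have h3 : R = 1 + I • (h * R) := by
    rw [sub_mul, one_mul, smul_mul_assoc] at h1; exact eq_add_of_sub_eq h1
  have h4 : R = 1 + I • (R * h) := by
    rw [mul_sub, mul_one, mul_smul_comm] at h2; exact eq_add_of_sub_eq h2
  have h5 : h * R = R * h := smul_right_injective A I_ne_zero (add_left_cancel (h3.symm.trans h4))
  have h6 : star R * (1 + I • h) = 1 := by simpa [hs] using congrArg star h1
  have h7 : (1 + I • h) * star R = 1 := by simpa [hs] using congrArg star h2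
  have h8 : 1 + (2 * I) • (h * R) = (1 + I • h) * R := by
    rw [add_mul, one_mul, smul_mul_assoc]; nth_rewrite 2 [h3]; module
  have h9 : 1 + (2 * I) • (h * R) = R * (1 + I • h) := by
    rw [h8, add_mul, mul_add, smul_mul_assoc, mul_smul_comm, h5, one_mul, mul_one]
  have h10 : (1 - I • h) * (1 + I • h) = (1 + I • h) * (1 - I • h) := by
    generalize I • h = z; noncomm_ring
  refine ⟨_, R, ⟨?_, ?_⟩, rfl, by rw [h5], ?_, h1⟩
  · rw [h8, star_mul, show star (1 + I • h) = 1 - I • h by simp [hs, sub_eq_add_neg], mul_assoc,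
      ← mul_assoc (1 - I • h), h10, mul_assoc, h1, mul_one, h6]
  · rw [h9, star_mul, show star (1 + I • h) = 1 - I • h by simp [hs, sub_eq_add_neg], mul_assoc,
      ← mul_assoc (1 + I • h), ← h10, mul_assoc, h7, mul_one, h2]
  · nth_rewrite 1 [h3]; module

namespace Cay
variable {h k R : A}
lemma R_le (H : Cay h k R) : ‖R‖ ≤ 1 := by
  have : R = mid 1 (1 + k) := by rw [H.Rk, mid]; module
  rw [this]; exact norm_mid (unit_le (one_mem _)) (unit_le H.un)
lemma k1 (H : Cay h k R) : k = (2 * I) • h + I • (h * k) := by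
  nth_rewrite 1 [H.hR, H.Rk]
  rw [mul_add, mul_one, mul_smul_comm]; module
lemma k2 (H : Cay h k R) : k = (2 * I) • h - (2 : ℂ) • (h * R * h) := by
  nth_rewrite 1 [H.k1]
  nth_rewrite 1 [H.Rh]
  rw [mul_smul_comm, smul_smul, mul_assoc h, show I * (2 * I) = -2 by linear_combination 2 * I_mul_I]
  module
variable [TrAlg A]
lemma n2r (H : Cay h k R) (X : A) : n2 (X * k) ≤ 2 * n2 (X * h) := by
  rw [H.hR, mul_smul_comm, n2_smul, ← mul_assoc]
  have := n2_right_le H.R_le (X * h)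
  simp; linarith
lemma n2l (H : Cay h k R) (X : A) : n2 (k * X) ≤ 2 * n2 (h * X) := by
  rw [H.Rh, smul_mul_assoc, n2_smul, mul_assoc]
  have := n2_left_le H.R_le (h * X)
  simp; linarith
end Cay

variable [TrAlg A] {ι : Type*} [Fintype ι] [DecidableEq ι]

structure PH (bar : ι → ι) (c : ι → A) (p : A) (σ : ℝ) : Prop where
  inv : Function.Involutive bar
  ne : ∀ a, bar a ≠ a
  cu : ∀ a, c a ∈ unitary A
  hp : IsStarProjection p
  s0 : 0 ≤ σ
  s1 : σ ≤ 1

noncomputable def hh (bar : ι → ι) (c : ι → A) (p : A) (σ : ℝ) : A :=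
  (σ : ℂ) • ∑ a, c a * p * star (c (bar a))

noncomputable def EE (c : ι → A) (p X : A) (a b : ι) : A :=
  p * star (c a) * X * c b * p - (if a = b then tr X else 0) • p

noncomputable def er (c : ι → A) (p X : A) : ℝ := ∑ a, ∑ b, n2 (EE c p X a b)

lemma er_nonneg (c : ι → A) (p X : A) : 0 ≤ er c p X :=
  Finset.sum_nonneg fun _ _ => Finset.sum_nonneg fun _ _ => n2_nonneg _

lemma er_row (c : ι → A) (p X : A) (a : ι) : ∑ b, n2 (EE c p X a b) ≤ er c p X :=
  Finset.single_le_sum (f := fun a => ∑ b, n2 (EE c p X a b))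
    (fun _ _ => Finset.sum_nonneg fun _ _ => n2_nonneg _) (Finset.mem_univ a)

lemma blk_le (c : ι → A) (p X : A) (a b : ι) : n2 (p * star (c a) * X * c b * p)
    ≤ (if a = b then n2 p * ‖tr X‖ else 0) + n2 (EE c p X a b) := by
  refine (n2_le_add _ ((if a = b then tr X else 0) • p)).trans (add_le_add (le_of_eq ?_) le_rfl)
  split_ifs <;> simp [n2_smul, mul_comm]

namespace PH
variable {bar : ι → ι} {c : ι → A} {p : A} {σ : ℝ}

omit [TrAlg A] [DecidableEq ι] in
lemma sa (H : PH bar c p σ) : star (hh bar c p σ) = hh bar c p σ := by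
  rw [hh, star_smul, star_def, conj_ofReal, star_sum, ← Equiv.sum_comp H.inv.toPerm]
  simp [pstar H.hp, H.inv _, mul_assoc]

omit [DecidableEq ι] in
lemma n2s (H : PH bar c p σ) (x : A) : n2 ((σ : ℂ) • x) = σ * n2 x := by
  rw [n2_smul, norm_real, Real.norm_of_nonneg H.s0]

lemma row (H : PH bar c p σ) (X : A) (a : ι) :
    n2 (p * star (c a) * X * hh bar c p σ) ≤ σ * (n2 p * ‖tr X‖ + er c p X) := by
  rw [hh, mul_smul_comm, H.n2s, Finset.mul_sum]
  refine mul_le_mul_of_nonneg_left ((n2_sum_le _ _).trans ?_) H.s0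
  refine (Finset.sum_le_sum fun b _ => ?_).trans (b := ∑ b, ((if a = b then n2 p * ‖tr X‖ else 0)
    + n2 (EE c p X a b))) (by
    rw [Finset.sum_add_distrib]
    exact add_le_add (le_of_eq (by simp)) (er_row c p X a))
  rw [← mul_assoc, n2_uright (ustar (H.cu _)), ← mul_assoc]
  exact blk_le c p X a b

lemma row1 (H : PH bar c p σ) (a : ι) :
    n2 (p * star (c a) * hh bar c p σ - (σ : ℂ) • (p * star (c (bar a)))) ≤ σ * er c p 1 := by
  have : p * star (c a) * hh bar c p σ - (σ : ℂ) • (p * star (c (bar a)))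
      = (σ : ℂ) • ∑ b, EE c p 1 a b * star (c (bar b)) := by
    simp only [hh, EE, mul_smul_comm, ← smul_sub, Finset.mul_sum, sub_mul, Finset.sum_sub_distrib,
      mul_one, tr_one, ite_smul, one_smul, zero_smul, ite_mul, zero_mul, Finset.sum_ite_eq,
      Finset.mem_univ, if_true, mul_assoc]
  rw [this, H.n2s]
  refine mul_le_mul_of_nonneg_left ((n2_sum_le _ _).trans ?_) H.s0
  simp only [n2_uright (ustar (H.cu _))]
  exact er_row c p 1 a

omit [TrAlg A] [DecidableEq ι] in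
lemma hXh_eq (bar : ι → ι) (c : ι → A) (p : A) (σ : ℝ) (X : A) :
    hh bar c p σ * X * hh bar c p σ = (σ : ℂ) • (σ : ℂ) • ∑ a, ∑ b,
      c a * (p * star (c (bar a)) * X * c b * p) * star (c (bar b)) := by
  rw [hh, smul_mul_assoc, smul_mul_assoc, mul_smul_comm, Finset.sum_mul, Finset.sum_mul]
  simp only [Finset.mul_sum, mul_assoc]

lemma hXh (H : PH bar c p σ) (X : A) : n2 (hh bar c p σ * X * hh bar c p σ)
    ≤ σ ^ 2 * (Fintype.card ι * (n2 p * ‖tr X‖) + er c p X) := by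
  rw [hXh_eq, H.n2s, H.n2s, ← mul_assoc, ← sq]
  refine mul_le_mul_of_nonneg_left ((n2_sum_le _ _).trans ?_) (sq_nonneg _)
  refine (Finset.sum_le_sum fun a _ => (n2_sum_le _ _).trans (Finset.sum_le_sum fun b _ =>
    ?_)).trans (b := ∑ a, ∑ b, ((if bar a = b then n2 p * ‖tr X‖ else 0) +
      n2 (EE c p X (bar a) b))) (le_of_eq ?_)
  · rw [n2_uright (ustar (H.cu _)), n2_uleft (H.cu _)]; exact blk_le c p X _ b
  · simp only [Finset.sum_add_distrib, Finset.sum_ite_eq, Finset.mem_univ, if_true,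
      Finset.sum_const, nsmul_eq_mul, Finset.card_univ, er]
    rw [← Equiv.sum_comp H.inv.toPerm fun a => ∑ b, n2 (EE c p X a b)]; rfl

lemma tr_EE (H : PH bar c p σ) (X : A) (a b : ι) {Z : A} (hZ : ‖Z‖ ≤ 1) :
    ‖tr (EE c p X a b * Z)‖ ≤ n2 p * n2 (EE c p X a b) := by
  have : EE c p X a b = EE c p X a b * p := by
    rw [EE, sub_mul, smul_mul_assoc, pp H.hp, mul_assoc _ p p, pp H.hp]
  rw [mul_comm]
  nth_rewrite 1 [this]
  rw [mul_assoc]
  exact (tr_mul_le _ _).trans (mul_le_mul_of_nonneg_left (n2_right_le hZ _) (n2_nonneg _))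

omit [DecidableEq ι] in
lemma nrm (H : PH bar c p σ) (z : ℂ) : ‖(σ : ℂ) • z‖ = σ * ‖z‖ := by
  rw [norm_smul, norm_real, Real.norm_of_nonneg H.s0]

lemma trh (H : PH bar c p σ) (X : A) : ‖tr (X * hh bar c p σ)‖ ≤ σ * (n2 p * er c p X) := by
  rw [hh, mul_smul_comm, map_smul, H.nrm, Finset.mul_sum, map_sum]
  refine mul_le_mul_of_nonneg_left ((norm_sum_le _ _).trans ?_) H.s0
  rw [er, Finset.sum_comm, Finset.mul_sum]
  refine Finset.sum_le_sum fun a _ => ?_
  have h1 := H.tr_EE X (bar a) a (Z := 1) (unit_le (one_mem _))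
  have h2 : tr (EE c p X (bar a) a * 1) = tr (X * (c a * p * star (c (bar a)))) := by
    rw [EE, if_neg (H.ne a), zero_smul, sub_zero, mul_one, tr_comm, ← mul_assoc, ← mul_assoc,
      ← mul_assoc, pp H.hp, mul_assoc _ X, tr_comm]
    simp only [mul_assoc]
  rw [← h2]
  exact h1.trans (mul_le_mul_of_nonneg_left (Finset.single_le_sum
    (f := fun b => n2 (EE c p X b a)) (fun _ _ => n2_nonneg _) (Finset.mem_univ _)) (n2_nonneg _))

lemma trhh (H : PH bar c p σ) (X : A) {R : A} (hR : ‖R‖ ≤ 1) :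
    ‖tr (hh bar c p σ * X * hh bar c p σ * R)‖
    ≤ σ ^ 2 * (Fintype.card ι * (n2 p ^ 2 * ‖tr X‖) + n2 p * er c p X) := by
  rw [hXh_eq, smul_mul_assoc, smul_mul_assoc, map_smul, map_smul, H.nrm, H.nrm, ← mul_assoc, ← sq,
    Finset.sum_mul, map_sum]
  refine mul_le_mul_of_nonneg_left ((norm_sum_le _ _).trans ?_) (sq_nonneg _)
  refine (Finset.sum_le_sum fun a _ => ?_).trans (b := ∑ a, ∑ b, ((if bar a = b then
    n2 p ^ 2 * ‖tr X‖ else 0) + n2 p * n2 (EE c p X (bar a) b))) (le_of_eq ?_)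
  · rw [Finset.sum_mul, map_sum]
    refine (norm_sum_le _ _).trans (Finset.sum_le_sum fun b _ => ?_)
    have hZ : ‖star (c (bar b)) * R * c a‖ ≤ 1 :=
      norm_mul₃_le.trans (mul_le_one₀ (mul_le_one₀ (unit_le (ustar (H.cu _))) (norm_nonneg _) hR)
        (norm_nonneg _) (unit_le (H.cu _)))
    have h1 := H.tr_EE X (bar a) b hZ
    have h2 : tr (c a * (p * star (c (bar a)) * X * c b * p) * star (c (bar b)) * R) =
        (if bar a = b then tr X else 0) * tr (p * (star (c (bar b)) * R * c a)) +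
        tr (EE c p X (bar a) b * (star (c (bar b)) * R * c a)) := by
      rw [← tr_rot, tr_comm, EE, sub_mul, smul_mul_assoc, map_sub, map_smul, smul_eq_mul,
        add_sub_cancel, ← mul_assoc, ← mul_assoc, tr_comm, tr_comm (p * _ * _ * _ * _)]
      simp only [mul_assoc]
    rw [h2]
    refine (norm_add_le _ _).trans (add_le_add ?_ h1)
    split_ifs
    · rw [norm_mul, mul_comm, n2_proj H.hp]
      exact mul_le_mul_of_nonneg_right ((tr_p_le H.hp _).trans
        (mul_le_of_le_one_right (rt_nonneg H.hp) hZ)) (norm_nonneg _)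
    · simp
  · simp only [Finset.sum_add_distrib, Finset.sum_ite_eq, Finset.mem_univ, if_true,
      Finset.sum_const, nsmul_eq_mul, Finset.card_univ, er, ← Finset.mul_sum]
    rw [← Equiv.sum_comp H.inv.toPerm fun a => ∑ b, n2 (EE c p X a b)]; rfl

variable {k R : A}

lemma V12 (H : PH bar c p σ) (K : Cay (hh bar c p σ) k R) (X : A) : ‖tr (X * k)‖ ≤
    2 * σ ^ 2 * Fintype.card ι * n2 p ^ 2 * ‖tr X‖ + 4 * n2 p * er c p X := by
  have h1 := H.trh X
  have h2 := H.trhh X K.R_le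
  rw [K.k2, mul_sub, mul_smul_comm, mul_smul_comm, map_sub, map_smul, map_smul]
  rw [show tr (X * (hh bar c p σ * R * hh bar c p σ)) = tr (hh bar c p σ * X * hh bar c p σ * R) by
    rw [← mul_assoc, tr_comm]; simp only [mul_assoc]]
  refine (norm_sub_le _ _).trans ?_
  rw [norm_smul, norm_smul]
  have h3 : 0 ≤ n2 p * er c p X := mul_nonneg (n2_nonneg _) (er_nonneg _ _ _)
  have h4 : σ ^ 2 ≤ 1 := pow_le_one₀ H.s0 H.s1
  have := H.s1
  simp only [norm_mul, Complex.norm_ofNat, norm_I, mul_one]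
  nlinarith

omit [DecidableEq ι] in
lemma V0 (H : PH bar c p σ) (K : Cay (hh bar c p σ) k R) {X : A} (hX : ‖X‖ ≤ 1) : ‖tr (X * k)‖ ≤
    2 * σ * Fintype.card ι * n2 p ^ 2 := by
  rw [K.Rh, mul_smul_comm, map_smul, norm_smul, hh, ← mul_assoc, mul_smul_comm, map_smul, H.nrm,
    Finset.mul_sum, map_sum, n2_proj H.hp]
  have : ‖∑ a, tr (X * R * (c a * p * star (c (bar a))))‖ ≤ ∑ _a : ι, rt p :=
    (norm_sum_le _ _).trans (Finset.sum_le_sum fun a _ => by
      rw [← mul_assoc, ← mul_assoc, ← tr_rot]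
      refine (tr_p_le H.hp _).trans (mul_le_of_le_one_right (rt_nonneg H.hp) ?_)
      rw [← mul_assoc]
      exact norm_mul₃_le.trans (mul_le_one₀ (mul_le_one₀ ((norm_mul_le _ _).trans (mul_le_one₀
        (unit_le (ustar (H.cu _))) (norm_nonneg _) hX)) (norm_nonneg _) K.R_le)
        (norm_nonneg _) (unit_le (H.cu _))))
  simp only [Finset.sum_const, nsmul_eq_mul, Finset.card_univ] at this
  have := mul_le_mul_of_nonneg_left this H.s0
  simp only [norm_mul, Complex.norm_ofNat, norm_I, mul_one]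
  nlinarith

omit [DecidableEq ι] in
lemma Yh (H : PH bar c p σ) (Y T : A) {β : ℝ} (hT : ∀ a, n2 (p * star (c a) * T) ≤ β) :
    ‖tr (Y * hh bar c p σ * T)‖ ≤ σ * ((∑ a, n2 (Y * c a * p)) * β) := by
  rw [hh, mul_smul_comm, smul_mul_assoc, map_smul, H.nrm, Finset.mul_sum, Finset.sum_mul, map_sum,
    Finset.sum_mul]
  refine mul_le_mul_of_nonneg_left ((norm_sum_le _ _).trans (Finset.sum_le_sum fun a _ => ?_)) H.s0
  have : Y * (c a * p * star (c (bar a))) * T = Y * c a * p * (p * star (c (bar a)) * T) := by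
    simp only [mul_assoc, ppx H.hp]
  rw [this]
  exact (tr_mul_le _ _).trans (mul_le_mul_of_nonneg_left (hT _) (n2_nonneg _))

lemma V3 (H : PH bar c p σ) (K : Cay (hh bar c p σ) k R) (Y m : A) {Z : A} (hZ : ‖Z‖ ≤ 1) :
    ‖tr (Y * k * m * k * Z)‖ ≤ 8 * σ ^ 2 * (∑ a, n2 (Y * c a * p)) *
      (Fintype.card ι * (n2 p * ‖tr m‖) + er c p m) := by
  obtain ⟨β, hβ⟩ : ∃ β, β = Fintype.card ι * (n2 p * ‖tr m‖) + er c p m := ⟨_, rfl⟩
  have h1 := H.Yh Y (m * k * Z) (β := 2 * σ * β) fun a => by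
    have h2 := H.row m a
    have h3 : (1 : ℝ) ≤ Fintype.card ι := by exact_mod_cast Fintype.card_pos_iff.2 ⟨a⟩
    have h4 : 0 ≤ n2 p * ‖tr m‖ := mul_nonneg (n2_nonneg _) (norm_nonneg _)
    rw [← mul_assoc, ← mul_assoc]
    refine ((n2_right_le hZ _).trans (K.n2r _)).trans ?_
    have : σ * (n2 p * ‖tr m‖ + er c p m) ≤ σ * β := by
      rw [hβ]; exact mul_le_mul_of_nonneg_left (by nlinarith) H.s0
    linarith
  have h2 := H.Yh Y (k * m * k * Z) (β := 4 * σ ^ 2 * β) fun a => by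
    have h2 := H.hXh m
    rw [mul_assoc]
    refine ((n2_left_le (ple H.hp) _).trans_eq (n2_uleft (ustar (H.cu _)) _)).trans ?_
    refine ((n2_right_le hZ _).trans (K.n2r _)).trans ?_
    have := K.n2l (m * hh bar c p σ)
    rw [← hβ] at h2
    simp only [mul_assoc] at *
    linarith
  have h3 : Y * k * m * k * Z = (2 * I) • (Y * hh bar c p σ * (m * k * Z)) +
      I • (Y * hh bar c p σ * (k * m * k * Z)) := by
    nth_rewrite 1 [K.k1]
    simp only [mul_add, add_mul, mul_smul_comm, smul_mul_assoc, mul_assoc]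
  rw [h3, map_add, map_smul, map_smul, ← hβ]
  refine (norm_add_le _ _).trans ?_
  have h4 : 0 ≤ (∑ a, n2 (Y * c a * p)) * β := mul_nonneg
    (Finset.sum_nonneg fun _ _ => n2_nonneg _) (by
      rw [hβ]; have := er_nonneg c p m; have := n2_nonneg p; positivity)
  simp only [norm_smul, norm_mul, Complex.norm_ofNat, norm_I, mul_one, one_mul]
  have h5 : σ * (σ ^ 2 * ((∑ a, n2 (Y * c a * p)) * β)) ≤ σ ^ 2 * ((∑ a, n2 (Y * c a * p)) * β) :=
    mul_le_of_le_one_left (by positivity) H.s1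
  nlinarith

lemma pck (H : PH bar c p σ) (K : Cay (hh bar c p σ) k R) (a : ι) :
    n2 (p * star (c a) * k) ≤ 2 * σ * (n2 p + er c p 1) := by
  have := H.row 1 a
  have := K.n2r (p * star (c a))
  simp only [mul_one, tr_one, norm_one] at *
  linarith

end PH

end Vale.Agent.P085
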