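import Vale.Agent.P085.Avg

/-! Limits in the 2-norm and the polar part of a nilpotent element. -/

open scoped ComplexConjugate
open Filter Topology Complex

namespace Vale.Agent.P085

variable {A : Type*} [CStarAlgebra A] [TrAlg A]

def Lim {ι : Type*} (l : Filter ι) (x : ι → A) (y : A) : Prop :=
  Tendsto (fun n => n2 (x n - y)) l (𝓝 0)

section
variable {ι : Type*} {l : Filter ι} {x y : ι → A} {a b : A}

lemma Lim.const (a : A) : Lim l (fun _ => a) a := by simpa [Lim] using tendsto_const_nhds

lemma Lim.star (h : Lim l x a) : Lim l (fun n => star (x n)) (star a) := by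
  simpa only [Lim, ← star_sub, n2_star] using h

lemma Lim.sub (h : Lim l x a) (h' : Lim l y b) : Lim l (fun n => x n - y n) (a - b) := by
  refine squeeze_zero (fun _ => n2_nonneg _) (fun n => ?_) (by simpa using h.add h')
  rw [show x n - y n - (a - b) = (x n - a) - (y n - b) by abel]
  exact n2_sub_le _ _

lemma Lim.mul {C : ℝ} (h : Lim l x a) (h' : Lim l y b) (hx : ∀ n, ‖x n‖ ≤ C) :
    Lim l (fun n => x n * y n) (a * b) := by
  refine squeeze_zero (fun _ => n2_nonneg _) (fun n => ?_)
    (by simpa using (h'.const_mul C).add (h.mul_const ‖b‖))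
  rw [show x n * y n - a * b = x n * (y n - b) + (x n - a) * b by noncomm_ring]
  refine (n2_add_le _ _).trans (add_le_add ((n2_mul_left _ _).trans ?_) (n2_mul_right _ _))
  exact mul_le_mul_of_nonneg_right (hx n) (n2_nonneg _)

lemma Lim.n2 (h : Lim l x a) : Tendsto (fun n => n2 (x n)) l (𝓝 (n2 a)) := by
  rw [tendsto_iff_norm_sub_tendsto_zero]
  refine squeeze_zero (fun _ => norm_nonneg _) (fun n => ?_) h
  rw [Real.norm_eq_abs, abs_le]
  have := n2_le_add (x n) a
  have := n2_le_add a (x n)
  rw [n2_sub_rev a] at this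
  constructor <;> linarith

lemma Lim.eq [l.NeBot] (h : Lim l x a) (h' : Lim l y b) (he : ∀ᶠ n in l, x n = y n) : a = b := by
  have h1 := (h.sub h').n2
  have h2 : Tendsto (fun n => P085.n2 (x n - y n)) l (𝓝 0) :=
    tendsto_const_nhds.congr' (he.mono fun n hn => by simp [hn])
  exact sub_eq_zero.1 (n2_eq_zero (tendsto_nhds_unique h1 h2).le)

lemma Lim.zero [l.NeBot] (h : Lim l x a) (h2 : Tendsto (fun n => P085.n2 (x n)) l (𝓝 0)) :
    a = 0 := n2_eq_zero (tendsto_nhds_unique h.n2 h2).le

end

lemma mono_cauchy {φ : ℕ → ℝ} (hm : Monotone φ) {C : ℝ} (hC : ∀ n, φ n ≤ C) :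
    ∃ L, (∀ n, φ n ≤ L) ∧ Tendsto (fun n => L - φ n) atTop (𝓝 0) := by
  have hb : BddAbove (Set.range φ) := ⟨C, by rintro _ ⟨n, rfl⟩; exact hC n⟩
  refine ⟨⨆ n, φ n, fun n => le_ciSup hb n, ?_⟩
  simpa using (tendsto_atTop_ciSup hm hb).const_sub (⨆ n, φ n)

omit [TrAlg A] in
lemma cfc_ann {a y : A} (ha : IsSelfAdjoint a) (h : a * y = 0) {f : ℝ → ℝ} (hf : Continuous f)
    (h0 : f 0 = 0) : cfc f a * y = 0 := by
  rw [← cfcₙ_eq_cfc (hf0 := h0), cfcₙ_apply f a hf.continuousOn h0 ha]
  refine ContinuousMapZero.nonUnitalStarAlgHom_apply_mul_eq_zero _ _ ?_ ?_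
    (cfcₙHom_continuous ha) _
  · rw [cfcₙHom_id, h]
  · rw [star_trivial, cfcₙHom_id, h]

noncomputable def TT (x : A) (f : ℝ → ℝ) : ℝ := rt (cfc f (star x * x))

lemma TT_mono (x : A) {f g : ℝ → ℝ} (hf : Continuous f) (hg : Continuous g)
    (h : ∀ t, 0 ≤ t → t ≤ ‖star x * x‖ → f t ≤ g t) : TT x f ≤ TT x g := by
  let _ := CStarAlgebra.spectralOrder A
  have := CStarAlgebra.spectralOrderedRing A
  have := nontriv A
  refine tr_mono (cfc_mono fun t ht => h t ?_ ?_)
  · exact spectrum_nonneg_of_nonneg (star_mul_self_nonneg x) ht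
  · exact (le_abs_self t).trans (spectrum.norm_le_norm_of_mem ht)

lemma TT_sub (x : A) {f g : ℝ → ℝ} (hf : Continuous f) (hg : Continuous g) :
    TT x (fun t => f t - g t) = TT x f - TT x g := by
  rw [TT, cfc_sub f g _, rt_sub]; rfl

lemma TT_add (x : A) {f g : ℝ → ℝ} (hf : Continuous f) (hg : Continuous g) :
    TT x (fun t => f t + g t) = TT x f + TT x g := by
  rw [TT, cfc_add _ f g, rt_add]; rfl

lemma TT_mul (x : A) (c : ℝ) {f : ℝ → ℝ} (hf : Continuous f) :
    TT x (fun t => c * f t) = c * TT x f := by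
  rw [TT, cfc_const_mul c f _, rt, ← coe_smul, map_smul, smul_eq_mul, re_ofReal_mul]; rfl

lemma TT_one (x : A) : TT x (fun _ => 1) = 1 := by
  rw [TT, cfc_const_one ℝ _ (IsSelfAdjoint.star_mul_self x), rt_one]

omit [TrAlg A] in
lemma star_x_cfc (x : A) {f : ℝ → ℝ} (hf : Continuous f) :
    star (x * cfc f (star x * x)) * (x * cfc f (star x * x))
      = cfc (fun t => f t * t * f t) (star x * x) := by
  have ha := IsSelfAdjoint.star_mul_self x
  rw [cfc_mul _ _, cfc_mul _ _, cfc_id' ℝ (star x * x), star_mul,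
    (cfc_predicate f (star x * x) : IsSelfAdjoint _).star_eq]
  noncomm_ring

lemma n2_x_cfc (x : A) {f : ℝ → ℝ} (hf : Continuous f) :
    n2 (x * cfc f (star x * x)) ^ 2 = TT x (fun t => f t * t * f t) := by
  rw [n2_sq, star_x_cfc x hf]; rfl

noncomputable def gg (n : ℕ) (t : ℝ) : ℝ := √t / (|t| + 2⁻¹ ^ n)
noncomputable def ps (n : ℕ) (t : ℝ) : ℝ := t / (|t| + 2⁻¹ ^ n)

lemma gg_cont (n : ℕ) : Continuous (gg n) :=
  Real.continuous_sqrt.div (by fun_prop) fun t => by positivity
lemma ps_cont (n : ℕ) : Continuous (ps n) :=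
  continuous_id.div (by fun_prop) fun t => by positivity

lemma gg_ps (n m : ℕ) {t : ℝ} (ht : 0 ≤ t) : gg n t * t * gg m t = ps n t * ps m t := by
  have := Real.mul_self_sqrt ht
  simp only [gg, ps]
  field_simp
  rw [sq, this, sq]

lemma ps_nonneg (n : ℕ) {t : ℝ} (ht : 0 ≤ t) : 0 ≤ ps n t := by unfold ps; positivity
lemma ps_le (n : ℕ) {t : ℝ} (ht : 0 ≤ t) : ps n t ≤ 1 := by
  rw [ps, abs_of_nonneg ht, div_le_one (by positivity)]; simp
lemma ps_mono {n m : ℕ} (h : n ≤ m) {t : ℝ} (ht : 0 ≤ t) : ps n t ≤ ps m t := by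
  have : (2⁻¹ : ℝ) ^ m ≤ 2⁻¹ ^ n := pow_le_pow_of_le_one (by norm_num) (by norm_num) h
  unfold ps
  gcongr
lemma ps_double (n : ℕ) {t : ℝ} (ht : 0 ≤ t) :
    ps n t * (1 - ps n t) ≤ 2 * (ps (n + 1) t - ps n t) := by
  simp only [ps, abs_of_nonneg ht, pow_succ]
  have : (0 : ℝ) < 2⁻¹ ^ n := by positivity
  generalize (2⁻¹ : ℝ) ^ n = e at *
  rw [← sub_nonneg]
  have : 2 * (t / (t + e * 2⁻¹) - t / (t + e)) - t / (t + e) * (1 - t / (t + e))
      = t * e * e / ((2 * t + e) * (t + e) ^ 2) := by field_simp; ring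
  rw [this]; positivity

theorem polar [Cpl A] {S : StarSubalgebra ℂ A} (hS : C2 (S : Set A)) {x r : A} (hx : x ∈ S)
    (hrx : r * x = x) (hxr : x * r = x) (hxx : x * x = 0) (h0 : x ≠ 0) :
    ∃ v ∈ S, v ≠ 0 ∧ v * v = 0 ∧ v * star v * v = v ∧ r * v = v ∧ v * r = v := by
  have ha := IsSelfAdjoint.star_mul_self x
  have hg := gg_cont
  have hp := ps_cont
  set v : ℕ → A := fun n => x * cfc (gg n) (star x * x) with hv
  have hv1 : ∀ n, ‖v n‖ ≤ 1 := fun n => by
    let _ := CStarAlgebra.spectralOrder A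
    have := CStarAlgebra.spectralOrderedRing A
    have h1 : ‖star (v n) * v n‖ ≤ 1 := by
      rw [star_x_cfc x (hg n)]
      refine norm_cfc_le zero_le_one fun t ht => ?_
      have ht := spectrum_nonneg_of_nonneg (star_mul_self_nonneg x) ht
      rw [gg_ps n n ht, Real.norm_of_nonneg (mul_nonneg (ps_nonneg n ht) (ps_nonneg n ht))]
      exact mul_le_one₀ (ps_le n ht) (ps_nonneg n ht) (ps_le n ht)
    rw [CStarRing.norm_star_mul_self] at h1
    nlinarith [norm_nonneg (v n)]
  obtain ⟨L, hL, hL'⟩ := mono_cauchy (φ := fun n => TT x (ps n)) (C := 1)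
    (fun n m h => TT_mono x (hp n) (hp m) fun t ht _ => ps_mono h ht) fun n => by
      rw [← TT_one x]; exact TT_mono x (hp n) continuous_const fun t ht _ => ps_le n ht
  obtain ⟨w, -, hw⟩ := cpl_of v 1 hv1 (fun N => 2 * (L - TT x (ps N))) (by simpa using hL'.const_mul 2)
    fun N m hm n hn => by
      simp only [hv]
      rw [← mul_sub, ← cfc_sub _ _ _ (hg m).continuousOn (hg n).continuousOn,
        n2_x_cfc x (f := fun t => gg m t - gg n t) (by fun_prop)]
      calc _ ≤ TT x (fun t => (ps m t - ps N t) + (ps n t - ps N t)) := by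
            refine TT_mono x (by fun_prop) (by fun_prop) fun t ht _ => ?_
            have e : (gg m t - gg n t) * t * (gg m t - gg n t) = (ps m t - ps n t) ^ 2 := by
              linear_combination gg_ps m m ht - gg_ps m n ht - gg_ps n m ht + gg_ps n n ht
            rw [e]
            have := ps_mono hm ht
            have := ps_mono hn ht
            have := ps_le m ht
            have := ps_le n ht
            have := ps_nonneg N ht
            nlinarith
        _ ≤ _ := by
            rw [TT_add x (by fun_prop) (by fun_prop), TT_sub x (hp m) (hp N), TT_sub x (hp n) (hp N)]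
            have := hL m
            have := hL n
            linarith
  have hw : Lim atTop v w := hw
  have hann : ∀ n y, x * y = 0 → cfc (gg n) (star x * x) * y = 0 := fun n y h =>
    cfc_ann ha (by rw [mul_assoc, h, mul_zero]) (hg n) (by simp [gg])
  refine ⟨w, hS.lim (Eventually.of_forall fun n => ?_) hw, ?_, ?_, ?_, ?_, ?_⟩
  · have := hS.isClosed
    exact mul_mem hx (cfc_mem (𝕜' := ℂ) _ (mul_mem (star_mem hx) hx))
  · rintro rfl
    have h1 : Tendsto (fun n => n2 (v n) ^ 2) atTop (𝓝 0) := by simpa using hw.n2.pow 2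
    have h2 : ∀ n, n2 (x * cfc (fun t => √t) (star x * x)) ^ 2
        ≤ (‖star x * x‖ + 1) ^ 2 * n2 (v n) ^ 2 := fun n => by
      rw [n2_x_cfc x (hg n), n2_x_cfc x Real.continuous_sqrt, ← TT_mul x _ (by fun_prop)]
      refine TT_mono x (by fun_prop) (by fun_prop) fun t ht ht' => ?_
      rw [gg_ps n n ht]
      have h3 : t ≤ (‖star x * x‖ + 1) * ps n t := by
        refine le_trans ?_ (mul_le_mul_of_nonneg_left (ps_mono (Nat.zero_le n) ht) (by positivity))
        rw [ps, abs_of_nonneg ht, pow_zero, ← mul_div_assoc, le_div_iff₀ (by positivity)]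
        nlinarith
      have := Real.mul_self_sqrt ht
      calc _ = t * t := by linear_combination t * this
        _ ≤ _ := by nlinarith
    have h3 := ge_of_tendsto' (h1.const_mul ((‖star x * x‖ + 1) ^ 2)) h2
    have h4 : x * cfc (fun t => √t) (star x * x) = 0 := n2_eq_zero (by nlinarith)
    have h5 : cfc (fun t => √t * √t) (star x * x) = star x * x := by
      let _ := CStarAlgebra.spectralOrder A
      have := CStarAlgebra.spectralOrderedRing A
      rw [cfc_congr (g := fun t => t) fun t ht => Real.mul_self_sqrt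
        (spectrum_nonneg_of_nonneg (star_mul_self_nonneg x) ht), cfc_id' ℝ _]
    have h6 : star x * x * (star x * x) = 0 := by
      nth_rewrite 2 [← h5]
      rw [cfc_mul _ _, mul_assoc, ← mul_assoc x, h4]; simp
    apply h0
    rw [← CStarRing.star_mul_self_eq_zero_iff, ← CStarRing.star_mul_self_eq_zero_iff, ha.star_eq, h6]
  · refine (hw.mul hw hv1).eq (Lim.const 0) (Eventually.of_forall fun n => ?_)
    simp only [hv]
    rw [mul_assoc, ← mul_assoc _ x, hann n x hxx]; simp
  · have h1 := ((hw.mul hw.star hv1).mul hw (C := 1) fun n => by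
      have := norm_mul_le (v n) (star (v n))
      rw [norm_star] at this
      exact this.trans (mul_le_one₀ (hv1 n) (norm_nonneg _) (hv1 n))).sub hw
    refine sub_eq_zero.1 (h1.zero ?_)
    have h2 : ∀ n, n2 (v n * star (v n) * v n - v n) ^ 2 ≤ 8 * (L - TT x (ps n)) := fun n => by
      have e : v n * star (v n) * v n - v n = x * cfc (fun t => gg n t * (gg n t * t * gg n t)
          - gg n t) (star x * x) := by
        rw [mul_assoc, star_x_cfc x (hg n), cfc_sub _ _ _ (by fun_prop) (by fun_prop),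
          cfc_mul (gg n) _ _ (by fun_prop) (by fun_prop), mul_sub, hv, mul_assoc]
      rw [e, n2_x_cfc x (by fun_prop)]
      calc _ ≤ TT x (fun t => 8 * (ps (n + 1) t - ps n t)) := by
            refine TT_mono x (by fun_prop) (by fun_prop) fun t ht _ => ?_
            have e := gg_ps n n ht
            have e2 : (gg n t * (gg n t * t * gg n t) - gg n t) * t *
                (gg n t * (gg n t * t * gg n t) - gg n t)
                = (gg n t * t * gg n t) * (gg n t * t * gg n t - 1) ^ 2 := by ring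
            rw [e2, e]
            have := ps_double n ht
            have h1 := ps_le n ht
            have h0 := ps_nonneg n ht
            generalize ps n t = s at *
            have h3 : s * s * (s * s - 1) ^ 2 = (s * (1 - s)) * (s * (1 - s) * (1 + s) ^ 2) := by ring
            have h4 : s * (1 - s) * (1 + s) ^ 2 ≤ 4 := by
              have : s * (1 - s) ≤ 1 := by nlinarith
              have : (1 + s) ^ 2 ≤ 4 := by nlinarith
              nlinarith
            have h5 : 0 ≤ s * (1 - s) := by nlinarith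
            rw [h3]; nlinarith
        _ ≤ _ := by
            rw [TT_mul x _ (by fun_prop), TT_sub x (hp _) (hp _)]
            have := hL (n + 1)
            linarith
    have h3 : Tendsto (fun n => n2 (v n * star (v n) * v n - v n) ^ 2) atTop (𝓝 0) :=
      squeeze_zero (fun _ => by positivity) h2 (by simpa using hL'.const_mul 8)
    simpa [Real.sqrt_sq (n2_nonneg _)] using h3.sqrt
  · refine ((Lim.const r).mul hw (C := ‖r‖) fun _ => le_rfl).eq hw (Eventually.of_forall fun n => ?_)
    simp only [hv]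
    rw [← mul_assoc, hrx]
  · refine (hw.mul (Lim.const r) hv1).eq hw (Eventually.of_forall fun n => ?_)
    have := hann n (1 - r) (by rw [mul_sub, hxr, mul_one, sub_self])
    rw [mul_sub, mul_one, sub_eq_zero] at this
    simp only [hv]
    rw [mul_assoc, ← this]

end Vale.Agent.P085
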