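import Vale.Agent.P085.Step

/-! The gain estimate and the Baire category argument. -/

open scoped ComplexConjugate
open Filter Topology Complex

namespace Vale.Agent.P085

set_option linter.unusedSectionVars false

variable {A : Type*} [CStarAlgebra A] [TrAlg A] {Q : StarSubalgebra ℂ A}

noncomputable def gen (Q : StarSubalgebra ℂ A) (u : A) : StarSubalgebra ℂ A :=
  StarAlgebra.adjoin ℂ (insert u (Q : Set A))

omit [TrAlg A] in
lemma gen_u (u : A) : u ∈ gen Q u := StarAlgebra.subset_adjoin ℂ _ (Set.mem_insert _ _)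
omit [TrAlg A] in
lemma gen_Q (u : A) {q : A} (h : q ∈ Q) : q ∈ gen Q u :=
  StarAlgebra.subset_adjoin ℂ _ (Set.mem_insert_of_mem _ h)

lemma iter [Cpl A] (G : Good Q ⊤) {u₀ W y : A} {d : ℕ} {σ κ κ' ρ : ℝ} (hu₀ : u₀ ∈ unitary A)
    (hW : W ∈ unitary A) (hy : n2 y ≤ 2) (hd : 0 < d) (h0 : 0 ≤ σ) (ht : d * σ ≤ 1)
    (hκ : 0 < κ) (hκκ : κ ≤ κ' / 2) (hκ1 : κ' ≤ 1)
    (hK : 3 * (1300 * d ^ 3) ^ 2 * κ ^ 2 * Real.exp (3 * (1300 * d ^ 3)) ≤ κ' ^ 2)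
    (hρ : ρ ≤ (I * tr (W * star y)).re) :
    ∃ m u f w μ, Inv Q u₀ W y d σ κ κ' ρ m u f w μ ∧ 1 / 2 ≤ rt f ∧ rt f ≤ 3 / 4 := by
  have hκ2 : κ ^ 2 ≤ 1 / 4 := by nlinarith
  have key : ∀ m : ℕ, ∃ m' u f w μ, Inv Q u₀ W y d σ κ κ' ρ m' u f w μ ∧ 1 / 2 ≤ rt f ∧
      (rt f ≤ 3 / 4 ∨ (m' = m ∧ κ ^ 2 / 4 * ∑ i ∈ Finset.range m, (1 / (i + 1) : ℝ) ≤ 1 - rt f)) := by
    intro m
    induction m with
    | zero =>
      refine ⟨0, u₀, 1, Fin.elim0, Fin.elim0, ⟨hu₀, one_mem _, IsStarProjection.one A, ?_, ?_, ?_, ?_,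
        ?_, ?_, ?_, ?_, ?_, ?_⟩, by norm_num, Or.inr ⟨rfl, by simp⟩⟩ <;> simp [usu hu₀]
      simpa using hρ
    | succ m ih =>
      obtain ⟨m', u, f, w, μ, H, h1, h2⟩ := ih
      by_cases h3 : rt f ≤ 3 / 4
      · exact ⟨m', u, f, w, μ, H, h1, Or.inl h3⟩
      obtain ⟨rfl, h4⟩ := h2.resolve_left h3
      have hx : κ ^ 2 / (m' + 1) ≤ κ ^ 2 := div_le_self (sq_nonneg _) (by simp)
      obtain ⟨n, h5, h6⟩ := exists_nat_pow_near_of_lt_one (x := κ ^ 2 / (m' + 1)) (y := (2⁻¹ : ℝ))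
        (by positivity) (by linarith) (by norm_num) (by norm_num)
      have h7 : 0 < 2⁻¹ ^ (n + 1) * rt f := by positivity
      have h8 := Real.sq_sqrt h7.le
      have h9 : 2⁻¹ ^ (n + 1) * rt f ≤ κ ^ 2 / (m' + 1) :=
        (mul_le_of_le_one_right (by positivity) (rt_le_one H.fP)).trans h5.le
      obtain ⟨u', f', w', μ', H', h10⟩ := step G hu₀ hW hy hd h0 ht hκ (by linarith) hκ1 hK H h1
        (Real.sqrt_pos.2 h7) h8 (by rw [h8, mul_comm, ← le_div_iff₀ (by positivity)]; exact h9)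
      rw [h8] at h10
      refine ⟨_, u', f', w', μ', H', by linarith, Or.inr ⟨rfl, ?_⟩⟩
      rw [Finset.sum_range_succ, mul_add, h10, mul_one_div, div_right_comm]
      have := mul_le_mul_of_nonneg_left h1 (by positivity : (0 : ℝ) ≤ 2⁻¹ ^ (n + 1))
      rw [pow_succ (2⁻¹ : ℝ) n] at *
      linarith
  obtain ⟨m, hm⟩ := (Real.tendsto_sum_range_one_div_nat_succ_atTop.eventually
    (eventually_gt_atTop (4 / κ ^ 2))).exists
  obtain ⟨m', u, f, w, μ, H, h1, h2 | ⟨-, h2⟩⟩ := key m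
  · exact ⟨m', u, f, w, μ, H, h1, h2⟩
  · rw [div_lt_iff₀ (by positivity)] at hm
    linarith

theorem gain [Cpl A] (G : Good Q ⊤) {u₀ W y : A} (hu₀ : u₀ ∈ unitary A)
    (hW : W ∈ unitary A) (hy : n2 y ≤ 2) {ρ δ : ℝ} (hρ0 : 0 < ρ) (hρ : ρ ≤ (I * tr (W * star y)).re)
    (hδ : 0 < δ) : ∃ u ∈ unitary A, n2 (u - u₀) ≤ δ ∧ ∃ T ∈ gen Q u, n2 T ≤ 1 ∧
      ρ ^ 2 / 256 ≤ (tr (star y * T)).re := by
  have hρ2 : ρ ≤ 2 := by
    refine hρ.trans ((re_le_norm _).trans ?_)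
    rw [norm_mul, norm_I, one_mul]
    exact (tr_le _).trans (by rwa [n2_uleft hW, n2_star])
  obtain ⟨d, hd⟩ := exists_nat_gt (8 / δ ^ 2)
  have hd0 : (0 : ℝ) < d := lt_trans (by positivity) hd
  have hd1 : (1 : ℝ) ≤ d := by exact_mod_cast (by exact_mod_cast hd0 : 0 < d)
  obtain ⟨κ', k0, k1, k2, k3⟩ : ∃ κ' : ℝ, 0 < κ' ∧ κ' ≤ 1 ∧ 15000 * d ^ 3 * κ' ≤ ρ ^ 2 / 64 ∧
      1200 * d ^ 3 * κ' ≤ δ ^ 2 / 2 := by
    refine ⟨min 1 (min (ρ ^ 2 / 64 / (15000 * d ^ 3)) (δ ^ 2 / 2 / (1200 * d ^ 3))), by positivity,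
      min_le_left _ _, ?_, ?_⟩
    · rw [mul_comm, ← le_div_iff₀ (by positivity)]; exact (min_le_right _ _).trans (min_le_left _ _)
    · rw [mul_comm, ← le_div_iff₀ (by positivity)]; exact (min_le_right _ _).trans (min_le_right _ _)
  have hC : (1 : ℝ) ≤ 1300 * d ^ 3 := by have := one_le_pow₀ (n := 3) hd1; linarith
  have hE : 1 ≤ Real.exp (3 * (1300 * d ^ 3)) := Real.one_le_exp (by positivity)
  have hσ : d * (ρ / 32 / d) = ρ / 32 := by field_simp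
  obtain ⟨m, u, f, w, μ, H, h1, h2⟩ := iter G hu₀ hW hy (d := d) (σ := ρ / 32 / d)
    (κ := κ' / 2 / (1300 * d ^ 3 * Real.exp (3 * (1300 * d ^ 3)))) (κ' := κ')
    (by exact_mod_cast hd0) (by positivity) (by rw [hσ]; linarith) (by positivity)
    (div_le_self (by positivity) (one_le_mul_of_one_le_of_one_le hC hE)) k1 (by
      generalize Real.exp (3 * (1300 * d ^ 3)) = E at *
      generalize (1300 : ℝ) * d ^ 3 = C at *
      have : 3 * C ^ 2 * (κ' / 2 / (C * E)) ^ 2 * E = 3 / 4 * κ' ^ 2 / E := by field_simp; ring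
      rw [this, div_le_iff₀ (by positivity)]
      nlinarith [sq_nonneg κ']) hρ
  refine ⟨u, H.uU, ?_, ∑ n, (w n).2.2 * wd u (w n).1 * (w n).2.1, sum_mem fun n _ => mul_mem (mul_mem
    (gen_Q u (H.rc n).pQ) (wd_mem (gen_u u) fun a ha => gen_Q u ((H.rc n).LQ a ha)))
    (gen_Q u (H.rc n).bQ), ?_, ?_⟩
  · rw [n2_sub_rev]
    refine le_of_sq_le_sq ?_ hδ.le
    have h3 := H.cost
    rw [n2_sub_sq, n2_unit hu₀, n2_unit H.uU]
    have h4 : 4 * d * (ρ / 32 / d) ^ 2 ≤ δ ^ 2 / 2 := by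
      rw [div_lt_iff₀ (by positivity)] at hd
      rw [show 4 * d * (ρ / 32 / d) ^ 2 = ρ ^ 2 / 256 / d by field_simp; ring,
        div_le_iff₀ hd0]
      nlinarith
    have h5 : (4 * d * (ρ / 32 / d) ^ 2 + 1200 * d ^ 3 * κ') * (1 - rt f) ≤ δ ^ 2 * (1 / 2) :=
      mul_le_mul (by linarith) (by linarith) (by linarith) (by positivity)
    linarith
  · refine le_of_sq_le_sq ?_ zero_le_one
    have h3 : ∀ n, star ((w n).2.2 * wd u (w n).1 * (w n).2.1) *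
        ∑ n, (w n).2.2 * wd u (w n).1 * (w n).2.1 = star ((w n).2.2 * wd u (w n).1 * (w n).2.1) *
        ((w n).2.2 * wd u (w n).1 * (w n).2.1) := fun n => by
      rw [Finset.mul_sum, Finset.sum_eq_single n _ (by simp)]
      intro n' _ h
      rw [star_mul, star_mul, pstar (H.rc n).pP]
      simp only [mul_assoc]
      rw [← mul_assoc (w n).2.2, H.orth n n' h.symm]; simp
    rw [n2_sq, star_sum, Finset.sum_mul, map_sum, re_sum, Finset.sum_congr rfl fun n _ => by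
      rw [h3, ← n2_sq, n2_uright (H.rc n).bU, n2_uright (wd_unit H.uU (H.rc n).LU),
        n2_proj (H.rc n).pP, rt], ← re_sum, ← map_sum, eq_sub_of_add_eq' H.sum, one_pow]
    exact rt_le_one H.fP.one_sub
  · have h3 := H.gain
    rw [hσ] at h3
    rw [Finset.mul_sum, map_sum, re_sum]
    refine le_trans ?_ h3
    calc _ = ρ ^ 2 / 64 * (1 / 4) := by ring
      _ ≤ _ := mul_le_mul (by linarith) (by linarith) (by norm_num) (by nlinarith)

/-- the unitary group with the 2-norm distance -/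
structure U2 (A : Type*) [CStarAlgebra A] where
  val : A
  prop : val ∈ unitary A

noncomputable instance : PseudoMetricSpace (U2 A) :=
  PseudoMetricSpace.induced (fun u => toL2 u.1) inferInstance

lemma U2_dist (u v : U2 A) : dist u v = n2 (u.1 - v.1) := by
  rw [n2, map_sub, ← dist_eq_norm]; rfl

instance [Cpl A] : CompleteSpace (U2 A) := by
  refine Metric.complete_of_cauchySeq_tendsto fun x hx => ?_
  obtain ⟨y, -, hy⟩ := Cpl.cpl (fun n => (x n).1) 1 (fun n => unit_le (x n).2) fun ε hε => by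
    obtain ⟨N, hN⟩ := Metric.cauchySeq_iff.1 hx ε hε
    exact ⟨N, fun m hm n hn => by rw [← U2_dist]; exact (hN m hm n hn).le⟩
  have hy : Lim atTop (fun n => (x n).1) y := hy
  refine ⟨⟨y, ?_, ?_⟩, ?_⟩
  · exact (hy.star.mul hy fun n => unit_le (ustar (x n).2)).eq (Lim.const 1)
      (Eventually.of_forall fun n => usu (x n).2)
  · exact (hy.mul hy.star fun n => unit_le (x n).2).eq (Lim.const 1)
      (Eventually.of_forall fun n => uus (x n).2)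
  · rw [tendsto_iff_dist_tendsto_zero]
    simpa only [U2_dist, Lim] using hy

lemma usc (u₀ : U2 A) {z : A} (hz : z ∈ gen Q u₀.1) : ∃ C, ∀ ε > 0, ∀ᶠ u in 𝓝 u₀,
    ∃ z' ∈ gen Q u.1, ‖z'‖ ≤ C ∧ n2 (z' - z) < ε := by
  induction hz using StarAlgebra.adjoin_induction with
  | mem x h =>
    rcases h with rfl | h
    · refine ⟨1, fun ε hε => ?_⟩
      filter_upwards [Metric.ball_mem_nhds u₀ hε] with u hu
      exact ⟨u.1, gen_u _, unit_le u.2, by rwa [← U2_dist]⟩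
    · exact ⟨‖x‖, fun ε hε => Eventually.of_forall fun u => ⟨x, gen_Q _ h, le_rfl, by simpa⟩⟩
  | algebraMap r =>
    exact ⟨_, fun ε hε => Eventually.of_forall fun u => ⟨_, algebraMap_mem _ r, le_rfl, by simpa⟩⟩
  | add x y _ _ hx hy =>
    obtain ⟨C, hx⟩ := hx
    obtain ⟨C', hy⟩ := hy
    refine ⟨C + C', fun ε hε => ?_⟩
    filter_upwards [hx _ (half_pos hε), hy _ (half_pos hε)] with u ⟨a, h1, h2, h3⟩ ⟨b, h4, h5, h6⟩
    refine ⟨a + b, add_mem h1 h4, (norm_add_le _ _).trans (add_le_add h2 h5), ?_⟩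
    have := n2_add_le (a - x) (b - y)
    rw [add_sub_add_comm]; linarith
  | mul x y _ _ hx hy =>
    obtain ⟨C, hx⟩ := hx
    obtain ⟨C', hy⟩ := hy
    refine ⟨C * C', fun ε hε => ?_⟩
    have h0 : 0 < ε / (|C'| + ‖x‖ + 1) := by positivity
    filter_upwards [hx _ h0, hy _ h0] with u ⟨a, h1, h2, h3⟩ ⟨b, h4, h5, h6⟩
    refine ⟨a * b, mul_mem h1 h4, (norm_mul_le _ _).trans
      (mul_le_mul h2 h5 (norm_nonneg _) ((norm_nonneg _).trans h2)), ?_⟩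
    have h7 := n2_add_le ((a - x) * b) (x * (b - y))
    have h8 := (n2_mul_right (a - x) b).trans (mul_le_mul h3.le (h5.trans (le_abs_self _))
      (norm_nonneg _) h0.le)
    have h9 := (n2_mul_left x (b - y)).trans (mul_le_mul_of_nonneg_left h6.le (norm_nonneg _))
    have h10 : ε / (|C'| + ‖x‖ + 1) * (|C'| + ‖x‖ + 1) = ε := by field_simp
    rw [show a * b - x * y = (a - x) * b + x * (b - y) by noncomm_ring]
    linarith
  | star x _ hx =>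
    obtain ⟨C, hx⟩ := hx
    refine ⟨C, fun ε hε => (hx ε hε).mono fun u ⟨a, h1, h2, h3⟩ => ⟨star a, star_mem h1, ?_, ?_⟩⟩
    · rwa [norm_star]
    · rwa [← star_sub, n2_star]

lemma O_open (x : A) (ε : ℝ) : IsOpen {u : U2 A | ∃ z ∈ gen Q u.1, n2 (x - z) < ε} := by
  rw [isOpen_iff_mem_nhds]
  rintro u₀ ⟨z, hz, h⟩
  obtain ⟨C, hC⟩ := usc u₀ hz
  filter_upwards [hC _ (sub_pos.2 h)] with u ⟨z', h1, _, h3⟩
  refine ⟨z', h1, ?_⟩
  have := n2_tri x z z'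
  rw [n2_sub_rev z] at this
  linarith

lemma O_dense [Cpl A] (G : Good Q ⊤) {x : A} (hx : x ∈ unitary A) {ε : ℝ} (hε : 0 < ε) :
    Dense {u : U2 A | ∃ z ∈ gen Q u.1, n2 (x - z) < ε} := by
  rw [dense_iff_inter_open]
  intro B hB hne
  by_contra hc
  let S : Set ℝ := {s | ∃ u ∈ B, ∃ z ∈ gen Q u.1, s = n2 (x - z)}
  have hS : ∀ s ∈ S, ε ≤ s := by
    rintro _ ⟨u, hu, z, hz, rfl⟩
    exact le_of_not_gt fun h => hc ⟨u, hu, z, hz, h⟩
  have h1 : (1 : ℝ) ∈ S := let ⟨u, hu⟩ := hne; ⟨u, hu, 0, zero_mem _, by simp [n2_unit hx]⟩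
  obtain ⟨m, hm⟩ : ∃ m, m = sInf S := ⟨_, rfl⟩
  have hl : ∀ s ∈ S, m ≤ s := fun s hs => hm ▸ csInf_le ⟨ε, hS⟩ hs
  have hεm : ε ≤ m := hm ▸ le_csInf ⟨1, h1⟩ hS
  have hm1 := hl 1 h1
  obtain ⟨c, hc'⟩ : ∃ c, c = (ε ^ 2 / 2) ^ 2 / 256 := ⟨_, rfl⟩
  have hc0 : 0 < c := by rw [hc']; positivity
  have hε2 : ε ^ 2 ≤ 1 := pow_le_one₀ hε.le (hεm.trans hm1)
  have hc1 : c ≤ ε ^ 2 / 6 := by rw [hc']; nlinarith [sq_nonneg ε]
  obtain ⟨_, ⟨u₀, hu₀, P, hP, rfl⟩, h2⟩ := exists_lt_of_csInf_lt ⟨1, h1⟩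
    (hm ▸ lt_add_of_pos_right m (by positivity : 0 < c ^ 2 / 8))
  obtain ⟨y, hy⟩ : ∃ y, y = x - P := ⟨_, rfl⟩
  have h3 := hl _ ⟨u₀, hu₀, P, hP, rfl⟩
  rw [← hy] at h2 h3
  have hc2 : c ^ 2 ≤ 1 := pow_le_one₀ hc0.le (by linarith)
  have h4 : n2 y ^ 2 ≤ m ^ 2 + c ^ 2 / 2 := by nlinarith [n2_nonneg y]
  have hy2 : n2 y ≤ 2 := by linarith
  have h5 : ε ^ 2 / 2 ≤ (I * tr ((-I) • x * star y)).re := by
    obtain ⟨τ, hτ⟩ : ∃ τ, τ = ε ^ 2 / 18 := ⟨_, rfl⟩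
    have hτ0 : 0 < τ := by rw [hτ]; positivity
    have a1 := hl _ ⟨u₀, hu₀, P - (τ : ℂ) • P, sub_mem hP ((gen Q u₀.1).smul_mem hP _), rfl⟩
    rw [show x - (P - (τ : ℂ) • P) = y + (τ : ℂ) • P by rw [hy]; abel] at a1
    have a2 := n2_add_sq y ((τ : ℂ) • P)
    rw [n2_smul, norm_real, Real.norm_of_nonneg hτ0.le, mul_smul_comm, map_smul, smul_eq_mul,
      re_ofReal_mul] at a2
    have a3 : n2 P ≤ 3 := by
      have := n2_sub_le x y
      rw [n2_unit hx, show x - y = P by rw [hy]; abel] at this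
      linarith
    have a4 : (I * tr ((-I) • x * star y)).re = n2 y ^ 2 + (tr (star y * P)).re := by
      rw [smul_mul_assoc, map_smul, smul_eq_mul, ← mul_assoc, mul_neg, I_mul_I, neg_neg, one_mul,
        tr_comm, n2_sq, ← add_re, ← map_add, ← mul_add, hy, sub_add_cancel]
    have a5 := pow_le_pow_left₀ (hε.le.trans hεm) a1 2
    have a6 := pow_le_pow_left₀ (mul_nonneg hτ0.le (n2_nonneg P))
      (mul_le_mul_of_nonneg_left a3 hτ0.le) 2
    have a7 := pow_le_pow_left₀ hε.le (hεm.trans h3) 2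
    have a8 := pow_le_pow_left₀ hc0.le hc1 2
    have a9 : τ * (-(ε ^ 2 / 2)) ≤ τ * (tr (star y * P)).re := by
      rw [hτ] at *; nlinarith
    have := le_of_mul_le_mul_left a9 hτ0
    rw [a4]; linarith
  obtain ⟨C, hC⟩ := usc u₀ hP
  obtain ⟨δ, hδ, h6⟩ := Metric.mem_nhds_iff.1 ((hC _ (by positivity : 0 < c ^ 2 / 4)).and
    (hB.mem_nhds hu₀))
  obtain ⟨u, hu, h7, T, hT, h8, h9⟩ := gain G u₀.2 (W := (-I) • x) ⟨by
    simp [smul_smul, usu hx], by simp [smul_smul, uus hx]⟩ hy2 (by positivity) h5 (half_pos hδ)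
  obtain ⟨⟨P', h10, -, h11⟩, h12⟩ := h6 (show (⟨u, hu⟩ : U2 A) ∈ Metric.ball u₀ δ by
    rw [Metric.mem_ball, U2_dist]; linarith)
  rw [← hc'] at h9
  have h13 := hl _ ⟨_, h12, P' + (c : ℂ) • T, add_mem h10 ((gen Q u).smul_mem hT _), rfl⟩
  have h14 := n2_sub_le (y - (c : ℂ) • T) (P' - P)
  rw [show y - (c : ℂ) • T - (P' - P) = x - (P' + (c : ℂ) • T) by rw [hy]; abel] at h14
  have h15 := n2_sub_sq y ((c : ℂ) • T)
  rw [n2_smul, norm_real, Real.norm_of_nonneg hc0.le, mul_smul_comm, map_smul, smul_eq_mul,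
      re_ofReal_mul] at h15
  have h16 := pow_le_pow_left₀ (mul_nonneg hc0.le (n2_nonneg T))
      (mul_le_mul_of_nonneg_left h8 hc0.le) 2
  have h17 := mul_le_mul_of_nonneg_left h9 hc0.le
  have h18 := n2_nonneg (y - (c : ℂ) • T)
  have h19 : n2 (y - (c : ℂ) • T) ^ 2 ≤ m ^ 2 - c ^ 2 / 2 := by nlinarith
  have h20 : m < n2 (y - (c : ℂ) • T) + c ^ 2 / 4 := by linarith
  generalize n2 (y - (c : ℂ) • T) = a at *
  have h21 : a ≤ m := le_of_sq_le_sq (by nlinarith) (hε.le.trans hεm)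
  nlinarith

variable (A) in
class Sep : Prop where
  sep : SecondCountableTopology (L2 A)

theorem exists_gen [Cpl A] [Sep A] (G : Good Q ⊤) : ∃ u ∈ unitary A,
    ∀ S : StarSubalgebra ℂ A, C2 (S : Set A) → Q ≤ S → u ∈ S → S = ⊤ := by
  have := Sep.sep (A := A)
  have : SecondCountableTopology (U2 A) :=
    (⟨rfl⟩ : IsInducing fun u : U2 A => toL2 u.1).secondCountableTopology
  have : Nonempty (U2 A) := ⟨⟨1, one_mem _⟩⟩
  obtain ⟨x, hx⟩ := TopologicalSpace.exists_dense_seq (U2 A)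
  obtain ⟨u, hu⟩ := (dense_iInter_of_isOpen (fun i : ℕ × ℕ => O_open (Q := Q) (x i.1).1 (1 / (i.2 + 1)))
    fun i => O_dense G (x i.1).2 (by positivity)).nonempty
  refine ⟨u.1, u.2, fun S hS h1 h2 => ?_⟩
  have h3 : gen Q u.1 ≤ S := StarAlgebra.adjoin_le (Set.insert_subset h2 h1)
  have h4 : ∀ n, (x n).1 ∈ S := fun n => hS _ fun ε hε => by
    obtain ⟨k, hk⟩ := exists_nat_one_div_lt hε
    obtain ⟨z, hz, h⟩ := Set.mem_iInter.1 hu (n, k)
    exact ⟨z, h3 hz, h.trans hk⟩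
  refine eq_top_iff.2 fun z _ => le_of_unit ⊤ isClosed_univ S.toSubalgebra.toSubmodule
    (fun w _ hw => hS _ fun ε hε => ?_) z trivial
  obtain ⟨n, hn⟩ := hx.exists_dist_lt (⟨w, hw⟩ : U2 A) hε
  exact ⟨_, h4 n, by rwa [U2_dist] at hn⟩

end Vale.Agent.P085
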