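import Vale.Agent.P085.Choice

/-! One patching step. -/

open scoped ComplexConjugate
open Filter Topology Complex

namespace Vale.Agent.P085

set_option linter.unusedSectionVars false

variable {A : Type*} [CStarAlgebra A] [TrAlg A] {Q : StarSubalgebra ℂ A}

noncomputable def hx (d : ℕ) (u W : A) (σ : ℝ) (x : List A × A × A) : A :=
  hh br (cc d u W x.2.1 x.1) x.2.2 σ

lemma CH.ph {f u W : A} {d : ℕ} {r σ : ℝ} {x : List A × A × A} (h : CH Q f d r x)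
    (hu : u ∈ unitary A) (hW : W ∈ unitary A) (hd : 0 < d) (h0 : 0 ≤ σ) (ht : d * σ ≤ 1) :
    PH br (cc d u W x.2.1 x.1) x.2.2 σ :=
  cc_PH hu hW h.bU h.LU h.pP h0 (by
    have : (1 : ℝ) ≤ d := by exact_mod_cast hd
    nlinarith)

section
variable {F : Filter (List A × A × A)} {u W f : A} {d : ℕ} {r σ : ℝ}

lemma H2 (hu : u ∈ unitary A) (hW : W ∈ unitary A) (hd : 0 < d) (h0 : 0 ≤ σ) (ht : d * σ ≤ 1)
    (hr : 0 < r) (c1 : ∀ᶠ x in F, CH Q f d r x)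
    (c2 : ∀ X, ∀ ε > 0, ∀ᶠ x in F, er (cc d u W x.2.1 x.1) x.2.2 X ≤ 16 * d ^ 2 * r ^ 2 * n2 X + ε)
    (c3 : ∀ Y, ∀ ε > 0, ∀ᶠ x in F, ∀ i, n2 (Y * cc d u W x.2.1 x.1 i * x.2.2) ≤ 2 * r * n2 Y + ε)
    (Y : A) {L : List A} (hL : UL L) (hLd : L.length ≤ d) {μ : ℝ} (hμ : 0 ≤ μ)
    (h4 : ∀ L₁ L₂ L₃, L₁ ++ (L₂ ++ L₃) = L → L₁ ≠ [] → L₂ ≠ [] → ‖tr (wd u L₂)‖ ≤ μ) :
    ∀ᶠ x in F, ∀ k R, Cay (hx d u W σ x) k R → ‖tr (Y * wd (u * (1 + k)) L) - tr (Y * wd u L)‖ ≤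
      r ^ 2 * (L.length * (4 * d * σ ^ 2) * ‖tr (Y * wd u L)‖ +
        400 * d ^ 3 * ((2 * n2 Y + r) * (r + μ))) := by
  have hd1 : (1 : ℝ) ≤ d := by exact_mod_cast hd
  have hY := n2_nonneg Y
  filter_upwards [c1, ev_split L fun L₁ L₂ _ => c2 (wd u L₂ * Y * wd u L₁) (16 * d ^ 2 * r ^ 3)
    (by positivity), ev_split L fun L₁ L₂ _ => c3 (Y * wd u L₁) (r ^ 2) (by positivity),
    ev_split3 L fun L₁ L₂ L₃ _ => c2 (wd u L₂) (d ^ 2 * r ^ 2) (by positivity)]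
    with x h1 h2 h3 h5 k R K
  have := old_word (h1.ph hu hW hd h0 ht) K hu Y hL (ε₁ := 16 * d ^ 2 * r ^ 2 * (2 * n2 Y + r))
    (ε₂ := 17 * d ^ 2 * r ^ 2) (α := 2 * d * r * (2 * n2 Y + r)) hμ (by positivity) (by positivity)
    (by positivity) (fun L₁ L₂ e => by
      have := h2 L₁ L₂ e
      subst e
      rw [n2_uright (wd_unit hu hL.left), n2_uleft (wd_unit hu hL.right)] at this
      have : 0 ≤ (d : ℝ) ^ 2 * r ^ 2 * n2 Y := by positivity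
      nlinarith) (fun L₁ L₂ e => by
      have := Finset.sum_le_sum fun i (_ : i ∈ Finset.univ) => h3 L₁ L₂ e i
      subst e
      rw [n2_uright (wd_unit hu hL.left)] at this
      simp only [Finset.sum_const, Finset.card_univ, Fintype.card_prod, Fintype.card_fin,
        Fintype.card_bool, nsmul_eq_mul, Nat.cast_mul, Nat.cast_ofNat] at this
      linarith) (fun L₁ L₂ L₃ e => by
      have := h5 L₁ L₂ L₃ e
      subst e
      rw [n2_unit (wd_unit hu hL.right.left)] at this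
      linarith) h4
  refine this.trans ?_
  simp only [h1.pr, Fintype.card_prod, Fintype.card_fin, Fintype.card_bool, Nat.cast_mul,
    Nat.cast_ofNat]
  have hn : (L.length : ℝ) ≤ d := by exact_mod_cast hLd
  have hn0 : (0 : ℝ) ≤ L.length := by positivity
  generalize (L.length : ℝ) = n at *
  have hβ : 0 ≤ 2 * n2 Y + r := by positivity
  generalize 2 * n2 Y + r = β at *
  have a1 : (n * σ) ^ 2 ≤ 1 := pow_le_one₀ (by positivity) (le_trans (by gcongr) ht)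
  have a2 : n * (4 * r * (16 * d ^ 2 * r ^ 2 * β)) ≤ 64 * d ^ 3 * (r ^ 2 * β * r) := by
    calc _ ≤ d * (4 * r * (16 * d ^ 2 * r ^ 2 * β)) := by gcongr
      _ = _ := by ring
  have a3 : n * (n * (8 * σ ^ 2 * (2 * d * r * β) * (d * 2 * (r * μ) + 17 * d ^ 2 * r ^ 2)))
      ≤ 32 * d ^ 3 * (r ^ 2 * β * μ) + 272 * d ^ 3 * (r ^ 2 * β * r) := by
    calc _ = (n * σ) ^ 2 * (32 * (d ^ 2 * 1) * (r ^ 2 * β * μ) + 272 * d ^ 3 * (r ^ 2 * β * r)) := by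
          ring
      _ ≤ 1 * (32 * (d ^ 2 * d) * (r ^ 2 * β * μ) + 272 * d ^ 3 * (r ^ 2 * β * r)) := by gcongr
      _ = _ := by ring
  have a4 : 0 ≤ (d : ℝ) ^ 3 * (r ^ 2 * β * μ) := by positivity
  have a5 : 0 ≤ (d : ℝ) ^ 3 * (r ^ 2 * β * r) := by positivity
  nlinarith

lemma H3 (hu : u ∈ unitary A) (hW : W ∈ unitary A) (hd : 0 < d) (h0 : 0 ≤ σ) (ht : d * σ ≤ 1)
    (hr : 0 < r) (hr1 : r ≤ 1) (c1 : ∀ᶠ x in F, CH Q f d r x)
    (c2 : ∀ X, ∀ ε > 0, ∀ᶠ x in F, er (cc d u W x.2.1 x.1) x.2.2 X ≤ 16 * d ^ 2 * r ^ 2 * n2 X + ε)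
    (c4 : ∀ Y, ∀ ε > 0, ∀ᶠ x in F, n2 (Y * x.2.2) ≤ 2 * r * n2 Y + ε)
    (c6 : ∀ V, ∀ ε > 0, ∀ᶠ x in F, ‖tr (x.2.2 * (wd u x.1 * x.2.1 * V))‖ ≤ ε)
    {y : A} (hy : n2 y ≤ 2) :
    ∀ᶠ x in F, ∀ k R, Cay (hx d u W σ x) k R →
      2 * (d * σ) * (I * tr (x.2.2 * (W * star y))).re - r ^ 2 * (24 * (d * σ) ^ 2 + 701 * d ^ 2 * r)
        ≤ (tr (star y * (x.2.2 * wd (u * (1 + k)) x.1 * x.2.1))).re := by
  have hd1 : (1 : ℝ) ≤ d := by exact_mod_cast hd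
  filter_upwards [c1, c2 1 (d ^ 2 * r ^ 2) (by positivity), c4 (star y) (r ^ 2) (by positivity),
    c6 (star y) (r ^ 3) (by positivity)] with x h1 h2 h3 h4 k R K
  have a1 := own_word hu h1.bU h1.LU h1.len (h1.ph hu hW hd h0 ht) K
  rw [h1.pr] at a1
  rw [n2_one] at h2
  rw [n2_star] at h3
  have he := er_nonneg (cc d u W x.2.1 x.1) x.2.2 1
  generalize er (cc d u W x.2.1 x.1) x.2.2 1 = e at *
  obtain ⟨E, hE⟩ : ∃ E, E = x.2.2 * (wd (u * (1 + k)) x.1 - wd u x.1) * x.2.1 -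
    (2 * I * σ * d) • (x.2.2 * W) := ⟨_, rfl⟩
  rw [← hE] at a1
  have a2 : x.2.2 * E = E := by
    rw [hE, mul_sub, mul_smul_comm, ppx h1.pP, mul_assoc, ppx h1.pP]
  have a3 : tr (star y * (x.2.2 * wd (u * (1 + k)) x.1 * x.2.1)) =
      tr (x.2.2 * (wd u x.1 * x.2.1 * star y)) + ((2 * (d * σ) : ℝ) : ℂ) *
        (I * tr (x.2.2 * (W * star y))) + tr (star y * x.2.2 * E) := by
    rw [mul_assoc _ _ E, a2, hE, tr_comm (star y), tr_comm (star y)]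
    simp only [mul_sub, sub_mul, smul_mul_assoc, map_sub, map_smul, smul_eq_mul, mul_assoc]
    push_cast; ring
  have a4 := tr_mul_le (star y * x.2.2) E
  rw [a3, add_re, add_re, re_ofReal_mul]
  have a5 := (abs_le.1 ((abs_re_le_norm _).trans h4)).1
  have a6 := (abs_le.1 ((abs_re_le_norm _).trans a4)).1
  have b1 : d * (2 * σ * e + (2 * σ ^ 2 + 4 * d * σ ^ 2) * (r + e))
      ≤ 6 * (d * σ) ^ 2 * r + 136 * d ^ 2 * r ^ 2 := by
    have t0 : 0 ≤ d * σ := by positivity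
    have t1 : (d * σ) ^ 2 ≤ 1 := pow_le_one₀ t0 ht
    have t2 : d * (2 * σ ^ 2 + 4 * d * σ ^ 2) ≤ 6 * (d * σ) ^ 2 := by
      have : d * σ ^ 2 * 1 ≤ d * σ ^ 2 * d := by gcongr
      nlinarith
    have t3 := mul_le_mul_of_nonneg_right t2 (by positivity : 0 ≤ r + e)
    have t4 := mul_le_mul_of_nonneg_right ht he
    have t5 := mul_le_mul_of_nonneg_right t1 he
    nlinarith
  have b2 : n2 (star y * x.2.2) ≤ (4 + r) * r := by nlinarith
  have b3 := mul_le_mul b2 (a1.trans b1) (n2_nonneg _) (by positivity)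
  have b4 : (4 + r) * r * (6 * (d * σ) ^ 2 * r + 136 * d ^ 2 * r ^ 2) + r ^ 3 ≤
      r ^ 2 * (24 * (d * σ) ^ 2 + 701 * d ^ 2 * r) := by
    have t1 : (d * σ) ^ 2 ≤ 1 := pow_le_one₀ (by positivity) ht
    have t2 : (1 : ℝ) ≤ d ^ 2 := one_le_pow₀ hd1
    have t3 : 0 < r ^ 3 := by positivity
    have t4 := mul_le_mul_of_nonneg_right t1 t3.le
    have t5 := mul_le_mul_of_nonneg_right t2 t3.le
    have t6 : d ^ 2 * r ^ 3 * r ≤ d ^ 2 * r ^ 3 * 1 := by gcongr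
    nlinarith
  linarith

end

lemma n2_yp (Y : A) {p : A} (hp : IsStarProjection p) :
    n2 (Y * p) ^ 2 = (tr (p * (star Y * Y))).re := by
  rw [n2_sq, star_mul, pstar hp, ← tr_pmul hp]; simp only [mul_assoc]

lemma lam_step {m : ℕ} (μ : Fin m → ℝ) {C r κ Θ : ℝ} (hC : 1 ≤ C) (hr : 0 < r) (hr1 : r ≤ 1)
    (hΘ : 0 ≤ Θ) (hm : (m + 1) * r ^ 2 ≤ κ ^ 2)
    (h : ∑ n, μ n ^ 2 ≤ 3 * C ^ 2 * κ ^ 2 * Θ * Real.exp (3 * C * Θ)) :
    (C * r ^ 2) ^ 2 + ∑ n, (μ n + C * r ^ 2 * (μ n + r)) ^ 2 ≤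
      3 * C ^ 2 * κ ^ 2 * (Θ + r ^ 2) * Real.exp (3 * C * (Θ + r ^ 2)) := by
  have h1 : ∀ n, (μ n + C * r ^ 2 * (μ n + r)) ^ 2 ≤
      Real.exp (3 * C * r ^ 2) * μ n ^ 2 + 2 * C ^ 2 * r ^ 4 := fun n => by
    have a1 : (μ n + C * r ^ 2 * (μ n + r)) ^ 2 ≤ (1 + r ^ 2) * ((1 + C * r ^ 2) * μ n) ^ 2
        + (1 + r ^ 2) * C ^ 2 * r ^ 4 := by
      nlinarith [sq_nonneg (r * ((1 + C * r ^ 2) * μ n) - C * r ^ 2)]
    have a2 : 1 + C * r ^ 2 ≤ Real.exp (C * r ^ 2) := by linarith [Real.add_one_le_exp (C * r ^ 2)]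
    have a3 : 1 + r ^ 2 ≤ Real.exp (C * r ^ 2) := le_trans (by nlinarith [sq_nonneg r]) a2
    have a4 : Real.exp (3 * C * r ^ 2) = Real.exp (C * r ^ 2) * Real.exp (C * r ^ 2) ^ 2 := by
      rw [← Real.exp_nat_mul, ← Real.exp_add]; congr 1; push_cast; ring
    have a5 : (1 + r ^ 2) * (1 + C * r ^ 2) ^ 2 ≤ Real.exp (3 * C * r ^ 2) := by
      rw [a4]; gcongr
    have a6 := mul_le_mul_of_nonneg_right a5 (sq_nonneg (μ n))
    have a7 : r ^ 2 * (C ^ 2 * r ^ 4) ≤ 1 * (C ^ 2 * r ^ 4) := by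
      gcongr; exact pow_le_one₀ hr.le hr1
    nlinarith
  have h2 := Finset.sum_le_sum fun n (_ : n ∈ Finset.univ) => h1 n
  rw [Finset.sum_add_distrib, ← Finset.mul_sum, Finset.sum_const, Finset.card_univ,
    Fintype.card_fin, nsmul_eq_mul] at h2
  have h3 := mul_le_mul_of_nonneg_left h (Real.exp_pos (3 * C * r ^ 2)).le
  have h4 : Real.exp (3 * C * (Θ + r ^ 2)) = Real.exp (3 * C * r ^ 2) * Real.exp (3 * C * Θ) := by
    rw [← Real.exp_add]; congr 1; ring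
  have h5 : 1 ≤ Real.exp (3 * C * (Θ + r ^ 2)) := Real.one_le_exp (by positivity)
  have h6 := mul_le_mul_of_nonneg_left h5 (by positivity : 0 ≤ 3 * C ^ 2 * κ ^ 2 * r ^ 2)
  have h7 := mul_le_mul_of_nonneg_left hm (by positivity : 0 ≤ 2 * C ^ 2 * r ^ 2)
  have h8 : 0 ≤ C ^ 2 * κ ^ 2 * r ^ 2 := by positivity
  have h9 : 0 ≤ C ^ 2 * r ^ 4 := by positivity
  rw [h4] at h6 ⊢
  nlinarith

lemma sum_step {m : ℕ} (β μ : Fin m → ℝ) {r κ : ℝ} (hκ : 0 < κ) (hκ1 : κ ≤ 1)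
    (hm : (m + 1) * r ^ 2 ≤ κ ^ 2) (hβ : ∑ n, β n ^ 2 ≤ 4) (hμ : ∑ n, μ n ^ 2 ≤ κ ^ 2) :
    ∑ n, (2 * β n + r) * (r + μ n) ≤ 35 * κ := by
  have h1 : ∀ n, κ * ((2 * β n + r) * (r + μ n)) ≤
      κ ^ 2 * (8 * β n ^ 2 + 2 * r ^ 2) + (r ^ 2 + μ n ^ 2) / 2 := fun n => by
    have := mul_nonneg (sq_nonneg κ) (sq_nonneg (2 * β n - r))
    nlinarith [sq_nonneg (κ * (2 * β n + r) - r), sq_nonneg (κ * (2 * β n + r) - μ n)]
  have h2 := Finset.sum_le_sum fun n (_ : n ∈ Finset.univ) => h1 n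
  simp only [Finset.sum_add_distrib, ← Finset.mul_sum, ← Finset.sum_div, Finset.sum_const,
    Finset.card_univ, Fintype.card_fin, nsmul_eq_mul] at h2
  refine le_of_mul_le_mul_left (h2.trans ?_) hκ
  have h3 : κ ^ 2 ≤ 1 := pow_le_one₀ hκ.le hκ1
  have h4 : m * r ^ 2 ≤ κ ^ 2 := by nlinarith [sq_nonneg r]
  have h5 := mul_le_mul_of_nonneg_left hβ (sq_nonneg κ)
  have h6 := mul_le_mul_of_nonneg_left (h4.trans h3) (sq_nonneg κ)
  nlinarith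

structure RC (Q : StarSubalgebra ℂ A) (d : ℕ) (x : List A × A × A) : Prop where
  len : x.1.length = d
  LQ : ∀ a ∈ x.1, a ∈ Q
  LU : UL x.1
  bQ : x.2.1 ∈ Q
  bU : x.2.1 ∈ unitary A
  pQ : x.2.2 ∈ Q
  pP : IsStarProjection x.2.2

structure Inv (Q : StarSubalgebra ℂ A) (u₀ W y : A) (d : ℕ) (σ κ κ' ρ : ℝ) (m : ℕ) (u f : A)
    (w : Fin m → List A × A × A) (μ : Fin m → ℝ) : Prop where
  uU : u ∈ unitary A
  fQ : f ∈ Q
  fP : IsStarProjection f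
  rc : ∀ n, RC Q d (w n)
  pf : ∀ n, (w n).2.2 * f = 0
  orth : ∀ n n', n ≠ n' → (w n).2.2 * (w n').2.2 = 0
  sum : f + ∑ n, (w n).2.2 = 1
  gain : (2 * (d * σ) * ρ - 32 * (d * σ) ^ 2 - 15000 * d ^ 3 * κ') * (1 - rt f) ≤
    ∑ n, (tr (star y * ((w n).2.2 * wd u (w n).1 * (w n).2.1))).re
  mu0 : ∀ n, 0 ≤ μ n
  mub : ∀ n L₁ L₂ L₃, L₁ ++ (L₂ ++ L₃) = (w n).1 → L₁ ≠ [] → L₂ ≠ [] → ‖tr (wd u L₂)‖ ≤ μ n
  lam : ∑ n, μ n ^ 2 ≤ 3 * (1300 * d ^ 3) ^ 2 * κ ^ 2 * (1 - rt f) *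
    Real.exp (3 * (1300 * d ^ 3) * (1 - rt f))
  cost : 1 - (4 * d * σ ^ 2 + 1200 * d ^ 3 * κ') * (1 - rt f) ≤ (tr (star u₀ * u)).re
  bias : rt f * ρ - κ' * (1 - rt f) ≤ (I * tr (f * (W * star y))).re

set_option maxHeartbeats 800000 in
theorem step [Cpl A] (G : Good Q ⊤) {u₀ W y : A} {d : ℕ} {σ κ κ' ρ : ℝ} (hu₀ : u₀ ∈ unitary A)
    (hW : W ∈ unitary A) (hy : n2 y ≤ 2) (hd : 0 < d) (h0 : 0 ≤ σ) (ht : d * σ ≤ 1)
    (hκ : 0 < κ) (hκκ : κ ≤ κ') (hκ1 : κ' ≤ 1)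
    (hK : 3 * (1300 * d ^ 3) ^ 2 * κ ^ 2 * Real.exp (3 * (1300 * d ^ 3)) ≤ κ' ^ 2)
    {m : ℕ} {u f : A} {w : Fin m → List A × A × A} {μ : Fin m → ℝ}
    (H : Inv Q u₀ W y d σ κ κ' ρ m u f w μ) (hf2 : 1 / 2 ≤ rt f) {j : ℕ} {r : ℝ} (hr : 0 < r)
    (hr2 : r ^ 2 = 2⁻¹ ^ j * rt f) (hm : (m + 1) * r ^ 2 ≤ κ ^ 2) :
    ∃ u' f' w' μ', Inv Q u₀ W y d σ κ κ' ρ (m + 1) u' f' w' μ' ∧ rt f' = rt f - r ^ 2 := by
  have hd1 : (1 : ℝ) ≤ d := by exact_mod_cast hd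
  have hd3 : (d : ℝ) ≤ d ^ 3 := le_self_pow₀ hd1 (by norm_num)
  have hd2 : (d : ℝ) ^ 2 ≤ d ^ 3 := pow_le_pow_right₀ hd1 (by norm_num)
  have hu := H.uU
  have hrκ : r ≤ κ' := by
    have : (0 : ℝ) ≤ m * r ^ 2 := by positivity
    exact (le_of_sq_le_sq (by linarith) hκ.le).trans hκκ
  have hr1 : r ≤ 1 := hrκ.trans hκ1
  have hΘ0 : 0 ≤ 1 - rt f := sub_nonneg.2 (rt_le_one H.fP)
  have ht0 : 0 ≤ d * σ := by positivity
  have ht2 : (d * σ) ^ 2 ≤ 1 := pow_le_one₀ ht0 ht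
  obtain ⟨F, c0, c1, c2, c3, c4, c5, c6, c7⟩ := choice G hu hW H.fQ H.fP hf2 hd hr.le hr2
  have g := @H2 _ _ _ _ _ _ _ _ _ _ _ hu hW hd h0 ht hr c1 c2 c3
  obtain ⟨x, x1, x2, x3, x4, x5, x6, x7⟩ := (c1.and ((H3 hu hW hd h0 ht hr hr1 c1 c2 c4 c6 hy).and
    ((c5 (W * star y) (r ^ 3) (by positivity)).and ((c7 (r ^ 2) (by positivity)).and
    ((eventually_all.2 fun n => g ((w n).2.1 * star y * (w n).2.2) (H.rc n).LU (H.rc n).len.le
      (H.mu0 n) (H.mub n)).and ((g (star u₀) (L := [1]) (by simp [UL]) hd le_rfl (by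
        intro L₁ L₂ L₃ e h1 h2
        have := congrArg List.length e
        have := List.length_pos_iff.2 h1
        have := List.length_pos_iff.2 h2
        simp at *; omega)).and
    (eventually_all.2 fun n => ev_split3 (w n).1 (P := fun L₁ L₂ L₃ x => L₁ ≠ [] → ∀ k R,
      Cay (hx d u W σ x) k R → _) fun L₁ L₂ L₃ e => (em (L₁ = [])).elim
      (fun h => Eventually.of_forall fun _ h' => absurd h h') fun h =>
      (g 1 (L := L₂) (e ▸ (H.rc n).LU : UL (L₁ ++ (L₂ ++ L₃))).right.left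
        (by rw [← (H.rc n).len, ← e]; simp; omega) (H.mu0 n) fun M₁ M₂ M₃ e' _ h2 =>
          H.mub n (L₁ ++ M₁) M₂ (M₃ ++ L₃) (by rw [← e, ← e']; simp) (by simp [h]) h2).mono
        fun _ h _ => h))))))).exists
  have P := x1.ph hu hW hd h0 ht
  obtain ⟨k, R, K⟩ := exists_cay P.sa
  have hu' : u * (1 + k) ∈ unitary A := mul_mem hu K.un
  have hpf : x.2.2 * f = x.2.2 := by simpa [pstar H.fP, pstar x1.pP] using congrArg star x1.fp
  have hrt : rt (f - x.2.2) = rt f - r ^ 2 := by rw [rt_sub, ← n2_proj x1.pP, x1.pr]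
  have hΘ : 1 - rt (f - x.2.2) = (1 - rt f) + r ^ 2 := by rw [hrt]; ring
  have ho : ∀ n, (w n).2.2 * x.2.2 = 0 := fun n => by rw [← x1.fp, ← mul_assoc, H.pf, zero_mul]
  have ho' : ∀ n, x.2.2 * (w n).2.2 = 0 := fun n => by
    simpa [pstar (H.rc n).pP, pstar x1.pP] using congrArg star (ho n)
  have hj0 : (0 : ℝ) < 2⁻¹ ^ j := by positivity
  have hj1 : (2⁻¹ : ℝ) ^ j ≤ 1 := pow_le_one₀ (by norm_num) (by norm_num)
  have hj2 : (2⁻¹ : ℝ) ^ j ≤ 2 * r ^ 2 := by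
    have := mul_le_mul_of_nonneg_left hf2 hj0.le
    linarith
  have hb : |(I * tr (x.2.2 * (W * star y))).re - 2⁻¹ ^ j * (I * tr (f * (W * star y))).re|
      ≤ κ' * r ^ 2 := by
    have e : (I * tr (x.2.2 * (W * star y))).re - 2⁻¹ ^ j * (I * tr (f * (W * star y))).re
        = (I * (tr (x.2.2 * (W * star y)) - 2⁻¹ ^ j * tr (f * (W * star y)))).re := by
      rw [← re_ofReal_mul, ← sub_re]; congr 1; push_cast; ring
    rw [e]
    refine (abs_re_le_norm _).trans ?_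
    rw [norm_mul, norm_I, one_mul]
    nlinarith [sq_nonneg r]
  have hΛ : ∑ n, μ n ^ 2 ≤ κ' ^ 2 := by
    refine H.lam.trans (le_trans ?_ hK)
    have : 1 - rt f ≤ 1 := by linarith
    calc _ ≤ 3 * (1300 * d ^ 3) ^ 2 * κ ^ 2 * 1 * Real.exp (3 * (1300 * d ^ 3) * 1) := by gcongr
      _ = _ := by simp
  refine ⟨u * (1 + k), f - x.2.2, Fin.cons x w, Fin.cons (1300 * d ^ 3 * r ^ 2)
    fun n => μ n + 1300 * d ^ 3 * r ^ 2 * (μ n + r), ⟨hu', sub_mem H.fQ x1.pQ,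
      x1.pP.sub_of_mul_eq_left H.fP hpf, ?_, ?_, ?_, ?_, ?_, ?_, ?_, ?_, ?_, ?_⟩, hrt⟩
  · exact Fin.cases ⟨x1.len, x1.LQ, x1.LU, x1.bQ, x1.bU, x1.pQ, x1.pP⟩ H.rc
  · refine Fin.cases ?_ fun n => ?_
    · simp [mul_sub, hpf, pp x1.pP]
    · simp [mul_sub, H.pf, ho]
  · refine Fin.cases (Fin.cases (by simp) fun n _ => by simpa using ho' n) fun n => Fin.cases
      (fun _ => by simpa using ho n) fun n' h => by simpa using H.orth n n' (by simpa using h)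
  · simp only [Fin.sum_univ_succ, Fin.cons_zero, Fin.cons_succ]
    rw [← H.sum]; abel
  · simp only [Fin.sum_univ_succ, Fin.cons_zero, Fin.cons_succ]
    have hsum : ∑ n, (w n).2.2 = 1 - f := eq_sub_of_add_eq' H.sum
    have a1 : ∑ n, n2 (star y * (w n).2.2) ^ 2 ≤ 4 := by
      rw [Finset.sum_congr rfl fun n _ => n2_yp (star y) (H.rc n).pP, ← re_sum, ← map_sum,
        ← Finset.sum_mul, hsum, ← n2_yp _ H.fP.one_sub]
      have := n2_right_le (ple H.fP.one_sub) (star y)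
      rw [n2_star] at this
      nlinarith [n2_nonneg (star y * (1 - f))]
    have a2 : ∑ n, n2 (w n).2.2 ^ 2 ≤ 1 := by
      rw [Finset.sum_congr rfl fun n _ => n2_proj (H.rc n).pP]
      simp only [rt]
      rw [← re_sum, ← map_sum, hsum]
      exact rt_le_one H.fP.one_sub
    have a3 : ∀ n, (tr (star y * ((w n).2.2 * wd u (w n).1 * (w n).2.1))).re - r ^ 2 *
        (4 * (d * σ) ^ 2 * (n2 (star y * (w n).2.2) ^ 2 / 4 + n2 (w n).2.2 ^ 2) + 400 * d ^ 3 *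
          ((2 * n2 (star y * (w n).2.2) + r) * (r + μ n))) ≤
        (tr (star y * ((w n).2.2 * wd (u * (1 + k)) (w n).1 * (w n).2.1))).re := fun n => by
      have b1 := x5 n k R K
      have b2 : ∀ v, tr ((w n).2.1 * star y * (w n).2.2 * wd v (w n).1)
          = tr (star y * ((w n).2.2 * wd v (w n).1 * (w n).2.1)) := fun v => by
        rw [← mul_assoc (star y), tr_comm _ (w n).2.1]; simp only [mul_assoc]
      rw [b2, b2, mul_assoc (w n).2.1, n2_uleft (H.rc n).bU, (H.rc n).len] at b1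
      have b3 : ‖tr (star y * ((w n).2.2 * wd u (w n).1 * (w n).2.1))‖ ≤
          n2 (star y * (w n).2.2) ^ 2 / 4 + n2 (w n).2.2 ^ 2 := by
        have := tr_mul_le (star y * (w n).2.2) ((w n).2.2 * wd u (w n).1 * (w n).2.1)
        rw [n2_uright (H.rc n).bU, n2_uright (wd_unit hu (H.rc n).LU), mul_assoc, mul_assoc,
          ppx (H.rc n).pP, ← mul_assoc (w n).2.2] at this
        nlinarith [sq_nonneg (n2 (star y * (w n).2.2) / 2 - n2 (w n).2.2)]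
      have b4 := (abs_le.1 ((abs_re_le_norm _).trans b1)).1
      have b5 := mul_le_mul_of_nonneg_left b3 (by positivity : 0 ≤ r ^ 2 * (4 * (d * σ) ^ 2))
      rw [sub_re] at b4
      linarith
    have a4 := Finset.sum_le_sum fun n (_ : n ∈ Finset.univ) => a3 n
    simp only [Finset.sum_sub_distrib, Finset.sum_add_distrib, ← Finset.mul_sum,
      ← Finset.sum_div] at a4
    have a5 := sum_step (fun n => n2 (star y * (w n).2.2)) μ (hκ.trans_le hκκ) hκ1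
      (hm.trans (by gcongr)) a1 hΛ
    have a6 := x2 k R K
    have a7 := H.gain
    have a8 : r ^ 2 * (ρ - 2 * κ') ≤ (I * tr (x.2.2 * (W * star y))).re := by
      have b1 := mul_le_mul_of_nonneg_left H.bias hj0.le
      have b2 := (abs_le.1 hb).1
      have b3 : 2⁻¹ ^ j * (κ' * (1 - rt f)) ≤ 2 * r ^ 2 * (κ' * (1 / 2)) := by
        have := hκ.trans_le hκκ
        gcongr; linarith
      have b4 : 2⁻¹ ^ j * (rt f * ρ) = r ^ 2 * ρ := by rw [hr2]; ring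
      linarith
    have a9 := mul_le_mul_of_nonneg_left a8 ht0
    have b1 := mul_le_mul_of_nonneg_left a5 (by positivity : 0 ≤ r ^ 2 * (400 * d ^ 3))
    have b2 := mul_le_mul_of_nonneg_left a1 (by positivity : 0 ≤ r ^ 2 * (d * σ) ^ 2)
    have b3 := mul_le_mul_of_nonneg_left a2 (by positivity : 0 ≤ r ^ 2 * (d * σ) ^ 2)
    have b4 : r ^ 2 * (d ^ 2 * r) ≤ r ^ 2 * (d ^ 3 * κ') := by gcongr
    have b5 : r ^ 2 * (d * σ * κ') ≤ r ^ 2 * (d ^ 3 * κ') := by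
      have := hκ.trans_le hκκ
      gcongr; linarith
    have b6 : 0 ≤ r ^ 2 * (d ^ 3 * κ') := by have := hκ.trans_le hκκ; positivity
    rw [hΘ]
    linarith
  · refine Fin.cases (by simp; positivity) fun n => ?_
    have := H.mu0 n
    simp only [Fin.cons_succ]; positivity
  · refine Fin.cases (fun L₁ L₂ L₃ e h1 h2 => ?_) fun n L₁ L₂ L₃ e h1 h2 => ?_
    · simp only [Fin.cons_zero] at e ⊢
      have b1 := crude_word P K hu (e ▸ x1.LU : UL (L₁ ++ (L₂ ++ L₃))).right.left (d := d)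
        (by rw [← x1.len, ← e]; simp; omega)
      have b2 := (norm_le_insert' _ _).trans (add_le_add (x4 _ _ _ e h1 h2) b1)
      simp only [x1.pr, Fintype.card_prod, Fintype.card_fin, Fintype.card_bool, Nat.cast_mul,
        Nat.cast_ofNat] at b2
      have b3 : d * σ * (d * r ^ 2) ≤ 1 * (d ^ 3 * r ^ 2) := by gcongr
      have b4 : 1 * r ^ 2 ≤ d ^ 3 * r ^ 2 := by gcongr; linarith
      linarith
    · simp only [Fin.cons_succ] at e ⊢
      have b1 := x7 n _ _ _ e h1 k R K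
      rw [one_mul, one_mul, n2_one] at b1
      have b0 := H.mub n _ _ _ e h1 h2
      have b2 := (norm_le_insert' _ _).trans (add_le_add b0 b1)
      have hl : (L₂.length : ℝ) ≤ d := by
        have : L₂.length ≤ d := by rw [← (H.rc n).len, ← e]; simp; omega
        exact_mod_cast this
      have := H.mu0 n
      have b3 : L₂.length * (4 * d * σ ^ 2) * ‖tr (wd u L₂)‖ ≤ 4 * d ^ 3 * (μ n + r) := by
        calc _ ≤ d * (4 * d * σ ^ 2) * (μ n + r) := by gcongr; linarith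
          _ = 4 * (d * σ) ^ 2 * (μ n + r) := by ring
          _ ≤ _ := by gcongr; linarith
      have b4 : 400 * d ^ 3 * ((2 * 1 + r) * (r + μ n)) ≤ 400 * d ^ 3 * (3 * (r + μ n)) := by
        gcongr; linarith
      have b5 := mul_le_mul_of_nonneg_left (add_le_add b3 b4) (sq_nonneg r)
      have b6 : 0 ≤ d ^ 3 * r ^ 2 * (μ n + r) := by positivity
      linarith
  · simp only [Fin.sum_univ_succ, Fin.cons_zero, Fin.cons_succ]
    rw [hΘ]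
    exact lam_step μ (by linarith) hr hr1 hΘ0 hm H.lam
  · have b1 := x6 k R K
    simp only [wd_cons, wd_nil, one_mul, mul_one, List.length_singleton, Nat.cast_one, add_zero,
      n2_unit (ustar hu₀)] at b1
    have b2 := (tr_le_norm _).trans (unit_le (mul_mem (ustar hu₀) hu))
    have b3 := (abs_le.1 ((abs_re_le_norm _).trans b1)).1
    have b4 := mul_le_mul_of_nonneg_left b2 (by positivity : 0 ≤ r ^ 2 * (4 * d * σ ^ 2))
    have b5 : r ^ 2 * (400 * d ^ 3 * ((2 + r) * r)) ≤ r ^ 2 * (400 * d ^ 3 * (3 * κ')) := by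
      gcongr; linarith
    have := H.cost
    rw [sub_re] at b3
    rw [hΘ]
    linarith
  · have b1 := mul_le_mul_of_nonneg_left H.bias (sub_nonneg.2 hj1)
    have b2 := (abs_le.1 hb).2
    have b4 : 2⁻¹ ^ j * (rt f * ρ) = r ^ 2 * ρ := by rw [hr2]; ring
    have b5 : 0 ≤ 2⁻¹ ^ j * (κ' * (1 - rt f)) := by have := hκ.trans_le hκκ; positivity
    rw [hΘ, hrt, sub_mul f, map_sub, mul_sub I, sub_re]
    linarith

end Vale.Agent.P085
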