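import Vale.Agent.P085.Halve

/-! Symmetries, deviation from scalars, the two by two trick. -/

open scoped ComplexConjugate
open Filter Topology Complex

namespace Vale.Agent.P085

variable {A : Type*} [CStarAlgebra A] [TrAlg A]

structure Sym (Q : StarSubalgebra ℂ A) (e s : A) : Prop where
  mem : s ∈ Q
  sa : star s = s
  sq : s * s = e
  es : e * s = s
  tr0 : tr s = 0

namespace Sym
variable {Q : StarSubalgebra ℂ A} {e s : A}

lemma se (h : Sym Q e s) : s * e = s := by rw [← h.sq, ← mul_assoc, h.sq, h.es]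
lemma proj (h : Sym Q e s) : IsStarProjection e :=
  mkP (by rw [← h.sq, star_mul, h.sa]) (by nth_rewrite 2 [← h.sq]; rw [← mul_assoc, h.es, h.sq])
lemma emem (h : Sym Q e s) : e ∈ Q := h.sq ▸ mul_mem h.mem h.mem
lemma le (h : Sym Q e s) : ‖s‖ ≤ 1 := piso_le (by rw [h.sa, h.sq, h.es])
lemma neg (h : Sym Q e s) : Sym Q e (-s) :=
  ⟨neg_mem h.mem, by simp [h.sa], by simp [h.sq], by simp [h.es], by simp [h.tr0]⟩
lemma unit (h : Sym Q 1 s) : s ∈ unitary A := ⟨by rw [h.sa, h.sq], by rw [h.sa, h.sq]⟩

lemma orth {e' s' : A} (h : Sym Q e s) (h' : Sym Q e' s') (h0 : e * e' = 0) : s * s' = 0 := by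
  rw [← h.se, ← h'.es, mul_assoc, ← mul_assoc e, h0]; simp

lemma add {e' s' : A} (h : Sym Q e s) (h' : Sym Q e' s') (h0 : e * e' = 0) :
    Sym Q (e + e') (s + s') := by
  have h1 : e' * e = 0 := by simpa [pstar h.proj, pstar h'.proj] using congrArg star h0
  refine ⟨add_mem h.mem h'.mem, by simp [h.sa, h'.sa], ?_, ?_, by simp [h.tr0, h'.tr0]⟩
  · simp [add_mul, mul_add, h.sq, h'.sq, h.orth h' h0, h'.orth h h1]
  · have h2 : e * s' = 0 := by rw [← h'.es, ← mul_assoc, h0, zero_mul]
    have h3 : e' * s = 0 := by rw [← h.es, ← mul_assoc, h1, zero_mul]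
    simp [add_mul, mul_add, h.es, h'.es, h2, h3]
end Sym

noncomputable def pl (e s : A) : A := (2⁻¹ : ℂ) • (e + s)

section
variable {Q : StarSubalgebra ℂ A} {e s : A}

omit [TrAlg A] in
lemma pl_add (e s : A) : pl e s + pl e (-s) = e := by simp only [pl]; module
omit [TrAlg A] in
lemma pl_sub (e s : A) : pl e s - pl e (-s) = s := by simp only [pl]; module
lemma Sym.pl_mem (h : Sym Q e s) : pl e s ∈ Q := Q.smul_mem (add_mem h.emem h.mem) _
lemma Sym.pl_proj (h : Sym Q e s) : IsStarProjection (pl e s) := by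
  refine mkP (by simp [pl, h.sa, pstar h.proj]) ?_
  simp only [pl, smul_mul_smul_comm, add_mul, mul_add, pp h.proj, h.es, h.se, h.sq]; module
lemma Sym.pl_orth (h : Sym Q e s) : pl e s * pl e (-s) = 0 := by
  simp only [pl, smul_mul_smul_comm, add_mul, mul_add, pp h.proj, h.es, h.se, h.sq, mul_neg]; module
lemma Sym.e_pl (h : Sym Q e s) : e * pl e s = pl e s := by
  simp only [pl, mul_smul_comm, mul_add, pp h.proj, h.es]
lemma Sym.pl_e (h : Sym Q e s) : pl e s * e = pl e s := by
  simp only [pl, smul_mul_assoc, add_mul, pp h.proj, h.se]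
lemma Sym.tr_pl (h : Sym Q e s) : tr (pl e s) = 2⁻¹ * tr e := by simp [pl, h.tr0]
lemma Sym.rt_pl (h : Sym Q e s) : rt (pl e s) = rt e / 2 := by
  have := h.tr_pl
  rw [tr_proj h.pl_proj, tr_proj h.proj] at this
  have h2 : ((rt (pl e s) : ℝ) : ℂ) = ((rt e / 2 : ℝ) : ℂ) := by rw [this]; push_cast; ring
  exact_mod_cast h2

lemma tr_anti {s t : A} (ht : t * t = e) (hes : e * s = s) (h : s * t = -(t * s)) : tr s = 0 := by
  have : tr s = -tr s := by
    calc _ = tr (t * t * s) := by rw [ht, hes]
      _ = tr (t * (s * t)) := by rw [tr_cyc, mul_assoc]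
      _ = _ := by rw [h, mul_neg, map_neg, ← mul_assoc, ht, hes]
  linear_combination this / 2

lemma Half.pair {v : A} (h : Half e v) (hv : v ∈ Q) : Sym Q e (v + star v) ∧
    Sym Q e (v * star v - star v * v) ∧
    (v + star v) * (v * star v - star v * v) = -((v * star v - star v * v) * (v + star v)) := by
  have s1 : star v * star v = 0 := by simpa using congrArg star h.sq
  have s2 := piso_star h.iso
  have a1 : (v + star v) * (v + star v) = e := by
    simp [add_mul, mul_add, h.sq, s1, ← h.sum, add_comm]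
  have a2 : e * (v + star v) = v + star v := by
    rw [← h.sum]
    simp only [add_mul, mul_add, h.iso, s2, mul_assoc (star v) v v, mul_assoc v (star v) (star v),
      h.sq, s1]
    simp [add_comm]
  have a3 : (v + star v) * (v * star v - star v * v) = star v - v := by
    simp only [add_mul, mul_sub, ← mul_assoc, h.sq, s1, s2, h.iso]; simp
  have a4 : (v * star v - star v * v) * (v + star v) = v - star v := by
    simpa [add_comm] using congrArg star a3
  have b1 : v * star v * (star v * v) = 0 := by rw [mul_assoc, ← mul_assoc (star v), s1]; simp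
  have b2 : star v * v * (v * star v) = 0 := by rw [mul_assoc, ← mul_assoc v, h.sq]; simp
  have b3 := pp (piso_proj h.iso)
  have b4 := pp (piso_proj' h.iso)
  have a5 : (v * star v - star v * v) * (v * star v - star v * v) = e := by
    rw [sub_mul, mul_sub, mul_sub, b1, b2, b3, b4, ← h.sum]; abel
  refine ⟨⟨add_mem hv (star_mem hv), by simp [add_comm], a1, a2, tr_anti a5 a2 (by rw [a3, a4]; abel)⟩,
    ⟨sub_mem (mul_mem hv (star_mem hv)) (mul_mem (star_mem hv) hv), by simp, a5, ?_, ?_⟩,
    by rw [a3, a4]; abel⟩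
  · rw [← h.sum, add_mul, mul_sub, mul_sub, b1, b2, b3, b4]; abel
  · rw [map_sub, tr_comm, sub_self]

lemma Hlv.sym (h : Hlv Q) (he : IsStarProjection e) (heQ : e ∈ Q) : ∃ s, Sym Q e s :=
  let ⟨_, hv, h'⟩ := h e heQ he; ⟨_, (h'.pair hv).1⟩

end

noncomputable def dv (e X : A) : ℝ := n2 (e * X * e - (tr (e * X) / tr e) • e)

lemma lam_mul {e : A} (he : IsStarProjection e) (X : A) : tr (e * X) / tr e * tr e = tr (e * X) := by
  by_cases h0 : e = 0
  · simp [h0]
  · refine div_mul_cancel₀ _ ?_
    rw [tr_proj he]; exact_mod_cast (rt_pos he h0).ne'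

lemma tr_dv {e : A} (he : IsStarProjection e) (X : A) :
    tr (e * X * e - (tr (e * X) / tr e) • e) = 0 := by
  rw [map_sub, map_smul, tr_pmul he, smul_eq_mul, lam_mul he, sub_self]

lemma dv_le {e : A} (he : IsStarProjection e) (X : A) (c : ℂ) : dv e X ≤ n2 (e * X * e - c • e) := by
  set Y := e * X * e - (tr (e * X) / tr e) • e with hY
  have h1 : e * X * e - c • e = Y + (tr (e * X) / tr e - c) • e := by rw [hY]; module
  have h2 : e * Y = Y := by rw [hY, mul_sub, mul_smul_comm, pp he, ← mul_assoc, ← mul_assoc, pp he]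
  have h3 : star Y * e = star Y := by simpa [pstar he] using congrArg star h2
  have h4 := n2_add_sq Y ((tr (e * X) / tr e - c) • e)
  rw [mul_smul_comm, h3, map_smul, tr_star, tr_dv he, ← h1] at h4
  refine (sq_le_sq₀ (n2_nonneg _) (n2_nonneg _)).1 ?_
  simp only [map_zero, smul_zero, zero_re] at h4
  rw [h4]; nlinarith [sq_nonneg (n2 ((tr (e * X) / tr e - c) • e))]

structure Good (Q N : StarSubalgebra ℂ A) : Prop where
  cQ : C2 (Q : Set A)
  cN : C2 (N : Set A)
  le : Q ≤ N
  irr : Irr Q N
  hlv : Hlv Q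

theorem lemB0 [Cpl A] {Q N : StarSubalgebra ℂ A} (G : Good Q N) {e X : A}
    (he : IsStarProjection e) (heQ : e ∈ Q) (hX : X ∈ N) :
    ∃ s t, Sym Q e s ∧ Sym Q e t ∧ s * t = -(t * s) ∧ dv e X ≤ 7 * n2 (s * X * s - e * X * e) := by
  by_contra hc
  push Not at hc
  set η := dv e X / 7 with hη
  have hc' : ∀ s t, Sym Q e s → Sym Q e t → s * t = -(t * s) → n2 (s * X * s - e * X * e) < η :=
    fun s t h1 h2 h3 => by have := hc s t h1 h2 h3; rw [hη]; linarith
  have h2 : ∀ z ∈ Q, Half e z → n2 (z * X * star z - z * star z * X * (z * star z)) ≤ η :=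
    fun z hz h => by
      obtain ⟨h1, h2, h3⟩ := h.pair hz
      have s1 : star z * star z = 0 := by simpa using congrArg star h.sq
      have s2 := piso_star h.iso
      have hp := piso_proj' h.iso
      have a1 : z * star z * (z + star z) = z := by rw [mul_add, h.iso, mul_assoc, s1]; simp
      have a2 : (z + star z) * (z * star z) = star z := by simpa [add_comm] using congrArg star a1
      have a3 : z * star z * e = z * star z := by
        rw [← h1.sq, ← mul_assoc, a1, mul_add, h.sq, zero_add]
      have a4 : e * (z * star z) = z * star z := by simpa [pstar he] using congrArg star a3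
      have : z * X * star z - z * star z * X * (z * star z) = z * star z *
          ((z + star z) * X * (z + star z) - e * X * e) * (z * star z) := by
        calc _ = (z * star z * (z + star z)) * X * ((z + star z) * (z * star z))
            - (z * star z * e) * X * (e * (z * star z)) := by rw [a1, a2, a3, a4]
          _ = _ := by noncomm_ring
      rw [this]
      exact ((n2_right_le (ple hp) _).trans (n2_left_le (ple hp) _)).trans (hc' _ _ h1 h2 h3).le
  obtain ⟨v, hv, hH⟩ := G.hlv e heQ he
  have hp := piso_proj' hH.iso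
  have hp1 := piso_proj hH.iso
  obtain ⟨f, hf⟩ : ∃ f, f = v * star v := ⟨_, rfl⟩
  rw [← hf] at hp
  have hfv : f * v = v := by rw [hf, hH.iso]
  have hfQ : f ∈ Q := hf ▸ mul_mem hv (star_mem hv)
  obtain ⟨c, hc2⟩ := lemA G.cQ G.cN G.le G.irr hp hfQ (X := f * X * f) (η := 2 * η)
    (mul_mem (mul_mem (G.le hfQ) hX) (G.le hfQ)) (by rw [← mul_assoc, ← mul_assoc, pp hp])
    (by rw [mul_assoc, pp hp]) fun w hw hu hfw => by
      have a1 : w * v * star (w * v) = f := by
        rw [star_mul, mul_assoc, ← mul_assoc v, ← hf, ← mul_assoc, ← hfw, mul_assoc, uus hu, mul_one]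
      have a2 : star (w * v) * (w * v) = star v * v := by
        rw [star_mul, mul_assoc, ← mul_assoc (star w), usu hu, one_mul]
      have a3 : f * (w * v) = w * v := by rw [← mul_assoc, hfw, mul_assoc, hfv]
      have a4 : v * f = 0 := by rw [hf, ← mul_assoc, hH.sq, zero_mul]
      have := h2 (w * v) (mul_mem hw hv) ⟨by
        nth_rewrite 2 [← a3]; rw [← mul_assoc, mul_assoc w, a4]; simp, by rw [a1, a2, hf, hH.sum], by
        rw [a1, a3]⟩
      rw [a1] at this
      have h4 := n2_tri (w * (f * X * f) * star w) (w * v * X * star (w * v)) (f * X * f)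
      have h5 : w * (f * X * f) * star w - w * v * X * star (w * v)
          = -(w * (v * X * star v - f * X * f) * star w) := by
        rw [star_mul]; noncomm_ring
      rw [h5, n2_neg, n2_conj hu] at h4
      have := h2 v hv hH
      rw [← hf] at this
      linarith
  have h3 : n2 (star v * v * X * (star v * v) - c • (star v * v)) ≤ 3 * η := by
    have : star v * v * X * (star v * v) - c • (star v * v)
        = star v * ((v * X * star v - f * X * f) + (f * X * f - c • f)) * v := by
      rw [sub_add_sub_cancel, mul_sub, sub_mul, mul_smul_comm, smul_mul_assoc, mul_assoc _ f v,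
        hfv]
      noncomm_ring
    rw [this]
    have h4 := n2_add_le (v * X * star v - f * X * f) (f * X * f - c • f)
    have h5 := h2 v hv hH
    have h6 := piso_le hH.iso
    refine ((n2_right_le h6 _).trans (n2_left_le (by rwa [norm_star]) _)).trans ?_
    rw [← hf] at h5
    linarith
  obtain ⟨p1, p2, p3⟩ := hH.pair hv
  have h4 := hc' _ _ p2 p1 (by rw [p3, neg_neg])
  rw [← hf] at h4
  have h5 : e * X * e - c • e = (star v * v * X * (star v * v) - c • (star v * v)) +
      (f * X * f - c • f) - (2⁻¹ : ℂ) • ((f - star v * v) * X * (f - star v * v) - e * X * e) := by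
    rw [← hH.sum, ← hf]
    simp only [add_mul, mul_add, sub_mul, mul_sub]
    module
  have h6 := dv_le he X c
  rw [h5] at h6
  have h7 := h6.trans ((n2_sub_le _ _).trans (add_le_add (n2_add_le _ _) le_rfl))
  rw [n2_smul] at h7
  have := n2_nonneg ((f - star v * v) * X * (f - star v * v) - e * X * e)
  norm_num at h7
  linarith

end Vale.Agent.P085
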