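import Vale.Agent.P085.Star

/-! An irreducible subalgebra generated by two self-adjoint elements; four generators. -/

open scoped ComplexConjugate
open Filter Topology Complex

namespace Vale.Agent.P085

set_option linter.unusedSectionVars false

variable {A : Type*} [CStarAlgebra A] [TrAlg A]

structure Fac (N : StarSubalgebra ℂ A) : Prop where
  c2 : C2 (N : Set A)
  irr : Irr N N
  inf : InfD N

lemma Fac.good [Cpl A] {N : StarSubalgebra ℂ A} (h : Fac N) : Good N N :=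
  ⟨h.c2, h.c2, le_rfl, h.irr, halve h.c2 h.irr h.inf⟩

noncomputable def av (s x : A) : A := mid x (s * x * s)

section
variable {N : StarSubalgebra ℂ A} {s t : A}

lemma av_mem (hs : Sym N 1 s) {x : A} (hx : x ∈ N) : av s x ∈ N :=
  mid_mem hx (mul_mem (mul_mem hs.mem hx) hs.mem)

lemma av_comm (hs : Sym N 1 s) (x : A) : s * av s x = av s x * s := by
  simp only [av, mid, mul_smul_comm, smul_mul_assoc, mul_add, add_mul, ← mul_assoc, hs.sq, one_mul,
    mul_assoc _ s s, mul_one, add_comm]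

lemma av_comm' (h : s * t = -(t * s)) {x : A} (hx : s * x = x * s) : s * av t x = av t x * s := by
  have h' : t * s = -(s * t) := by rw [h, neg_neg]
  have : s * (t * x * t) = t * x * t * s := by
    rw [← mul_assoc, ← mul_assoc, h, neg_mul, mul_assoc t s, hx, mul_assoc _ t s, h']; noncomm_ring
  simp only [av, mid, mul_smul_comm, smul_mul_assoc, mul_add, add_mul, this, hx]

lemma av_dec (ht : Sym N 1 t) (h : s * t = -(t * s)) (x : A) : x = av s x + av s (x * t) * t := by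
  have : s * (x * t) * s * t = -(s * x * s) := by
    rw [mul_assoc _ s t, h, mul_neg, ← mul_assoc, ← mul_assoc, mul_assoc _ t t, ht.sq, mul_one]
  simp only [av, mid, smul_mul_assoc, add_mul, this, mul_assoc _ t t, ht.sq, mul_one]
  module

lemma av_sub (hs : Sym N 1 s) (x : A) {z : A} (hz : s * z = z * s) : av s x - z = av s (x - z) := by
  have : s * z * s = z := by rw [hz, mul_assoc, hs.sq, mul_one]
  simp only [av, mid, mul_sub, sub_mul, this]
  module

lemma av_n2 (hs : Sym N 1 s) (x : A) : n2 (av s x) ^ 2 = n2 x ^ 2 - n2 (s * x * s - x) ^ 2 / 4 := by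
  have := n2_mid x (s * x * s)
  rw [n2_uright hs.unit, n2_uleft hs.unit, n2_sub_rev] at this
  rw [av]; linarith

lemma av_le (hs : Sym N 1 s) (x : A) : n2 (av s x) ≤ n2 x :=
  le_of_sq_le_sq (by rw [av_n2 hs]; nlinarith [sq_nonneg (n2 (s * x * s - x))]) (n2_nonneg _)

lemma dv_one (X : A) : dv 1 X = n2 (X - tr X • 1) := by simp [dv]

lemma dv_one_le (X : A) (c : ℂ) : dv 1 X ≤ n2 (X - c • 1) := by
  simpa using dv_le (IsStarProjection.one A) X c

lemma dv_av (hs : Sym N 1 s) (x : A) :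
    dv 1 (av s x) ^ 2 ≤ dv 1 x ^ 2 - n2 (s * x * s - x) ^ 2 / 4 := by
  have h1 := pow_le_pow_left₀ (n2_nonneg _) (dv_one_le (av s x) (tr x)) 2
  rw [av_sub hs x (by simp), av_n2 hs, ← dv_one] at h1
  rw [show s * x * s - x = s * (x - tr x • 1) * s - (x - tr x • 1) by
    simp [mul_sub, sub_mul, hs.sq]]
  exact h1

noncomputable def nxt (N : StarSubalgebra ℂ A) (s t : A) : StarSubalgebra ℂ A := N ⊓ com s ⊓ com t

lemma mem_nxt (hs : Sym N 1 s) (ht : Sym N 1 t) {x : A} :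
    x ∈ nxt N s t ↔ x ∈ N ∧ s * x = x * s ∧ t * x = x * t := by
  simp only [nxt, StarSubalgebra.mem_inf, mem_com hs.sa, mem_com ht.sa, and_assoc]

lemma av_nxt (hs : Sym N 1 s) (ht : Sym N 1 t) (h : s * t = -(t * s)) {x : A} (hx : x ∈ N)
    (hc : s * x = x * s) : av t x ∈ nxt N s t :=
  (mem_nxt hs ht).2 ⟨av_mem ht hx, av_comm' h hc, av_comm ht x⟩

lemma decomp (hs : Sym N 1 s) (ht : Sym N 1 t) (h : s * t = -(t * s)) {x : A} (hx : x ∈ N) :
    ∃ a ∈ nxt N s t, ∃ b ∈ nxt N s t, ∃ c ∈ nxt N s t, ∃ d ∈ nxt N s t,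
      x = a + b * s + (c + d * s) * t := by
  have h' : t * s = -(s * t) := by rw [h, neg_neg]
  have key : ∀ x ∈ N, ∃ a ∈ nxt N s t, ∃ b ∈ nxt N s t, av s x = a + b * s := fun x hx =>
    ⟨_, av_nxt hs ht h (av_mem hs hx) (av_comm hs x), _, av_nxt hs ht h
      (mul_mem (av_mem hs hx) hs.mem) (by rw [← mul_assoc, av_comm hs]), av_dec hs h' _⟩
  obtain ⟨a, ha, b, hb, h1⟩ := key x hx
  obtain ⟨c, hc, d, hd, h2⟩ := key _ (mul_mem hx ht.mem)
  exact ⟨a, ha, b, hb, c, hc, d, hd, by rw [← h1, ← h2]; exact av_dec ht h x⟩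

lemma Fac.next (F : Fac N) (hs : Sym N 1 s) (ht : Sym N 1 t) (h : s * t = -(t * s)) :
    Fac (nxt N s t) := by
  classical
  refine ⟨(F.c2.inf (C2_com hs.sa)).inf (C2_com ht.sa), fun z hz hc => ?_, fun T hT => ?_⟩
  · obtain ⟨h1, h2, h3⟩ := (mem_nxt hs ht).1 hz
    refine F.irr z h1 fun x hx => ?_
    obtain ⟨a, ha, b, hb, c, hc', d, hd, rfl⟩ := decomp hs ht h hx
    have e : ∀ x y : A, x * z = z * x → y * z = z * y → x * y * z = z * (x * y) := fun x y h h' => by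
      rw [mul_assoc, h', ← mul_assoc, h, mul_assoc]
    have e' : ∀ x y : A, x * z = z * x → y * z = z * y → (x + y) * z = z * (x + y) :=
      fun x y h h' => by rw [add_mul, mul_add, h, h']
    exact e' _ _ (e' _ _ (hc a ha) (e _ _ (hc b hb) h2))
      (e _ _ (e' _ _ (hc c hc') (e _ _ (hc d hd) h2)) h3)
  · refine F.inf (Finset.image₂ (· * ·) T {1, s, t, s * t}) fun x hx => ?_
    obtain ⟨a, ha, b, hb, c, hc', d, hd, rfl⟩ := decomp hs ht h hx
    have e : ∀ x ∈ nxt N s t, ∀ g ∈ ({1, s, t, s * t} : Finset A), x * g ∈ Submodule.span ℂ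
        (Finset.image₂ (· * ·) T {1, s, t, s * t} : Set A) := fun x hx g hg => by
      refine Submodule.span_mono ?_ (Submodule.apply_mem_span_image_of_mem_span
        (LinearMap.mulRight ℂ g) (hT hx))
      rintro _ ⟨y, hy, rfl⟩
      exact Finset.mem_image₂_of_mem hy hg
    rw [add_mul, mul_assoc d, ← mul_one a]
    exact add_mem (add_mem (e a ha _ (by simp)) (e b hb _ (by simp)))
      (add_mem (e c hc' _ (by simp)) (e d hd _ (by simp)))

end

structure TS (A : Type*) [CStarAlgebra A] [TrAlg A] where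
  N : StarSubalgebra ℂ A
  E : A → A
  fac : Fac N
  mem : ∀ x, E x ∈ N
  lip : ∀ x, ∀ z ∈ N, n2 (E x - z) ≤ n2 (x - z)

lemma TS.step [Cpl A] (T : TS A) (x : A) : ∃ (T' : TS A) (s t : A), Sym T.N 1 s ∧ Sym T.N 1 t ∧
    s * t = -(t * s) ∧ T'.N = nxt T.N s t ∧ (∀ z, dv 1 (T'.E z) ^ 2 ≤ dv 1 (T.E z) ^ 2) ∧
    dv 1 (T'.E x) ^ 2 ≤ 195 / 196 * dv 1 (T.E x) ^ 2 := by
  obtain ⟨s, t, hs, ht, h, h1⟩ := lemB0 T.fac.good (IsStarProjection.one A) (one_mem _) (T.mem x)
  have h2 : ∀ z, dv 1 (av t (av s z)) ^ 2 ≤ dv 1 z ^ 2 - n2 (s * z * s - z) ^ 2 / 4 := fun z =>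
    (dv_av ht _).trans ((sub_le_self _ (by positivity)).trans (dv_av hs z))
  refine ⟨⟨nxt T.N s t, fun z => av t (av s (T.E z)), T.fac.next hs ht h, fun z =>
    av_nxt hs ht h (av_mem hs (T.mem z)) (av_comm hs _), fun z w hw => ?_⟩, s, t, hs, ht, h, rfl,
    fun z => (h2 _).trans (sub_le_self _ (by positivity)), (h2 _).trans ?_⟩
  · obtain ⟨a, b, c⟩ := (mem_nxt hs ht).1 hw
    rw [av_sub ht _ c, av_sub hs _ b]
    exact (av_le ht _).trans ((av_le hs _).trans (T.lip z w a))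
  · rw [one_mul, mul_one] at h1
    have : dv 1 (T.E x) ^ 2 ≤ _ := pow_le_pow_left₀ (n2_nonneg _) h1 2
    linarith

theorem tower [Cpl A] [Sep A] (F : Fac (⊤ : StarSubalgebra ℂ A)) : ∃ s t : ℕ → A,
    (∀ n, Sym ⊤ 1 (s n) ∧ Sym ⊤ 1 (t n) ∧ s n * t n = -(t n * s n)) ∧
    (∀ m n, m < n → s m * s n = s n * s m ∧ t m * s n = s n * t m ∧ t m * t n = t n * t m) ∧
    ∀ z, (∀ n, s n * z = z * s n ∧ t n * z = z * t n) → z = tr z • 1 := by
  have := Sep.sep (A := A)
  obtain ⟨x, hx⟩ := TopologicalSpace.exists_dense_seq (L2 A)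
  choose nx s t h1 h2 h3 h4 h5 h6 using TS.step (A := A)
  let y : ℕ → A := fun n => toL2.symm (x (Nat.unpair n).1)
  let T : ℕ → TS A := fun n => Nat.rec ⟨⊤, id, F, fun _ => trivial, fun _ _ _ => le_rfl⟩
    (fun n T => nx T (y n)) n
  have hT : ∀ n, T (n + 1) = nx (T n) (y n) := fun _ => rfl
  have hN : ∀ n z, z ∈ (T (n + 1)).N ↔ z ∈ (T n).N ∧ s (T n) (y n) * z = z * s (T n) (y n) ∧
      t (T n) (y n) * z = z * t (T n) (y n) := fun n z => by
    rw [hT, h4, mem_nxt (h1 _ _) (h2 _ _)]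
  have hanti : Antitone fun n => (T n).N := antitone_nat_of_succ_le fun n z hz => ((hN n z).1 hz).1
  have top : ∀ {N : StarSubalgebra ℂ A} {a : A}, Sym N 1 a → Sym ⊤ 1 a :=
    fun h => ⟨trivial, h.sa, h.sq, h.es, h.tr0⟩
  refine ⟨fun n => s (T n) (y n), fun n => t (T n) (y n), fun n => ⟨top (h1 _ _), top (h2 _ _),
    h3 _ _⟩, fun m n h => ?_, fun z hz => ?_⟩
  · have a := (hN m _).1 (hanti (Nat.succ_le_of_lt h) (h1 (T n) (y n)).mem)
    have b := (hN m _).1 (hanti (Nat.succ_le_of_lt h) (h2 (T n) (y n)).mem)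
    exact ⟨a.2.1, a.2.2, b.2.2⟩
  · have hz' : ∀ n, z ∈ (T n).N := fun n => by
      induction n with
      | zero => trivial
      | succ n ih => exact (hN n z).2 ⟨ih, hz n⟩
    refine eq_of_n2 fun ε hε => ?_
    obtain ⟨k, hk⟩ := hx.exists_dist_lt (toL2 z) (half_pos hε)
    obtain ⟨v, hv⟩ : ∃ v : A, v = toL2.symm (x k) := ⟨_, rfl⟩
    have hk' : n2 (v - z) < ε / 2 := by
      rw [n2, map_sub, hv, LinearEquiv.apply_symm_apply, ← dist_eq_norm, dist_comm]; exact hk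
    have ha : Antitone fun n => dv 1 ((T n).E v) ^ 2 := antitone_nat_of_succ_le fun n => h5 _ _ v
    have hb : ∀ i : ℕ, ∃ n, dv 1 ((T n).E v) ^ 2 ≤ (195 / 196) ^ i * dv 1 v ^ 2 := fun i => by
      induction i with
      | zero => exact ⟨0, by simp [T]⟩
      | succ i ih =>
        obtain ⟨n, hn⟩ := ih
        refine ⟨Nat.pair k n + 1, ?_⟩
        have a1 := h6 (T (Nat.pair k n)) (y (Nat.pair k n))
        rw [← hT, show y (Nat.pair k n) = v by simp [y, hv]] at a1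
        have a2 := ha (Nat.right_le_pair k n)
        simp only at a2
        rw [pow_succ (195 / 196 : ℝ)]; linarith
    have hc := (tendsto_pow_atTop_nhds_zero_of_lt_one (r := (195 / 196 : ℝ)) (by norm_num)
      (by norm_num)).mul_const (dv 1 v ^ 2)
    rw [zero_mul] at hc
    obtain ⟨i, hi⟩ := (hc.eventually (gt_mem_nhds (pow_pos (half_pos hε) 2))).exists
    obtain ⟨n, hn⟩ := hb i
    have h7 := lt_of_pow_lt_pow_left₀ 2 (half_pos hε).le (hn.trans_lt hi)
    have h8 := (T n).lip v z (hz' n)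
    have h9 := dv_one_le z (tr ((T n).E v))
    have h10 := n2_tri z ((T n).E v) (tr ((T n).E v) • 1)
    rw [n2_sub_rev z ((T n).E v), ← dv_one] at h10
    rw [← dv_one]; linarith

lemma sign_mem {S : StarSubalgebra ℂ A} (hS : C2 (S : Set A)) {t z : A} (ht : t * t = 1)
    (ht1 : ‖t‖ ≤ 1) (hc : t * z = z * t) (hz : ‖z‖ ≤ 1 / 3) (h : t + z ∈ S) : t ∈ S := by
  have key : ∀ n : ℕ, ∃ z, t * z = z * t ∧ ‖z‖ ≤ (5 / 9) ^ n / 3 ∧ t + z ∈ S := fun n => by
    induction n with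
    | zero => exact ⟨z, hc, by simpa using hz, h⟩
    | succ n ih =>
      obtain ⟨z, h1, h2, h3⟩ := ih
      have c : Commute t z := h1
      refine ⟨-((2⁻¹ : ℂ) • ((3 : ℂ) • (t * (z * z)) + z * (z * z))), ?_, ?_, ?_⟩
      · exact ((((Commute.refl t).mul_right (c.mul_right c)).smul_right _ |>.add_right
          (c.mul_right (c.mul_right c))).smul_right _).neg_right
      · have a0 := norm_nonneg z
        have a1 : ‖z‖ ≤ 1 / 3 := h2.trans (by
          have := pow_le_one₀ (n := n) (by norm_num : (0 : ℝ) ≤ 5 / 9) (by norm_num); linarith)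
        have a2 : ‖z * z‖ ≤ ‖z‖ * (1 / 3) := (norm_mul_le _ _).trans (by gcongr)
        have a3 : ‖t * (z * z)‖ ≤ 1 * (‖z‖ * (1 / 3)) := (norm_mul_le _ _).trans (by gcongr)
        have a4 : ‖z * (z * z)‖ ≤ 1 / 3 * (‖z‖ * (1 / 3)) := (norm_mul_le _ _).trans (by gcongr)
        have a5 := norm_add_le ((3 : ℂ) • (t * (z * z))) (z * (z * z))
        rw [norm_smul] at a5
        rw [norm_neg, norm_smul, pow_succ]
        norm_num at a5 ⊢
        linarith
      · have e : t + -((2⁻¹ : ℂ) • ((3 : ℂ) • (t * (z * z)) + z * (z * z))) = (2⁻¹ : ℂ) •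
            ((3 : ℂ) • (t + z) - (t + z) * ((t + z) * (t + z))) := by
          have b1 : t * (t * z) = z := by rw [← mul_assoc, ht, one_mul]
          have b2 : z * (t * z) = t * (z * z) := by rw [← mul_assoc, ← h1, mul_assoc]
          simp only [mul_add, add_mul, ← h1, ht, mul_one, b1, b2]
          module
        rw [e]
        exact S.smul_mem (sub_mem (S.smul_mem h3 _) (mul_mem h3 (mul_mem h3 h3))) _
  refine hS t fun ε hε => ?_
  obtain ⟨n, hn⟩ := exists_pow_lt_of_lt_one hε (by norm_num : (5 / 9 : ℝ) < 1)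
  obtain ⟨z, -, h2, h3⟩ := key n
  refine ⟨_, h3, ?_⟩
  have := n2_le_norm z
  have : (0 : ℝ) < (5 / 9) ^ n := by positivity
  simp; linarith

lemma series {s : ℕ → A} (h1 : ∀ n, Sym ⊤ 1 (s n)) (h2 : ∀ m n, m < n → s m * s n = s n * s m) :
    ∃ a, star a = a ∧ ‖a‖ ≤ 2 ∧ ∀ S : StarSubalgebra ℂ A, C2 (S : Set A) → a ∈ S → ∀ n, s n ∈ S := by
  let a : ℕ → A := fun k => ∑' n, (4⁻¹ : ℂ) ^ n • s (n + k)
  have hg : HasSum (fun n : ℕ => (4⁻¹ : ℝ) ^ n) (4 / 3) := by
    convert hasSum_geometric_of_lt_one (r := (4⁻¹ : ℝ)) (by norm_num) (by norm_num) using 1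
    norm_num
  have hb : ∀ k n, ‖(4⁻¹ : ℂ) ^ n • s (n + k)‖ ≤ 4⁻¹ ^ n := fun k n => by
    rw [norm_smul, norm_pow, norm_inv, Complex.norm_ofNat]
    exact mul_le_of_le_one_right (by positivity) (h1 _).le
  have ha : ∀ k, ‖a k‖ ≤ 4 / 3 := fun k => tsum_of_norm_bounded hg (hb k)
  have hr : ∀ k, a k = s k + (4⁻¹ : ℂ) • a (k + 1) := fun k => by
    simp only [a]
    rw [(Summable.of_norm_bounded hg.summable (hb k)).tsum_eq_zero_add, ← tsum_const_smul'']
    simp [pow_succ', mul_smul, add_assoc, add_comm 1 k]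
  refine ⟨a 0, ?_, (ha 0).trans (by norm_num), fun S hS h n => ?_⟩
  · simp only [a, tsum_star, star_smul, star_pow, star_inv₀, star_ofNat, (h1 _).sa]
  · have key : ∀ k, a k ∈ S → s k ∈ S := fun k h => by
      refine sign_mem hS (h1 k).sq (h1 k).le ?_ ?_ (hr k ▸ h)
      · exact (Commute.tsum_right _ fun n => Commute.smul_right (h2 k _ (by omega)) _).smul_right _
      · rw [norm_smul, norm_inv, Complex.norm_ofNat]; linarith [ha (k + 1)]
    refine key n ?_
    induction n with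
    | zero => exact h
    | succ n ih =>
      have : a (n + 1) = (4 : ℂ) • (a n - s n) := by rw [hr n]; module
      rw [this]
      exact S.smul_mem (sub_mem ih (key n ih)) _

theorem four [Cpl A] [Sep A] (F : Fac (⊤ : StarSubalgebra ℂ A)) : ∃ c : Fin 4 → A,
    (∀ i, star (c i) = c i ∧ ‖c i‖ ≤ 2) ∧
    ∀ S : StarSubalgebra ℂ A, C2 (S : Set A) → (∀ i, c i ∈ S) → S = ⊤ := by
  obtain ⟨s, t, h1, h2, h3⟩ := tower F
  let Q : StarSubalgebra ℂ A := sInf {S | C2 (S : Set A) ∧ ∀ n, s n ∈ S ∧ t n ∈ S}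
  have hm : ∀ x, x ∈ Q ↔ ∀ S : StarSubalgebra ℂ A, (C2 (S : Set A) ∧ ∀ n, s n ∈ S ∧ t n ∈ S) →
    x ∈ S := fun x => StarSubalgebra.mem_sInf
  have hQ : C2 (Q : Set A) := fun x hx => (hm x).2 fun S hS => hS.1 x fun ε hε =>
    let ⟨y, hy, h⟩ := hx ε hε; ⟨y, (hm y).1 hy S hS, h⟩
  have hs : ∀ n, s n ∈ Q := fun n => (hm _).2 fun S hS => (hS.2 n).1
  have ht : ∀ n, t n ∈ Q := fun n => (hm _).2 fun S hS => (hS.2 n).2
  have hI : Irr Q ⊤ := fun x _ h => h3 x fun n => ⟨h _ (hs n), h _ (ht n)⟩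
  have hD : InfD Q := fun T hT => by
    have a1 : ∀ m n, m < n → tr (s m * s n) = 0 := fun m n h => tr_anti (h1 m).2.1.sq (one_mul _) (by
      rw [mul_assoc, ← (h2 m n h).2.1, ← mul_assoc, (h1 m).2.2, neg_mul, mul_assoc])
    have a2 : Orthonormal ℂ fun n => toL2 (s n) := ⟨fun n => n2_unit (h1 n).1.unit, fun m n h => by
      show tr (star (s m) * s n) = 0
      rw [(h1 m).1.sa]
      rcases lt_or_gt_of_ne h with h | h
      · exact a1 _ _ h
      · rw [tr_comm]; exact a1 _ _ h⟩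
    have a3 : LinearIndependent ℂ s := LinearIndependent.of_comp toL2.toLinearMap a2.linearIndependent
    have := a3.finite_of_le_span_finite s (T : Set A) (by rintro _ ⟨n, rfl⟩; exact hT (hs n))
    exact not_finite ℕ
  obtain ⟨u, hu, h4⟩ := exists_gen ⟨hQ, C2_univ, le_top, hI, halve hQ (fun x _ => hI x trivial) hD⟩
  obtain ⟨a, a1, a2, a3⟩ := series (fun n => (h1 n).1) fun m n h => (h2 m n h).1
  obtain ⟨b, b1, b2, b3⟩ := series (fun n => (h1 n).2.1) fun m n h => (h2 m n h).2.2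
  have u1 := unit_le hu
  have u2 := unit_le (ustar hu)
  refine ⟨![a, b, u + star u, I • (u - star u)], fun i => ?_, fun S hS h => h4 S hS
    (fun x hx => (hm x).1 hx S ⟨hS, fun n => ⟨a3 S hS (h 0) n, b3 S hS (h 1) n⟩⟩) ?_⟩
  · fin_cases i
    · exact ⟨a1, a2⟩
    · exact ⟨b1, b2⟩
    · exact ⟨by simp [add_comm], (norm_add_le _ _).trans (by linarith)⟩
    · refine ⟨by simp [star_smul, smul_sub]; abel, ?_⟩
      have := norm_sub_le u (star u)
      simp [norm_smul]; linarith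
  · have : u = (2⁻¹ : ℂ) • ((u + star u) - I • I • (u - star u)) := by
      rw [smul_smul, I_mul_I]; module
    rw [this]
    exact S.smul_mem (sub_mem (h 2) (S.smul_mem (h 3) _)) _

noncomputable instance subTr (N : StarSubalgebra ℂ A) [IsClosed (N : Set A)] : TrAlg N where
  trl := tr ∘ₗ N.subtype.toLinearMap
  tr_one' := tr_one
  tr_comm' x y := tr_comm x.1 y.1
  tr_star' x := tr_star x.1
  tr_pos' x := tr_pos x.1
  tr_faith' _ h := Subtype.ext (tr_faith h)

lemma n2_sub (N : StarSubalgebra ℂ A) [IsClosed (N : Set A)] (x : N) : n2 x = n2 x.1 :=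
  (pow_left_inj₀ (n2_nonneg _) (n2_nonneg _) two_ne_zero).1 (by rw [n2_sq, n2_sq]; rfl)

theorem four' [Cpl A] [Sep A] {N : StarSubalgebra ℂ A} (F : Fac N) : ∃ c : Fin 4 → A,
    (∀ i, c i ∈ N ∧ star (c i) = c i ∧ ‖c i‖ ≤ 2) ∧
    ∀ S : StarSubalgebra ℂ A, C2 (S : Set A) → (∀ i, c i ∈ S) → N ≤ S := by
  classical
  have := F.c2.isClosed
  have : Cpl N := ⟨fun x C h1 h2 => by
    obtain ⟨y, h3, h4⟩ := Cpl.cpl (fun n => (x n).1) C h1 (by simp only [n2_sub] at h2; exact h2)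
    exact ⟨⟨y, F.c2.lim (Eventually.of_forall fun n => (x n).2) h4⟩, h3, by
      simp only [n2_sub]; exact h4⟩⟩
  have : Sep N := ⟨by
    have := Sep.sep (A := A)
    refine (Isometry.isUniformInducing (f := fun x : L2 N => toL2 (toL2.symm x).1)
      (Isometry.of_dist_eq fun x y => ?_)).isInducing.secondCountableTopology
    rw [dist_eq_norm, dist_eq_norm, ← map_sub]
    exact (n2_sub N (toL2.symm x - toL2.symm y)).symm⟩
  obtain ⟨c, h1, h2⟩ := four (A := N) ⟨C2_univ, fun x _ h => Subtype.ext (F.irr x.1 x.2 fun q hq =>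
    congrArg Subtype.val (h ⟨q, hq⟩ trivial)), fun T hT => F.inf (T.image Subtype.val) fun x hx => by
      have := Submodule.apply_mem_span_image_of_mem_span N.subtype.toLinearMap (hT (a := ⟨x, hx⟩) trivial)
      simpa using this⟩
  refine ⟨fun i => (c i).1, fun i => ⟨(c i).2, congrArg Subtype.val (h1 i).1, (h1 i).2⟩,
    fun S hS h x hx => ?_⟩
  have := h2 (S.comap N.subtype) (fun x hx => hS x.1 fun ε hε =>
    let ⟨y, hy, h⟩ := hx ε hε; ⟨y.1, hy, by rwa [n2_sub] at h⟩) h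
  have h3 : (⟨x, hx⟩ : N) ∈ S.comap N.subtype := by rw [this]; trivial
  exact h3

theorem single [Cpl A] [Sep A] (F : Fac (⊤ : StarSubalgebra ℂ A)) : ∃ x : A,
    ∀ S : StarSubalgebra ℂ A, C2 (S : Set A) → x ∈ S → S = ⊤ := by
  obtain ⟨v, hv, hH⟩ := F.good.hlv 1 trivial (IsStarProjection.one A)
  obtain ⟨hs, ht, h⟩ := hH.pair hv
  generalize v + star v = s at *
  generalize v * star v - star v * v = t at *
  obtain ⟨c, h1, h2⟩ := four' (F.next hs ht h)
  have hc := fun i => (mem_nxt hs ht).1 (h1 i).1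
  have h' : t * s = -(s * t) := by rw [h, neg_neg]
  let z : Fin 4 → Fin 4 → A := fun i j => pl 1 t * c i + pl 1 (-t) * c j
  have z1 : ∀ i j, star (z i j) = z i j := fun i j => by
    simp [z, pl, add_mul, (h1 _).2.1, ht.sa, (hc _).2.2]
  have z2 : ∀ i j, t * z i j = z i j * t := fun i j => by
    simp [z, pl, mul_add, add_mul, mul_assoc, (hc _).2.2, ← mul_assoc t]
  have z3 : ∀ i j, ‖z i j‖ ≤ 4 := fun i j => by
    have a := (norm_mul_le _ _).trans (mul_le_mul (ple ht.pl_proj) (h1 i).2.2 (norm_nonneg _) zero_le_one)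
    have b := (norm_mul_le _ _).trans (mul_le_mul (ple ht.neg.pl_proj) (h1 j).2.2 (norm_nonneg _)
      zero_le_one)
    exact (norm_add_le _ _).trans (by linarith)
  have z4 : ∀ i j, c i = pl 1 t * z i j + s * (pl 1 t * z i j) * s ∧
      c j = pl 1 (-t) * z i j + s * (pl 1 (-t) * z i j) * s := fun i j => by
    have a : ∀ t, Sym ⊤ 1 t → s * t = -(t * s) → ∀ i,
        c i = pl 1 t * c i + s * (pl 1 t * c i) * s := fun t ht h i => by
      have : s * (pl 1 t * c i) * s = pl 1 (-t) * c i := by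
        rw [mul_assoc, mul_assoc, ← (hc i).2.1, ← mul_assoc, ← mul_assoc]
        congr 1
        simp [pl, mul_add, add_mul, h, hs.sq, mul_assoc]
      rw [this, ← add_mul, pl_add, one_mul]
    have b := ht.pl_orth
    have b' := ht.neg.pl_orth
    rw [neg_neg] at b'
    simp only [z, mul_add, ← mul_assoc _ (pl 1 t), ← mul_assoc _ (pl 1 (-t)), b, b', pp ht.pl_proj,
      pp ht.neg.pl_proj, zero_mul, add_zero, zero_add]
    simp only [mul_assoc s (pl _ _)]
    exact ⟨a t ht h i, a _ ht.neg (by simp [h]) j⟩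
  refine ⟨((12 : ℂ) • t + z 0 1) + I • (s + z 2 3), fun S hS hx => ?_⟩
  obtain ⟨a, ha⟩ : ∃ a, a = (12 : ℂ) • t + z 0 1 := ⟨_, rfl⟩
  obtain ⟨b, hb⟩ : ∃ b, b = s + z 2 3 := ⟨_, rfl⟩
  rw [← ha, ← hb] at hx
  have a1 : star a = a := by simp [ha, z1, ht.sa]
  have b1 : star b = b := by simp [hb, z1, hs.sa]
  have hx' := star_mem hx
  rw [star_add, star_smul, a1, b1, star_def, conj_I] at hx'
  have a2 : a ∈ S := by
    convert S.smul_mem (add_mem hx hx') 2⁻¹ using 1; module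
  have b2 : b ∈ S := by
    convert S.smul_mem (sub_mem a2 hx) I using 1
    rw [sub_add_cancel_left, smul_neg, smul_smul, I_mul_I]; simp
  have t1 : t ∈ S := sign_mem hS ht.sq ht.le (z := (12⁻¹ : ℂ) • z 0 1)
    (by rw [mul_smul_comm, smul_mul_assoc, z2]) (by
      rw [norm_smul, norm_inv, Complex.norm_ofNat]; linarith [z3 0 1]) (by
      convert S.smul_mem a2 12⁻¹ using 1; rw [ha]; module)
  have s1 : s ∈ S := by
    convert S.smul_mem (sub_mem b2 (mul_mem (mul_mem t1 b2) t1)) 2⁻¹ using 1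
    rw [hb, mul_add, add_mul, z2, h', mul_assoc, ht.sq, neg_mul, mul_assoc, ht.sq, mul_one, mul_one]
    module
  have p1 : pl 1 t ∈ S := S.smul_mem (add_mem (one_mem _) t1) _
  have p2 : pl 1 (-t) ∈ S := S.smul_mem (add_mem (one_mem _) (neg_mem t1)) _
  have z5 : z 0 1 ∈ S := by convert sub_mem a2 (S.smul_mem t1 12) using 1; rw [ha]; abel
  have z6 : z 2 3 ∈ S := by convert sub_mem b2 s1 using 1; rw [hb]; abel
  have m : ∀ p ∈ S, ∀ z ∈ S, p * z + s * (p * z) * s ∈ S := fun p hp z hz =>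
    add_mem (mul_mem hp hz) (mul_mem (mul_mem s1 (mul_mem hp hz)) s1)
  have hN := h2 S hS fun i => by
    fin_cases i
    · exact (z4 0 1).1 ▸ m _ p1 _ z5
    · exact (z4 0 1).2 ▸ m _ p2 _ z5
    · exact (z4 2 3).1 ▸ m _ p1 _ z6
    · exact (z4 2 3).2 ▸ m _ p2 _ z6
  refine eq_top_iff.2 fun x _ => ?_
  obtain ⟨a, ha, b, hb, c, hc, d, hd, rfl⟩ := decomp hs ht h (x := x) trivial
  exact add_mem (add_mem (hN ha) (mul_mem (hN hb) s1))
    (mul_mem (add_mem (hN hc) (mul_mem (hN hd) s1)) t1)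

end Vale.Agent.P085
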