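import Vale.Agent.P085.Pert

/-! Words in a unitary and their variation under a perturbation. -/

open scoped ComplexConjugate
open Filter Topology Complex

namespace Vale.Agent.P085

set_option linter.unusedSectionVars false

variable {A : Type*} [CStarAlgebra A]

def wd (u : A) : List A → A
  | [] => 1
  | a :: L => a * u * wd u L

@[simp] lemma wd_nil (u : A) : wd u [] = 1 := rfl
@[simp] lemma wd_cons (u a : A) (L : List A) : wd u (a :: L) = a * u * wd u L := rfl

lemma wd_append (u : A) (L M : List A) : wd u (L ++ M) = wd u L * wd u M := by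
  induction L with
  | nil => simp
  | cons a L ih => simp [ih, mul_assoc]

def UL (L : List A) : Prop := ∀ a ∈ L, a ∈ unitary A

lemma UL.left {L M : List A} (h : UL (L ++ M)) : UL L := fun a ha => h a (List.mem_append_left _ ha)
lemma UL.right {L M : List A} (h : UL (L ++ M)) : UL M :=
  fun a ha => h a (List.mem_append_right _ ha)
lemma UL.take {L : List A} (h : UL L) (n : ℕ) : UL (L.take n) :=
  fun a ha => h a (List.mem_of_mem_take ha)
lemma UL.drop {L : List A} (h : UL L) (n : ℕ) : UL (L.drop n) :=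
  fun a ha => h a (List.mem_of_mem_drop ha)

lemma wd_unit {u : A} (hu : u ∈ unitary A) {L : List A} (h : UL L) : wd u L ∈ unitary A := by
  induction L with
  | nil => exact one_mem _
  | cons a L ih =>
    exact mul_mem (mul_mem (h a List.mem_cons_self) hu) (ih fun b hb => h b (List.mem_cons_of_mem _ hb))

lemma wd_mem {S : StarSubalgebra ℂ A} {u : A} (hu : u ∈ S) {L : List A} (h : ∀ a ∈ L, a ∈ S) :
    wd u L ∈ S := by
  induction L with
  | nil => exact one_mem _
  | cons a L ih =>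
    exact mul_mem (mul_mem (h a List.mem_cons_self) hu) (ih fun b hb => h b (List.mem_cons_of_mem _ hb))

lemma tele (N : A → ℝ) (hN : ∀ x y, N (x + y) ≤ N x + N y) (h0 : N 0 ≤ 0) (u k E : A) (β : ℝ)
    (L : List A) : ∀ P : A, (∀ L₁ L₂, L₁ ++ L₂ = L → L₁ ≠ [] →
      N (P * wd u L₁ * k * wd (u * (1 + k)) L₂ - E) ≤ β) →
    N (P * (wd (u * (1 + k)) L - wd u L) - (L.length : ℂ) • E) ≤ L.length * β := by
  induction L with
  | nil => intro P _; simpa using h0
  | cons a L ih =>
    intro P h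
    have h1 := h [a] L rfl (by simp)
    have h2 := ih (P * (a * u)) fun L₁ L₂ e _ => by
      have := h (a :: L₁) L₂ (by simp [e]) (by simp)
      simpa [mul_assoc] using this
    have h3 : P * (wd (u * (1 + k)) (a :: L) - wd u (a :: L)) - ((a :: L).length : ℂ) • E
        = (P * wd u [a] * k * wd (u * (1 + k)) L - E) +
          (P * (a * u) * (wd (u * (1 + k)) L - wd u L) - (L.length : ℂ) • E) := by
      simp only [wd_cons, wd_nil, List.length_cons, Nat.cast_succ, add_smul, one_smul]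
      generalize wd (u * (1 + k)) L = w
      noncomm_ring
    rw [h3]
    refine (hN _ _).trans ?_
    simp only [List.length_cons, Nat.cast_succ]
    linarith

lemma tele0 (N : A → ℝ) (hN : ∀ x y, N (x + y) ≤ N x + N y) (h0 : N 0 ≤ 0) (u k : A) {β : ℝ}
    (hβ : 0 ≤ β) {L : List A} {d : ℕ} (hd : L.length ≤ d) (P : A)
    (h : ∀ L₁ L₂, L₁ ++ L₂ = L → L₁ ≠ [] → N (P * wd u L₁ * k * wd (u * (1 + k)) L₂) ≤ β) :
    N (P * (wd (u * (1 + k)) L - wd u L)) ≤ d * β := by
  have := tele N hN h0 u k 0 β L P (by simpa using h)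
  rw [smul_zero, sub_zero] at this
  exact this.trans (mul_le_mul_of_nonneg_right (by exact_mod_cast hd) hβ)

variable [TrAlg A]

lemma trN (x y : A) : ‖tr (x + y)‖ ≤ ‖tr x‖ + ‖tr y‖ := by rw [map_add]; exact norm_add_le _ _

section
variable {ι : Type*} [Fintype ι] [DecidableEq ι] {bar : ι → ι} {c : ι → A} {p : A} {σ : ℝ}
  {k R u : A}

lemma old_word (H : PH bar c p σ) (K : Cay (hh bar c p σ) k R) (hu : u ∈ unitary A) (Y : A)
    {L : List A} (hL : UL L) {μ ε₁ ε₂ α : ℝ} (hμ : 0 ≤ μ) (hε₁ : 0 ≤ ε₁) (hε₂ : 0 ≤ ε₂) (hα : 0 ≤ α)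
    (h1 : ∀ L₁ L₂, L₁ ++ L₂ = L → er c p (wd u L₂ * Y * wd u L₁) ≤ ε₁)
    (h2 : ∀ L₁ L₂, L₁ ++ L₂ = L → ∑ a, n2 (Y * wd u L₁ * c a * p) ≤ α)
    (h3 : ∀ L₁ L₂ L₃, L₁ ++ (L₂ ++ L₃) = L → er c p (wd u L₂) ≤ ε₂)
    (h4 : ∀ L₁ L₂ L₃, L₁ ++ (L₂ ++ L₃) = L → L₁ ≠ [] → L₂ ≠ [] → ‖tr (wd u L₂)‖ ≤ μ) :
    ‖tr (Y * wd (u * (1 + k)) L) - tr (Y * wd u L)‖ ≤ L.length *
      (2 * σ ^ 2 * Fintype.card ι * n2 p ^ 2 * ‖tr (Y * wd u L)‖ + 4 * n2 p * ε₁ +
        L.length * (8 * σ ^ 2 * α * (Fintype.card ι * (n2 p * μ) + ε₂))) := by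
  have hp := n2_nonneg p
  have hu' : u * (1 + k) ∈ unitary A := mul_mem hu K.un
  rw [← map_sub, ← mul_sub]
  refine tele0 (fun x => ‖tr x‖) trN (by simp) u k (by positivity) le_rfl Y fun L₁ L₂ e hn => ?_
  have a1 := H.V12 K (wd u L₂ * Y * wd u L₁)
  rw [tr_cyc (wd u L₂), mul_assoc Y _ (wd u L₂), ← wd_append, e, tr_comm, tr_rot] at a1
  have a2 := tele0 (fun x => ‖tr x‖) trN (by simp) u k (d := L.length) (L := L₂)
    (β := 8 * σ ^ 2 * α * (Fintype.card ι * (n2 p * μ) + ε₂)) (by positivity)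
    (by rw [← e]; simp) (Y * wd u L₁ * k) fun M₁ M₂ e' hn' => by
      subst e'
      refine (H.V3 K _ _ (unit_le (wd_unit hu' (e ▸ hL : UL (L₁ ++ (M₁ ++ M₂))).right.right))).trans ?_
      have := h2 _ _ e
      have := h3 _ _ _ e
      have := h4 _ _ _ e hn hn'
      have := er_nonneg c p (wd u M₁)
      have : 0 ≤ ∑ a, n2 (Y * wd u L₁ * c a * p) := Finset.sum_nonneg fun _ _ => n2_nonneg _
      gcongr
  have a3 : Y * wd u L₁ * k * wd (u * (1 + k)) L₂ = Y * wd u L₁ * k * wd u L₂ +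
      Y * wd u L₁ * k * (wd (u * (1 + k)) L₂ - wd u L₂) := by noncomm_ring
  rw [a3]
  refine (trN _ _).trans (add_le_add (a1.trans ?_) a2)
  have := h1 _ _ e
  gcongr

lemma crude_word (H : PH bar c p σ) (K : Cay (hh bar c p σ) k R) (hu : u ∈ unitary A)
    {L : List A} (hL : UL L) {d : ℕ} (hd : L.length ≤ d) :
    ‖tr (wd (u * (1 + k)) L) - tr (wd u L)‖ ≤ d * (2 * σ * Fintype.card ι * n2 p ^ 2) := by
  have hu' : u * (1 + k) ∈ unitary A := mul_mem hu K.un
  have := H.s0
  have := tele0 (fun x => ‖tr x‖) trN (by simp) u k (β := 2 * σ * Fintype.card ι * n2 p ^ 2)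
    (by positivity) hd 1 fun L₁ L₂ e _ => by
      subst e
      rw [one_mul, tr_cyc']
      exact H.V0 K (unit_le (mul_mem (wd_unit hu' hL.right) (wd_unit hu hL.left)))
  rwa [one_mul, map_sub] at this

end

def br {d : ℕ} (a : Fin d × Bool) : Fin d × Bool := (a.1, !a.2)

def cc (d : ℕ) (u W b : A) (L : List A) (a : Fin d × Bool) : A :=
  if a.2 then wd u (L.drop (a.1 + 1)) * b * star W else star (wd u (L.take (a.1 + 1)))

omit [TrAlg A] in
lemma cc_PH {d : ℕ} {u W b p : A} {L : List A} {σ : ℝ} (hu : u ∈ unitary A) (hW : W ∈ unitary A)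
    (hb : b ∈ unitary A) (hL : UL L) (hp : IsStarProjection p) (h0 : 0 ≤ σ) (h1 : σ ≤ 1) :
    PH br (cc d u W b L) p σ := by
  refine ⟨fun a => by simp [br], fun a h => by simpa [br] using congrArg Prod.snd h, fun a => ?_,
    hp, h0, h1⟩
  unfold cc
  split_ifs
  · exact mul_mem (mul_mem (wd_unit hu (hL.drop _)) hb) (ustar hW)
  · exact ustar (wd_unit hu (hL.take _))

lemma split_idx {α : Type*} {L L₁ L₂ : List α} {d : ℕ} (hd : L.length = d) (e : L₁ ++ L₂ = L)
    (hn : L₁ ≠ []) : ∃ l : Fin d, L.take (l + 1) = L₁ ∧ L.drop (l + 1) = L₂ := by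
  have h1 := List.length_pos_iff.2 hn
  have h2 : L₁.length ≤ d := by rw [← hd, ← e]; simp
  refine ⟨⟨L₁.length - 1, by omega⟩, ?_⟩
  have : L₁.length - 1 + 1 = L₁.length := by omega
  simp [this, ← e]

lemma own_word {d : ℕ} {u W b p k R : A} {L : List A} {σ : ℝ} (hu : u ∈ unitary A)
    (hb : b ∈ unitary A) (hL : UL L) (hd : L.length = d)
    (H : PH br (cc d u W b L) p σ) (K : Cay (hh br (cc d u W b L) p σ) k R) :
    n2 (p * (wd (u * (1 + k)) L - wd u L) * b - (2 * I * σ * d) • (p * W)) ≤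
      d * (2 * σ * er (cc d u W b L) p 1 +
        (2 * σ ^ 2 + 4 * d * σ ^ 2) * (n2 p + er (cc d u W b L) p 1)) := by
  have hu' : u * (1 + k) ∈ unitary A := mul_mem hu K.un
  have hs := H.s0
  have he := er_nonneg (cc d u W b L) p 1
  have hp := n2_nonneg p
  have := tele (fun x => n2 (x * b)) (fun x y => by rw [add_mul]; exact n2_add_le _ _) (by simp)
    u k ((2 * I * σ) • (p * W * star b)) (2 * σ * er (cc d u W b L) p 1 +
        (2 * σ ^ 2 + 4 * d * σ ^ 2) * (n2 p + er (cc d u W b L) p 1)) L p fun L₁ L₂ e hn => by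
      obtain ⟨l, h1, h2⟩ := split_idx hd e hn
      have hL₂ : UL L₂ := (e ▸ hL : UL (L₁ ++ L₂)).right
      have c0 : star (cc d u W b L (l, false)) = wd u L₁ := by simp [cc, h1]
      have c1 : star (cc d u W b L (l, true)) = W * star b * star (wd u L₂) := by
        simp [cc, h2, mul_assoc]
      have a1 := H.row1 (l, false)
      have a2 := H.pck K (l, true)
      rw [show br (l, false) = (l, true) from rfl, c0, c1] at a1
      rw [c1] at a2
      have a3 := tele0 n2 n2_add_le (by simp) u k (d := d) (L := L₂)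
        (β := 2 * σ * (n2 p + er (cc d u W b L) p 1)) (by positivity) (by rw [← hd, ← e]; simp)
        (p * (W * star b * star (wd u L₂))) fun M₁ M₂ e' hn' => by
          subst e'
          obtain ⟨l', -, h4⟩ := split_idx hd ((List.append_assoc L₁ M₁ M₂).trans e) (by simp [hn])
          have := H.pck K (l', true)
          rw [show star (cc d u W b L (l', true)) = W * star b * star (wd u M₂) by
            simp [cc, h4, mul_assoc]] at this
          rw [n2_uright (wd_unit hu' hL₂.right), wd_append, star_mul, mul_assoc p, mul_assoc (W * _),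
            mul_assoc (star _), usu (wd_unit hu hL₂.left), mul_one]
          exact this
      obtain ⟨T, hT⟩ : ∃ T, T = p * (W * star b * star (wd u L₂)) := ⟨_, rfl⟩
      obtain ⟨w', hw'⟩ : ∃ w', w' = wd (u * (1 + k)) L₂ := ⟨_, rfl⟩
      have hw'u : w' ∈ unitary A := hw' ▸ wd_unit hu' hL₂
      rw [← hT] at a1 a2 a3
      rw [← hw'] at a3 ⊢
      have a4 : p * W * star b = T * wd u L₂ := by
        rw [hT, mul_assoc p _ (wd u L₂), mul_assoc _ _ (wd u L₂), usu (wd_unit hu hL₂)]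
        simp [mul_assoc]
      have a5 : p * wd u L₁ * k * w' - (2 * I * σ) • (p * W * star b) =
          (2 * I) • ((p * wd u L₁ * hh br (cc d u W b L) p σ - (σ : ℂ) • T) * R * w')
          + (I * σ) • (T * k * w') + (2 * I * σ) • (T * (w' - wd u L₂)) := by
        have a6 : T * R * w' = T * w' + (2⁻¹ : ℂ) • (T * k * w') := by
          rw [K.Rk, mul_add, add_mul, mul_one, mul_smul_comm, smul_mul_assoc]
        nth_rewrite 1 [K.hR]
        rw [a4, sub_mul, sub_mul, smul_mul_assoc, smul_mul_assoc, a6, mul_sub, mul_smul_comm,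
          smul_mul_assoc, ← mul_assoc]
        module
      show n2 _ ≤ _
      rw [n2_uright hb, a5]
      refine (n2_add_le _ _).trans ((add_le_add (n2_add_le _ _) le_rfl).trans ?_)
      simp only [n2_smul, n2_uright hw'u, norm_mul, Complex.norm_ofNat, norm_I, norm_real,
        Real.norm_of_nonneg hs, mul_one, one_mul]
      have a7 := (n2_right_le K.R_le _).trans a1
      have a8 := mul_le_mul_of_nonneg_left a2 hs
      have a9 := mul_le_mul_of_nonneg_left a3 hs
      nlinarith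
  rw [hd, sub_mul, smul_mul_assoc, smul_mul_assoc, mul_assoc _ (star b), usu hb, mul_one, smul_smul,
    mul_comm (d : ℂ)] at this
  exact this

end Vale.Agent.P085
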